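/-
S0351 package CHAR0: the abstract lemmas `poly_vanish_product`, `leading_form_vanish` of `Char0/Core.lean`
(helper50; sorry-free modulo nothing but `Eval`).
-/
import Crest.Agent.LT.Eval

set_option autoImplicit false
set_option linter.unusedSectionVars false
set_option linter.unusedVariables false

open Crest.LubinTate

namespace Crest.Agent.LT

noncomputable section

variable {C : Type} [NontriviallyNormedField C] [IsUltrametricDist C] [CompleteSpace C]

private lemma eval_bind₁_linear {m m' : ℕ} (L : Matrix (Fin m) (Fin m') C) (t : Fin m' → C)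
    (Q : MvPolynomial (Fin m) C) :
    MvPolynomial.eval t
        (MvPolynomial.bind₁ (fun i : Fin m => ∑ a : Fin m', MvPolynomial.C (L i a) * MvPolynomial.X a) Q) =
      MvPolynomial.eval (L.mulVec t) Q := by
  have h1 : (fun i : Fin m => MvPolynomial.eval t
      (∑ a : Fin m', MvPolynomial.C (L i a) * MvPolynomial.X a)) = L.mulVec t := by
    funext i
    simp [Matrix.mulVec, dotProduct]
  rw [← h1]
  induction Q using MvPolynomial.induction_on with
  | C a => simp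
  | add f g hf hg => simp only [map_add, hf, hg]
  | mul_X f n hf =>
    simp only [map_mul, hf, MvPolynomial.bind₁_X_right, MvPolynomial.eval_X]

/-- **Abstract polynomial step.** A polynomial `Q` vanishing on the image under a surjective linear map `L` of a product of infinite sets is `0`.
Used with `T_a = {p^s : s ≡ a mod (n+1)}`. (`MvPolynomial.funext`-style on infinite sets: `Q ∘ L` has all coefficients `0`; `L` surjective.) -/
theorem poly_vanish_product {m m' : ℕ} (Q : MvPolynomial (Fin m) C) (L : Matrix (Fin m) (Fin m') C)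
    (hL : Function.Surjective L.mulVec) (T : Fin m' → Set C) (hT : ∀ a, (T a).Infinite)
    (h0 : ∀ t : Fin m' → C, (∀ a, t a ∈ T a) → MvPolynomial.eval (L.mulVec t) Q = 0) : Q = 0 := by
  classical
  -- the composite polynomial
  let Q' : MvPolynomial (Fin m') C :=
    MvPolynomial.bind₁ (fun i : Fin m => ∑ a : Fin m', MvPolynomial.C (L i a) * MvPolynomial.X a) Q
  have hQ' : ∀ t : Fin m' → C, MvPolynomial.eval t Q' = MvPolynomial.eval (L.mulVec t) Q := by
    intro t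
    exact eval_bind₁_linear L t Q
  have hQ0 : Q' = 0 := by
    apply MvPolynomial.funext_set T hT
    intro t ht
    rw [hQ', map_zero]
    exact h0 t (fun a => ht a (Set.mem_univ a))
  apply MvPolynomial.funext
  intro x
  obtain ⟨t, rfl⟩ := hL x
  rw [← hQ', hQ0, map_zero, map_zero]


/-- Crude operator bound for `mulVec`. -/
private lemma norm_mulVec_le {n n' : ℕ} (X : Matrix (Fin n) (Fin n') C) (x : Fin n' → C) :
    ‖X.mulVec x‖ ≤ (∑ s, ∑ j, ‖X s j‖) * ‖x‖ := by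
  have hnn : 0 ≤ ∑ s, ∑ j, ‖X s j‖ :=
    Finset.sum_nonneg fun _ _ => Finset.sum_nonneg fun _ _ => norm_nonneg _
  refine (pi_norm_le_iff_of_nonneg (by positivity)).mpr fun s => ?_
  have h1 : ‖X.mulVec x s‖ ≤ ∑ j, ‖X s j‖ * ‖x j‖ := by
    simp only [Matrix.mulVec, dotProduct]
    exact (norm_sum_le _ _).trans (Finset.sum_le_sum fun j _ => norm_mul_le _ _)
  have h2 : ∑ j, ‖X s j‖ * ‖x j‖ ≤ (∑ j, ‖X s j‖) * ‖x‖ := by
    rw [Finset.sum_mul]
    exact Finset.sum_le_sum fun j _ => by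
      gcongr
      exact norm_le_pi_norm x j
  have h3 : ∑ j, ‖X s j‖ ≤ ∑ s, ∑ j, ‖X s j‖ :=
    Finset.single_le_sum (f := fun s => ∑ j, ‖X s j‖)
      (fun s _ => Finset.sum_nonneg fun _ _ => norm_nonneg _) (Finset.mem_univ s)
  exact h1.trans (h2.trans (by gcongr))

/-- The linear-algebra estimate behind `leading_form_vanish`. -/
private lemma chart_estimate {m : ℕ} (Mat : Matrix (Fin (m + 1)) (Fin (m + 1)) C) (hMat : IsUnit Mat.det)
    (w : Fin (m + 1) → C) (hw : ∀ s, Mat s 0 = w s) (K : ℝ) :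
    ∃ (K₁ K₅ ε : ℝ), 0 ≤ K₁ ∧ 0 ≤ K₅ ∧ 0 < ε ∧ ∀ (V : Fin (m + 1) → C) (A : Fin m → C) (c : C),
      ‖A‖ ≤ ε → ‖c - 1‖ ≤ ε →
      (∀ s, ‖c * (w s + ∑ k : Fin m, Mat s k.succ * A k) - w s - V s‖ ≤ K * ‖A‖ ^ 2) →
      ‖A‖ ≤ K₁ * ‖V‖ ∧ ∀ k : Fin m, ‖A k - (Mat⁻¹.mulVec V) k.succ‖ ≤ K₅ * ‖V‖ ^ 2 := by
  classical
  set M : ℝ := ∑ s, ∑ j, ‖Mat s j‖ with hM
  set N : ℝ := ∑ s, ∑ j, ‖(Mat⁻¹) s j‖ with hN
  have hM0 : 0 ≤ M := Finset.sum_nonneg fun _ _ => Finset.sum_nonneg fun _ _ => norm_nonneg _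
  have hN0 : 0 ≤ N := Finset.sum_nonneg fun _ _ => Finset.sum_nonneg fun _ _ => norm_nonneg _
  set K₀ : ℝ := |K| + M with hK₀
  have hK₀0 : 0 ≤ K₀ := by positivity
  set ε : ℝ := 1 / (2 * (N * K₀ + 1)) with hε
  have hε0 : 0 < ε := by positivity
  refine ⟨2 * N, 4 * N ^ 3 * K₀, ε, by positivity, by positivity, hε0, ?_⟩
  intro V A c hA hc hrel
  -- the vector `e = (c - 1, A)`
  let e : Fin (m + 1) → C := Fin.cons (c - 1) A
  have he0 : e 0 = c - 1 := rfl
  have hes : ∀ k : Fin m, e k.succ = A k := fun k => rfl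
  have hA_e : ‖A‖ ≤ ‖e‖ :=
    (pi_norm_le_iff_of_nonneg (norm_nonneg _)).mpr fun k => by
      rw [← hes k]; exact norm_le_pi_norm e k.succ
  have hc_e : ‖c - 1‖ ≤ ‖e‖ := by rw [← he0]; exact norm_le_pi_norm e 0
  have he_le : ‖e‖ ≤ ε := by
    refine (pi_norm_le_iff_of_nonneg hε0.le).mpr fun s => ?_
    refine Fin.cases ?_ (fun k => ?_) s
    · rw [he0]; exact hc
    · rw [hes]; exact (norm_le_pi_norm A k).trans hA
  -- the remainder
  let R : Fin (m + 1) → C := Mat.mulVec e - V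
  have hR : ‖R‖ ≤ K₀ * ‖e‖ ^ 2 := by
    refine (pi_norm_le_iff_of_nonneg (by positivity)).mpr fun s => ?_
    set S : C := ∑ k : Fin m, Mat s k.succ * A k with hS
    have hRs : R s = (c * (w s + S) - w s - V s) - (c - 1) * S := by
      simp only [R, Pi.sub_apply, Matrix.mulVec, dotProduct, Fin.sum_univ_succ, he0, hes, hw, ← hS]
      ring
    have hT : ‖c * (w s + S) - w s - V s‖ ≤ |K| * ‖e‖ ^ 2 := by
      refine (hrel s).trans ?_
      have h1 : K ≤ |K| := le_abs_self K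
      have h2 : ‖A‖ ^ 2 ≤ ‖e‖ ^ 2 := by gcongr
      calc K * ‖A‖ ^ 2 ≤ |K| * ‖A‖ ^ 2 := by gcongr
        _ ≤ |K| * ‖e‖ ^ 2 := by gcongr
    have hSn : ‖S‖ ≤ M * ‖e‖ := by
      have h1 : ‖S‖ ≤ ∑ k : Fin m, ‖Mat s k.succ‖ * ‖A k‖ :=
        (norm_sum_le _ _).trans (Finset.sum_le_sum fun j _ => norm_mul_le _ _)
      have h2 : ∑ k : Fin m, ‖Mat s k.succ‖ * ‖A k‖ ≤ (∑ k : Fin m, ‖Mat s k.succ‖) * ‖e‖ := by
        rw [Finset.sum_mul]
        exact Finset.sum_le_sum fun k _ => by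
          gcongr
          exact (norm_le_pi_norm A k).trans hA_e
      have h3 : ∑ k : Fin m, ‖Mat s k.succ‖ ≤ ∑ j, ‖Mat s j‖ := by
        rw [Fin.sum_univ_succ]
        linarith [norm_nonneg (Mat s 0)]
      have h4 : ∑ j, ‖Mat s j‖ ≤ M :=
        Finset.single_le_sum (f := fun s => ∑ j, ‖Mat s j‖)
          (fun s _ => Finset.sum_nonneg fun _ _ => norm_nonneg _) (Finset.mem_univ s)
      exact h1.trans (h2.trans (by gcongr; exact h3.trans h4))
    have hcS : ‖(c - 1) * S‖ ≤ M * ‖e‖ ^ 2 := by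
      rw [norm_mul]
      calc ‖c - 1‖ * ‖S‖ ≤ ‖e‖ * (M * ‖e‖) := by gcongr
        _ = M * ‖e‖ ^ 2 := by ring
    rw [hRs]
    calc _ ≤ ‖c * (w s + S) - w s - V s‖ + ‖(c - 1) * S‖ := norm_sub_le _ _
      _ ≤ |K| * ‖e‖ ^ 2 + M * ‖e‖ ^ 2 := add_le_add hT hcS
      _ = K₀ * ‖e‖ ^ 2 := by rw [hK₀]; ring
  -- decomposition
  let y : Fin (m + 1) → C := Mat⁻¹.mulVec V
  let z : Fin (m + 1) → C := Mat⁻¹.mulVec R
  have hdec : e = y + z := by
    have h1 : Mat⁻¹.mulVec (Mat.mulVec e) = e := by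
      rw [Matrix.mulVec_mulVec, Matrix.nonsing_inv_mul _ hMat, Matrix.one_mulVec]
    have h2 : Mat.mulVec e = V + R := by simp [R]
    rw [h2, Matrix.mulVec_add] at h1
    exact h1.symm
  have hy : ‖y‖ ≤ N * ‖V‖ := norm_mulVec_le _ _
  have hz : ‖z‖ ≤ N * (K₀ * ‖e‖ ^ 2) :=
    (norm_mulVec_le _ _).trans (by gcongr)
  have hz2 : ‖z‖ ≤ ‖e‖ / 2 := by
    refine hz.trans ?_
    have h1 : N * K₀ * ‖e‖ ≤ 1 / 2 := by
      have h2 : N * K₀ * ε ≤ 1 / 2 := by
        rw [hε]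
        rw [mul_one_div, div_le_iff₀ (by positivity)]
        nlinarith [mul_nonneg hN0 hK₀0]
      calc N * K₀ * ‖e‖ ≤ N * K₀ * ε := by gcongr
        _ ≤ 1 / 2 := h2
    have h3 : 0 ≤ ‖e‖ := norm_nonneg _
    nlinarith
  have he_y : ‖e‖ ≤ 2 * (N * ‖V‖) := by
    have h1 : ‖e‖ ≤ ‖y‖ + ‖z‖ := by rw [hdec]; exact norm_add_le _ _
    linarith
  refine ⟨?_, fun k => ?_⟩
  · exact hA_e.trans (by linarith)
  · have h1 : A k - (Mat⁻¹.mulVec V) k.succ = z k.succ := by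
      rw [← hes k, hdec]
      simp [y]
    rw [h1]
    refine (norm_le_pi_norm z k.succ).trans (hz.trans ?_)
    have h2 : ‖e‖ ^ 2 ≤ (2 * (N * ‖V‖)) ^ 2 := by gcongr
    calc N * (K₀ * ‖e‖ ^ 2) ≤ N * (K₀ * (2 * (N * ‖V‖)) ^ 2) := by gcongr
      _ = 4 * N ^ 3 * K₀ * ‖V‖ ^ 2 := by ring

/-- Homogeneity of evaluation. -/
private lemma eval_smul_of_homog {m d : ℕ} (fd : MvPolynomial (Fin m) C)
    (h : ∀ e : Fin m →₀ ℕ, e ∈ fd.support → e.degree = d) (t : C) (x : Fin m → C) :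
    MvPolynomial.eval (fun k => t * x k) fd = t ^ d * MvPolynomial.eval x fd := by
  rw [MvPolynomial.eval_eq', MvPolynomial.eval_eq', Finset.mul_sum]
  refine Finset.sum_congr rfl fun e he => ?_
  have h1 : ∏ i, (t * x i) ^ e i = t ^ d * ∏ i, x i ^ e i := by
    simp only [mul_pow, Finset.prod_mul_distrib, Finset.prod_pow_eq_pow_sum]
    congr 2
    rw [← h e he, Finsupp.degree_eq_sum]
  rw [h1]; ring

/-- The leading form at a zero of `f`. -/
private lemma norm_eval_leading_le {m d : ℕ} (f : MvPowerSeries (Fin m) (OC C)) (fd : MvPolynomial (Fin m) C)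
    (hfd' : ∀ e : Fin m →₀ ℕ, MvPolynomial.coeff e fd = if e.degree = d then cf f e else 0)
    (hord : ∀ e : Fin m →₀ ℕ, e.degree < d → cf f e = 0) (y : Fin m → C) (r : ℝ) (hr0 : 0 ≤ r)
    (hr1 : r < 1) (hy : ∀ i, ‖y i‖ ≤ r) (h0 : evMv f y = 0) :
    ‖MvPolynomial.eval y fd‖ ≤ r ^ (d + 1) := by
  classical
  let G : MvPowerSeries (Fin m) (OC C) := fun e => if e.degree ≤ d then 0 else MvPowerSeries.coeff e f
  have hGc : ∀ e, MvPowerSeries.coeff e G = if e.degree ≤ d then 0 else MvPowerSeries.coeff e f := by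
    intro e; rfl
  have hy1 : ∀ i, ‖y i‖ < 1 := fun i => (hy i).trans_lt hr1
  have hG : ‖evMv G y‖ ≤ r ^ (d + 1) := by
    refine norm_evMv_le_of_order G (d + 1) (fun e he => ?_) y r hr1 hr0 hy
    rw [hGc, if_pos (by omega)]
  have hterm : ∀ e : Fin m →₀ ℕ, cf f e * e.prod (fun i n => y i ^ n) =
      cf G e * e.prod (fun i n => y i ^ n) +
        MvPolynomial.coeff e fd * e.prod (fun i n => y i ^ n) := by
    intro e
    rw [hfd', ← add_mul]
    congr 1
    have hG0 : cf G e = if e.degree ≤ d then 0 else cf f e := by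
      simp only [cf, hGc]
      split_ifs <;> simp
    rw [hG0]
    rcases lt_trichotomy e.degree d with h | h | h
    · rw [if_pos h.le, if_neg h.ne, hord e h]; simp
    · rw [if_pos h.le, if_pos h]; simp
    · rw [if_neg (by omega), if_neg (by omega)]; simp
  have hfin : HasSum (fun e : Fin m →₀ ℕ => MvPolynomial.coeff e fd * e.prod (fun i n => y i ^ n))
      (MvPolynomial.eval y fd) := by
    rw [MvPolynomial.eval_eq']
    have : HasSum (fun e : Fin m →₀ ℕ => MvPolynomial.coeff e fd * e.prod (fun i n => y i ^ n))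
        (∑ e ∈ fd.support, MvPolynomial.coeff e fd * e.prod (fun i n => y i ^ n)) :=
      hasSum_sum_of_ne_finset_zero (fun e he => by
        rw [MvPolynomial.notMem_support_iff.mp he, zero_mul])
    convert this using 3 with e he
    rw [Finsupp.prod_fintype _ _ (by simp)]
  have hGs : HasSum (fun e : Fin m →₀ ℕ => cf G e * e.prod (fun i n => y i ^ n)) (evMv G y) :=
    (summable_evMv G y hy1).hasSum
  have hfs : HasSum (fun e : Fin m →₀ ℕ => cf f e * e.prod (fun i n => y i ^ n)) (evMv f y) :=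
    (summable_evMv f y hy1).hasSum
  have hsum : HasSum (fun e : Fin m →₀ ℕ => cf G e * e.prod (fun i n => y i ^ n) +
      MvPolynomial.coeff e fd * e.prod (fun i n => y i ^ n)) (evMv G y + MvPolynomial.eval y fd) :=
    hGs.add hfin
  have huniq : evMv f y = evMv G y + MvPolynomial.eval y fd := by
    have hfn : (fun e : Fin m →₀ ℕ => cf f e * e.prod (fun i n => y i ^ n)) =
        (fun e : Fin m →₀ ℕ => cf G e * e.prod (fun i n => y i ^ n) +
          MvPolynomial.coeff e fd * e.prod (fun i n => y i ^ n)) := funext hterm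
    rw [hfn] at hfs
    exact hfs.unique hsum
  rw [h0] at huniq
  have : MvPolynomial.eval y fd = - evMv G y := by linear_combination -huniq
  rw [this, norm_neg]
  exact hG

/-- **Leading-form vanishing.** Abstract version of: for deep tokens, `f_d(Π V) = O(|V|^(d+1))`, scaling `V → p^t V`. `V`, `A`, `c` families indexed by `ι` with a scaling map `σ : ι → ι` with `V (σ a) = p V a`, `σ^t` eventually deep
uniformly; `‖c_a (w + ∂w·A_a) - w - V_a‖ ≤ K ‖A_a‖²` (`c_a → 1`, `A_a → 0`), `Mat = (w,∂w)` an invertible matrix (column `0` is `w`); `f̃(A_a) = 0` for deep `a`. Then `f_d(Π V_a) = 0` for all `a`, `Π` = last `m` coordinates of `Mat⁻¹`.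

Proof. `E_a = (c_a - 1, A_a)`: `Mat E_a = V_a + O(‖E_a‖²)`, so `‖E_a‖ ≤ K₁‖V_a‖` and `A_a = Π V_a + O(‖V_a‖²)` for deep `a`. `f̃(A) = 0` gives `f_d(A) = O(‖A‖^(d+1))`, so `‖f_d(Π V_a)‖ ≤ K₂ ‖V_a‖^(d+1)` for deep `a`.
At `σ^t a` (deep for large `t`): `‖p‖^(td) ‖f_d(Π V_a)‖ ≤ K₂ ‖p‖^(t(d+1)) ‖V_a‖^(d+1)`; `t → ∞`. -/
theorem leading_form_vanish {m : ℕ} {ι : Type*} (𝓕 : Filter ι) [𝓕.NeBot]
    (pp : C) (hpp0 : pp ≠ 0) (hpp1 : ‖pp‖ < 1)
    (Mat : Matrix (Fin (m + 1)) (Fin (m + 1)) C) (hMat : IsUnit Mat.det)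
    (w : Fin (m + 1) → C) (hw : ∀ s, Mat s 0 = w s)
    (V : ι → Fin (m + 1) → C) (A : ι → Fin m → C) (c : ι → C) (K : ℝ)
    (hAc : Filter.Tendsto (fun a => (fun j => A a j, c a - 1)) 𝓕 (nhds 0))
    (hrel : ∀ᶠ a in 𝓕, ∀ s, ‖c a * (w s + ∑ k : Fin m, Mat s k.succ * A a k) - w s - V a s‖ ≤
      K * ‖A a‖ ^ 2)
    (σ : ι → ι) (hσV : ∀ a s, V (σ a) s = pp * V a s)
    (hσdeep : ∀ S ∈ 𝓕, ∃ t₀ : ℕ, ∀ t, t₀ ≤ t → ∀ a, σ^[t] a ∈ S)
    (f : MvPowerSeries (Fin m) (OC C)) (hf : f ≠ 0)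
    (hvan : ∀ᶠ a in 𝓕, evMv f (A a) = 0) (d : ℕ) (fd : MvPolynomial (Fin m) C)
    (hfd : fd ≠ 0) (hfd' : ∀ e : Fin m →₀ ℕ, MvPolynomial.coeff e fd = if e.degree = d then cf f e else 0)
    (hord : ∀ e : Fin m →₀ ℕ, e.degree < d → cf f e = 0) (a : ι) :
    MvPolynomial.eval (fun k : Fin m => (Mat⁻¹.mulVec (V a)) k.succ) fd = 0 := by
  classical
  obtain ⟨K₁, K₅, ε, hK₁, hK₅, hε, hest⟩ := chart_estimate Mat hMat w hw K
  -- smallness
  have hA0 : Filter.Tendsto A 𝓕 (nhds 0) := by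
    have := (continuous_fst.tendsto ((0 : Fin m → C), (0 : C))).comp hAc
    exact this
  have hc0 : Filter.Tendsto (fun a => c a - 1) 𝓕 (nhds 0) := by
    have := (continuous_snd.tendsto ((0 : Fin m → C), (0 : C))).comp hAc
    exact this
  have hA1 : ∀ᶠ b in 𝓕, ‖A b‖ ≤ min ε (1 / 2) :=
    (tendsto_zero_iff_norm_tendsto_zero.mp hA0).eventually_le_const (by positivity)
  have hc1 : ∀ᶠ b in 𝓕, ‖c b - 1‖ ≤ ε :=
    (tendsto_zero_iff_norm_tendsto_zero.mp hc0).eventually_le_const hε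
  obtain ⟨t₀, ht₀⟩ := hσdeep _ (hrel.and (hvan.and (hA1.and hc1)))
  -- orbit of `a`
  have hVt : ∀ t : ℕ, V (σ^[t] a) = fun s => pp ^ t * V a s := by
    intro t
    induction t with
    | zero => funext s; simp
    | succ t ih =>
      funext s
      rw [Function.iterate_succ_apply', hσV, ih, pow_succ]
      ring
  have hPi : ∀ t : ℕ, Mat⁻¹.mulVec (V (σ^[t] a)) = fun s => pp ^ t * (Mat⁻¹.mulVec (V a)) s := by
    intro t
    rw [hVt]
    have : (fun s => pp ^ t * V a s) = (pp ^ t) • V a := rfl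
    rw [this, Matrix.mulVec_smul]
    rfl
  have hVn : ∀ t : ℕ, ‖V (σ^[t] a)‖ = ‖pp‖ ^ t * ‖V a‖ := by
    intro t
    rw [hVt]
    have : (fun s => pp ^ t * V a s) = (pp ^ t) • V a := rfl
    rw [this, norm_smul, norm_pow]
  have hppn : 0 < ‖pp‖ := norm_pos_iff.mpr hpp0
  set Va := ‖V a‖ with hVa
  have hVa0 : 0 ≤ Va := norm_nonneg _
  -- rescaled points
  let x : ℕ → Fin m → C := fun t k => (pp ^ t)⁻¹ * A (σ^[t] a) k
  have hclose : ∀ t, t₀ ≤ t → ∀ k : Fin m,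
      ‖x t k - (Mat⁻¹.mulVec (V a)) k.succ‖ ≤ K₅ * Va ^ 2 * ‖pp‖ ^ t := by
    intro t ht k
    obtain ⟨h1, -, h3, h4⟩ := ht₀ t ht a
    obtain ⟨-, h6⟩ := hest (V (σ^[t] a)) (A (σ^[t] a)) (c (σ^[t] a)) (h3.trans (min_le_left _ _)) h4 h1
    have h7 := h6 k
    rw [hPi t, hVn t] at h7
    have h8 : x t k - (Mat⁻¹.mulVec (V a)) k.succ =
        (pp ^ t)⁻¹ * (A (σ^[t] a) k - pp ^ t * (Mat⁻¹.mulVec (V a)) k.succ) := by
      simp only [x]
      field_simp
    rw [h8, norm_mul, norm_inv, norm_pow]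
    have hpow : 0 < ‖pp‖ ^ t := by positivity
    rw [inv_mul_le_iff₀ hpow]
    refine h7.trans (le_of_eq ?_)
    ring
  have hlim : Filter.Tendsto x Filter.atTop (nhds (fun k : Fin m => (Mat⁻¹.mulVec (V a)) k.succ)) := by
    rw [tendsto_pi_nhds]
    intro k
    rw [tendsto_iff_norm_sub_tendsto_zero]
    have hg : Filter.Tendsto (fun t : ℕ => K₅ * Va ^ 2 * ‖pp‖ ^ t) Filter.atTop (nhds 0) := by
      simpa using (tendsto_pow_atTop_nhds_zero_of_lt_one hppn.le hpp1).const_mul (K₅ * Va ^ 2)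
    refine squeeze_zero' (Filter.Eventually.of_forall fun _ => norm_nonneg _) ?_ hg
    filter_upwards [Filter.eventually_ge_atTop t₀] with t ht
    exact hclose t ht k
  have hcont : Filter.Tendsto (fun t => MvPolynomial.eval (x t) fd) Filter.atTop
      (nhds (MvPolynomial.eval (fun k : Fin m => (Mat⁻¹.mulVec (V a)) k.succ) fd)) :=
    ((MvPolynomial.continuous_eval fd).tendsto _).comp hlim
  -- the values tend to `0`
  have hhom : ∀ e : Fin m →₀ ℕ, e ∈ fd.support → e.degree = d := by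
    intro e he
    by_contra hne
    rw [MvPolynomial.mem_support_iff, hfd', if_neg hne] at he
    exact he rfl
  have hbound : ∀ t, t₀ ≤ t → ‖MvPolynomial.eval (x t) fd‖ ≤ (K₁ * Va) ^ (d + 1) * ‖pp‖ ^ t := by
    intro t ht
    obtain ⟨h1, h2, h3, h4⟩ := ht₀ t ht a
    obtain ⟨h5, -⟩ := hest (V (σ^[t] a)) (A (σ^[t] a)) (c (σ^[t] a)) (h3.trans (min_le_left _ _)) h4 h1
    rw [hVn t] at h5
    have hr1 : ‖A (σ^[t] a)‖ < 1 := (h3.trans (min_le_right _ _)).trans_lt (by norm_num)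
    have h6 := norm_eval_leading_le f fd hfd' hord (A (σ^[t] a)) ‖A (σ^[t] a)‖ (norm_nonneg _) hr1
      (fun i => norm_le_pi_norm _ i) h2
    have h7 : MvPolynomial.eval (x t) fd = ((pp ^ t)⁻¹) ^ d * MvPolynomial.eval (A (σ^[t] a)) fd :=
      eval_smul_of_homog fd hhom _ _
    rw [h7, norm_mul, norm_pow, norm_inv, norm_pow]
    have hpow : 0 < ‖pp‖ ^ t := by positivity
    have h8 : ‖A (σ^[t] a)‖ ^ (d + 1) ≤ (K₁ * (‖pp‖ ^ t * Va)) ^ (d + 1) := by gcongr
    calc ((‖pp‖ ^ t)⁻¹) ^ d * ‖MvPolynomial.eval (A (σ^[t] a)) fd‖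
        ≤ ((‖pp‖ ^ t)⁻¹) ^ d * (K₁ * (‖pp‖ ^ t * Va)) ^ (d + 1) := by
          gcongr
          exact h6.trans h8
      _ = (K₁ * Va) ^ (d + 1) * ‖pp‖ ^ t := by
          have hu : ‖pp‖ ^ t ≠ 0 := hpow.ne'
          generalize ‖pp‖ ^ t = u at hu
          have h9 : u⁻¹ ^ d * (u ^ d * u) = u := by
            rw [← mul_assoc, ← mul_pow, inv_mul_cancel₀ hu, one_pow, one_mul]
          rw [show K₁ * (u * Va) = u * (K₁ * Va) by ring, mul_pow, pow_succ u d, ← mul_assoc, h9]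
          ring
  have hzero : Filter.Tendsto (fun t => MvPolynomial.eval (x t) fd) Filter.atTop (nhds 0) := by
    rw [tendsto_zero_iff_norm_tendsto_zero]
    have hg : Filter.Tendsto (fun t : ℕ => (K₁ * Va) ^ (d + 1) * ‖pp‖ ^ t) Filter.atTop (nhds 0) := by
      simpa using (tendsto_pow_atTop_nhds_zero_of_lt_one hppn.le hpp1).const_mul ((K₁ * Va) ^ (d + 1))
    refine squeeze_zero' (Filter.Eventually.of_forall fun _ => norm_nonneg _) ?_ hg
    filter_upwards [Filter.eventually_ge_atTop t₀] with t ht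
    exact hbound t ht
  exact tendsto_nhds_unique hcont hzero

end

end Crest.Agent.LT
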