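/-
S0351 package CHAR0/PERIOD, helper file: pure real-analysis and ultrametric facts on recursions of
Hazewinkel type `p e_K = e_{K-n} + (small) e_{K-i} + g_K`. No dependency on formal groups.
-/
import Mathlib

set_option autoImplicit false
set_option linter.unusedSectionVars false
set_option linter.unusedVariables false

namespace Crest.Agent.LT

namespace PeriodAux

/-- Superexponential decay of `ρ^(p^j)`. -/
lemma exists_pow_pow_le {ρ ε : ℝ} (h0 : 0 ≤ ρ) (h1 : ρ < 1) (hε : 0 < ε) {p : ℕ} (hp : 2 ≤ p) :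
    ∃ K₀ : ℕ, ∀ j, K₀ ≤ j → ρ ^ (p ^ j) ≤ ε := by
  obtain ⟨m, hm⟩ := exists_pow_lt_of_lt_one hε h1
  refine ⟨m, fun j hj => ?_⟩
  have : m ≤ p ^ j := hj.trans (Nat.lt_pow_self (by omega)).le
  exact (pow_le_pow_of_le_one h0 h1.le this).trans hm.le

/-- **Growth lemma**, real form. `b K` is controlled by the Hazewinkel recursion with weights `w`. -/
theorem growth_abs {q r ρ : ℝ} {n p : ℕ} (hr0 : 0 < r) (hr1 : r < 1) (hq : r ^ n = q)
    (K₀ : ℕ) (hK₀ : ∀ j, K₀ ≤ j → ρ ^ (p ^ j) ≤ q)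
    (b g : ℕ → ℝ) (w : ℕ → ℕ → ℝ) (hb : ∀ K, 0 ≤ b K) (hw0 : ∀ i j, 0 ≤ w i j)
    (hw1 : ∀ i j, 1 ≤ i → i < n → w i j ≤ ρ ^ (p ^ j))
    (hw1' : ∀ i j, 1 ≤ i → i ≤ n → w i j ≤ 1)
    (hw2 : ∀ i j, 1 ≤ i → n < i → w i j = 0)
    (hrec : ∀ K, 1 ≤ K → ∀ M : ℝ, 0 ≤ M → (∀ i ∈ Finset.Icc 1 K, b (K - i) * w i (K - i) ≤ M) →
      g K ≤ M → q * b K ≤ M)
    (D E : ℝ) (hg : ∀ K, 1 ≤ K → g K * r ^ K ≤ D)
    (hb0 : b 0 ≤ E) (hE : D / q ≤ E) :
    ∀ K, r ^ K * b K ≤ E / q ^ K₀ := by
  have hq0 : 0 < q := hq ▸ pow_pos hr0 n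
  have hq1 : q ≤ 1 := hq ▸ pow_le_one₀ hr0.le hr1.le
  have hE0 : 0 ≤ E := (hb 0).trans hb0
  -- the moving bound
  have key : ∀ K, r ^ K * b K ≤ E / q ^ (min K K₀) := by
    intro K
    induction K using Nat.strong_induction_on with
    | _ K ih =>
      rcases Nat.eq_zero_or_pos K with rfl | hKpos
      · simpa using hb0
      set B : ℕ → ℝ := fun j => E / q ^ (min j K₀) with hBdef
      have hBmono : ∀ j k, j ≤ k → B j ≤ B k := by
        intro j k hjk
        simp only [hBdef]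
        apply div_le_div_of_nonneg_left hE0 (by positivity)
        exact pow_le_pow_of_le_one hq0.le hq1 (by omega)
      have hB0 : ∀ j, 0 ≤ B j := fun j => by simp only [hBdef]; positivity
      have hrK : 0 < r ^ K := pow_pos hr0 K
      -- apply recursion with `M = B K * q / r ^ K`
      have hmain : q * b K ≤ B K * q / r ^ K := by
        apply hrec K hKpos _ (by have := hB0 K; positivity)
        · intro i hi
          have hi1 : 1 ≤ i := (Finset.mem_Icc.mp hi).1
          have hiK : i ≤ K := (Finset.mem_Icc.mp hi).2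
          set j := K - i with hj
          have hjK : j < K := by omega
          have hij : K = j + i := by omega
          have hbj : r ^ j * b j ≤ B j := ih j hjK
          have hrj : 0 < r ^ j := pow_pos hr0 j
          have hbj' : b j ≤ B j / r ^ j := by rw [le_div_iff₀ hrj]; linarith
          rcases lt_trichotomy i n with hin | hin | hin
          · by_cases hjK₀ : K₀ ≤ j
            · -- small weight
              have hwq : w i j ≤ q := (hw1 i j hi1 hin).trans (hK₀ j hjK₀)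
              calc b j * w i j ≤ (B j / r ^ j) * q :=
                    mul_le_mul hbj' hwq (hw0 i j) (by have := hB0 j; positivity)
                _ ≤ B K * q / r ^ K := by
                    rw [div_mul_eq_mul_div]
                    rw [div_le_div_iff₀ hrj hrK]
                    have h1 : B j ≤ B K := hBmono _ _ hjK.le
                    have h2 : r ^ K ≤ r ^ j := pow_le_pow_of_le_one hr0.le hr1.le hjK.le
                    have := hB0 K
                    exact mul_le_mul (mul_le_mul_of_nonneg_right h1 hq0.le) h2 hrK.le (by positivity)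
            · -- small index: use the crude factor `1/q`
              have hw1'' : w i j ≤ 1 := hw1' i j hi1 hin.le
              have hjk' : j < K₀ := by omega
              have hBstep : B j ≤ B K * q := by
                simp only [hBdef]
                rw [div_mul_eq_mul_div, div_le_div_iff₀ (by positivity) (by positivity)]
                have : min K K₀ ≥ min j K₀ + 1 := by omega
                have h3 : q ^ (min K K₀) ≤ q ^ (min j K₀ + 1) :=
                  pow_le_pow_of_le_one hq0.le hq1 this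
                calc E * q ^ (min K K₀) ≤ E * q ^ (min j K₀ + 1) :=
                      mul_le_mul_of_nonneg_left h3 hE0
                  _ = E * q * q ^ (min j K₀) := by ring
              calc b j * w i j ≤ b j * 1 := mul_le_mul_of_nonneg_left hw1'' (hb j)
                _ ≤ B j / r ^ j := by simpa using hbj'
                _ ≤ B K * q / r ^ K := by
                    rw [div_le_div_iff₀ hrj hrK]
                    have h2 : r ^ K ≤ r ^ j := pow_le_pow_of_le_one hr0.le hr1.le hjK.le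
                    exact mul_le_mul hBstep h2 hrK.le (by have := hB0 K; positivity)
          · -- `i = n`: exact scaling
            subst hin
            have hw11 : w i j ≤ 1 := hw1' i j hi1 le_rfl
            calc b j * w i j ≤ b j * 1 := mul_le_mul_of_nonneg_left hw11 (hb j)
              _ ≤ B j / r ^ j := by simpa using hbj'
              _ ≤ B K * q / r ^ K := by
                  rw [hij, pow_add, hq.symm]
                  have h1 : B j ≤ B (j + i) := hBmono _ _ (by omega)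
                  have hri : 0 < r ^ i := pow_pos hr0 i
                  rw [show B (j + i) * r ^ i / (r ^ j * r ^ i) = B (j + i) / r ^ j by
                    field_simp]
                  exact div_le_div_of_nonneg_right h1 hrj.le
          · -- `i > n`
            rw [hw2 i j hi1 hin, mul_zero]
            have := hB0 K
            positivity
        · -- driving term
          have h := hg K hKpos
          have hE' : D ≤ E * q := by
            rwa [div_le_iff₀ hq0] at hE
          have hEB : E ≤ B K := by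
            simp only [hBdef]
            rw [le_div_iff₀ (by positivity)]
            calc E * q ^ (min K K₀) ≤ E * 1 :=
                  mul_le_mul_of_nonneg_left (pow_le_one₀ hq0.le hq1) hE0
              _ = E := mul_one E
          rw [le_div_iff₀ hrK]
          calc g K * r ^ K ≤ D := h
            _ ≤ E * q := hE'
            _ ≤ B K * q := mul_le_mul_of_nonneg_right hEB hq0.le
      -- conclude
      have : q * (r ^ K * b K) ≤ q * B K := by
        have h' := (le_div_iff₀ hrK).mp hmain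
        nlinarith
      exact le_of_mul_le_mul_left this hq0
  intro K
  refine (key K).trans ?_
  apply div_le_div_of_nonneg_left hE0 (by positivity)
  exact pow_le_pow_of_le_one hq0.le hq1 (by omega)


section Seq

variable {C : Type} [NormedField C] [IsUltrametricDist C]

/-- Shape of a parameter vector: `v_i` small for `i+1<n`, `v_{n-1} = 1`, zero above. -/
structure VBd (n : ℕ) (ρ : ℝ) (V : ℕ → C) : Prop where
  small : ∀ i, i + 1 < n → ‖V i‖ ≤ ρ
  top : ∀ i, i + 1 = n → V i = 1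
  zero : ∀ i, n < i + 1 → V i = 0

/-- Hazewinkel-type recursion with forcing term `G`. -/
def IsHRec (p : ℕ) (V e G : ℕ → C) : Prop :=
  ∀ K, 1 ≤ K → (p : C) * e K = ∑ i ∈ Finset.Icc 1 K, e (K - i) * V (i - 1) ^ (p ^ (K - i)) + G K

variable {p n : ℕ} {r ρ : ℝ}

omit [IsUltrametricDist C] in
theorem VBd.norm_le_one (hρ1 : ρ ≤ 1) {V : ℕ → C} (hV : VBd n ρ V) (i : ℕ) : ‖V i‖ ≤ 1 := by
  rcases lt_trichotomy (i + 1) n with h | h | h
  · exact (hV.small i h).trans hρ1
  · simp [hV.top i h]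
  · simp [hV.zero i h]

/-- Growth, normed form. -/
theorem growth_seq (hp : p ≠ 0) (hr0 : 0 < r) (hr1 : r < 1) (hq : r ^ n = ‖(p : C)‖) (hρ1 : ρ ≤ 1)
    (K₀ : ℕ) (hK₀ : ∀ j, K₀ ≤ j → ρ ^ (p ^ j) ≤ ‖(p : C)‖) (hρ0 : 0 ≤ ρ)
    {V e G : ℕ → C} (hV : VBd n ρ V) (he : IsHRec p V e G) {D E : ℝ}
    (hD : ∀ K, 1 ≤ K → ‖G K‖ * r ^ K ≤ D) (hb0 : ‖e 0‖ ≤ E) (hE : D / ‖(p : C)‖ ≤ E) :
    ∀ K, r ^ K * ‖e K‖ ≤ E / ‖(p : C)‖ ^ K₀ := by
  refine growth_abs (ρ := ρ) (p := p) (n := n) (g := fun K => ‖G K‖)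
    (w := fun i j => ‖V (i - 1)‖ ^ (p ^ j)) (b := fun K => ‖e K‖) hr0 hr1 hq K₀ hK₀ (fun _ => norm_nonneg _)
    (fun _ _ => by positivity) ?_ ?_ ?_ ?_ D E hD hb0 hE
  · intro i j hi1 hin
    have : ‖V (i - 1)‖ ≤ ρ := hV.small _ (by omega)
    exact pow_le_pow_left₀ (norm_nonneg _) this _
  · intro i j _ _
    exact pow_le_one₀ (norm_nonneg _) (hV.norm_le_one hρ1 _)
  · intro i j hi1 hin
    have : V (i - 1) = 0 := hV.zero _ (by omega)
    simp only [this, norm_zero]
    exact zero_pow (pow_ne_zero _ hp)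
  · intro K hK M hM hterm hg
    have h := he K hK
    have : ‖(p : C) * e K‖ ≤ M := by
      rw [h]
      refine (IsUltrametricDist.norm_add_le_max _ _).trans (max_le ?_ hg)
      refine IsUltrametricDist.norm_sum_le_of_forall_le_of_nonneg hM ?_
      intro i hi
      rw [norm_mul, norm_pow]
      exact hterm i hi
    simpa [norm_mul] using this

/-- The correction sum. -/
def corr (p n : ℕ) (V f : ℕ → C) (K : ℕ) : C :=
  ∑ i ∈ Finset.Ico 1 n, f (K + n - i) * V (i - 1) ^ (p ^ (K + n - i))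

/-- Split off the term `i = n` of the Hazewinkel sum. -/
theorem sum_split {V : ℕ → C} (f : ℕ → C) (hp : p ≠ 0) (hn : 1 ≤ n) (hV : VBd n ρ V) (K : ℕ) :
    ∑ i ∈ Finset.Icc 1 (K + n), f (K + n - i) * V (i - 1) ^ (p ^ (K + n - i)) =
      f K + corr p n V f K := by
  have hsub : Finset.Icc 1 n ⊆ Finset.Icc 1 (K + n) := by
    intro i hi
    simp only [Finset.mem_Icc] at hi ⊢
    omega
  rw [← Finset.sum_subset hsub]
  · rw [← Finset.Ico_insert_right hn, Finset.sum_insert (by simp), corr]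
    congr 1
    rw [hV.top (n - 1) (by omega)]
    simp
  · intro i hi hi'
    simp only [Finset.mem_Icc] at hi hi'
    have : V (i - 1) = 0 := hV.zero _ (by omega)
    rw [this, zero_pow (pow_ne_zero _ hp), mul_zero]

/-- The recursion at `K + n`. -/
theorem rec_split {V e G : ℕ → C} (hp : p ≠ 0) (hn : 1 ≤ n) (hV : VBd n ρ V) (he : IsHRec p V e G)
    (K : ℕ) : (p : C) * e (K + n) = e K + corr p n V e K + G (K + n) := by
  rw [he (K + n) (by omega), sum_split e hp hn hV K]

/-- Bound of the correction sum. -/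
theorem corr_le (hp : p ≠ 0) (hr0 : 0 < r) (hr1 : r < 1) (hq : r ^ n = ‖(p : C)‖) (hρ0 : 0 ≤ ρ) (hρ1 : ρ ≤ 1)
    {V : ℕ → C} (hV : VBd n ρ V) (f : ℕ → C) (K : ℕ) (M : ℝ) (hM0 : 0 ≤ M)
    (hM : ∀ i ∈ Finset.Ico 1 n, r ^ (K + n - i) * ‖f (K + n - i)‖ ≤ M) :
    r ^ K * ‖corr p n V f K‖ ≤ M / ‖(p : C)‖ * ρ ^ (p ^ K) := by
  have hq0 : 0 < ‖(p : C)‖ := hq ▸ pow_pos hr0 n
  have hrK : 0 < r ^ K := pow_pos hr0 K
  have hb : ‖corr p n V f K‖ ≤ M / ‖(p : C)‖ * ρ ^ (p ^ K) / r ^ K := by
    refine IsUltrametricDist.norm_sum_le_of_forall_le_of_nonneg (by positivity) ?_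
    intro i hi
    have hi' := Finset.mem_Ico.mp hi
    set j := K + n - i with hj
    have hjK : K ≤ j := by omega
    have hjn : j ≤ K + n := by omega
    have hrj : 0 < r ^ j := pow_pos hr0 j
    have h1 : ‖f j‖ ≤ M / r ^ j := by
      rw [le_div_iff₀ hrj]; linarith [hM i hi]
    have h2 : ‖V (i - 1)‖ ^ (p ^ j) ≤ ρ ^ (p ^ K) := by
      have h3 : ‖V (i - 1)‖ ≤ ρ := hV.small _ (by omega)
      have h4 : p ^ K ≤ p ^ j := Nat.pow_le_pow_right (by omega) hjK
      exact (pow_le_pow_left₀ (norm_nonneg _) h3 _).trans (pow_le_pow_of_le_one hρ0 hρ1 h4)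
    rw [norm_mul, norm_pow]
    calc ‖f j‖ * ‖V (i - 1)‖ ^ (p ^ j) ≤ M / r ^ j * ρ ^ (p ^ K) :=
          mul_le_mul h1 h2 (by positivity) (by positivity)
      _ ≤ M / ‖(p : C)‖ * ρ ^ (p ^ K) / r ^ K := by
          rw [div_mul_eq_mul_div, div_mul_eq_mul_div, div_div]
          apply div_le_div_of_nonneg_left (by positivity) (by positivity)
          rw [← hq, ← pow_add]
          exact pow_le_pow_of_le_one hr0.le hr1.le (by omega)
  rw [mul_comm]
  rwa [le_div_iff₀ hrK] at hb

open Filter Topology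

/-- `ρ^(p^K) → 0`. -/
theorem tendsto_pow_pow (hρ0 : 0 ≤ ρ) (hρ1 : ρ < 1) (hp : 2 ≤ p) :
    Tendsto (fun K : ℕ => ρ ^ (p ^ K)) atTop (𝓝 0) :=
  (tendsto_pow_atTop_nhds_zero_of_lt_one hρ0 hρ1).comp
    (tendsto_pow_atTop_atTop_of_one_lt (by omega))

/-- Differences of the scaled sequence tend to zero. -/
theorem diff_tendsto (hp : 2 ≤ p) (hn : 1 ≤ n) (hr0 : 0 < r) (hr1 : r < 1) (hq : r ^ n = ‖(p : C)‖)
    (hρ0 : 0 ≤ ρ) (hρ1 : ρ < 1) {V e G : ℕ → C} (hV : VBd n ρ V) (he : IsHRec p V e G) {B : ℝ}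
    (hB0 : 0 ≤ B) (hB : ∀ K, r ^ K * ‖e K‖ ≤ B) (hG : Tendsto (fun K => r ^ K * ‖G K‖) atTop (𝓝 0)) :
    Tendsto (fun K => r ^ K * ‖(p : C) * e (K + n) - e K‖) atTop (𝓝 0) := by
  have hp0 : p ≠ 0 := by omega
  have hq0 : 0 < ‖(p : C)‖ := hq ▸ pow_pos hr0 n
  have h1 : Tendsto (fun K : ℕ => B / ‖(p : C)‖ * ρ ^ (p ^ K) + (r ^ (K + n) * ‖G (K + n)‖) / ‖(p : C)‖)
      atTop (𝓝 0) := by
    have ha := (tendsto_pow_pow (p := p) hρ0 hρ1 hp).const_mul (B / ‖(p : C)‖)
    have hb := ((tendsto_add_atTop_iff_nat n).mpr hG).div_const ‖(p : C)‖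
    simpa using ha.add hb
  refine squeeze_zero (fun K => by positivity) (fun K => ?_) h1
  have h2 : (p : C) * e (K + n) - e K = corr p n V e K + G (K + n) := by
    rw [rec_split hp0 hn hV he K]; ring
  rw [h2]
  have hrK : 0 < r ^ K := pow_pos hr0 K
  have h3 : r ^ K * ‖corr p n V e K‖ ≤ B / ‖(p : C)‖ * ρ ^ (p ^ K) :=
    corr_le hp0 hr0 hr1 hq hρ0 hρ1.le hV e K B hB0 (fun i _ => hB _)
  have h4 : r ^ K * ‖G (K + n)‖ = (r ^ (K + n) * ‖G (K + n)‖) / ‖(p : C)‖ := by
    rw [← hq, pow_add]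
    have : r ^ n ≠ 0 := (pow_pos hr0 n).ne'
    field_simp
  have h5 : r ^ K * ‖corr p n V e K + G (K + n)‖ ≤
      max (r ^ K * ‖corr p n V e K‖) (r ^ K * ‖G (K + n)‖) := by
    rw [← mul_max_of_nonneg _ _ hrK.le]
    exact mul_le_mul_of_nonneg_left (IsUltrametricDist.norm_add_le_max _ _) hrK.le
  refine h5.trans (max_le ?_ ?_)
  · have : 0 ≤ (r ^ (K + n) * ‖G (K + n)‖) / ‖(p : C)‖ := by positivity
    linarith
  · rw [h4]
    have : 0 ≤ B / ‖(p : C)‖ * ρ ^ (p ^ K) := by positivity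
    linarith

/-- Extension by zero to negative indices. -/
def extZ (e : ℕ → C) (K : ℤ) : C := if 0 ≤ K then e K.toNat else 0

theorem extZ_natCast (e : ℕ → C) (K : ℕ) : extZ e (K : ℤ) = e K := by
  simp [extZ]

theorem extZ_of_neg (e : ℕ → C) {K : ℤ} (hK : K < 0) : extZ e K = 0 := by
  simp [extZ, not_le.mpr hK]

omit [IsUltrametricDist C] in
/-- Scaling identity: `‖p‖^N = r^K r^(-s)` when `K = n N + s`. -/
theorem norm_pow_scale (hr0 : 0 < r) (hq : r ^ n = ‖(p : C)‖) (N K : ℕ) (s : ℤ)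
    (hK : (K : ℤ) = n * N + s) : ‖(p : C) ^ N‖ = r ^ K * r ^ (-s) := by
  rw [norm_pow, ← hq, ← pow_mul, ← zpow_natCast r K, ← zpow_natCast r (n * N), ← zpow_add₀ hr0.ne']
  congr 1
  rw [hK]; push_cast; ring

/-- `(n N + s).toNat → ∞`. -/
theorem tendsto_toNat (hn : 1 ≤ n) (s : ℤ) :
    Tendsto (fun N : ℕ => ((n : ℤ) * N + s).toNat) atTop atTop := by
  rw [tendsto_atTop]
  intro b
  filter_upwards [eventually_ge_atTop (b + s.natAbs)] with N hN
  have h1 : (N : ℤ) ≤ (n : ℤ) * N := by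
    have : (1 : ℤ) ≤ n := by exact_mod_cast hn
    nlinarith [Int.natCast_nonneg N]
  omega

/-- The scaled sequence converges. -/
theorem exists_tendsto_extZ [CompleteSpace C] (hp : 2 ≤ p) (hn : 1 ≤ n) (hr0 : 0 < r) (hr1 : r < 1)
    (hq : r ^ n = ‖(p : C)‖) (hρ0 : 0 ≤ ρ) (hρ1 : ρ < 1) {V e G : ℕ → C} (hV : VBd n ρ V)
    (he : IsHRec p V e G) {B : ℝ} (hB0 : 0 ≤ B) (hB : ∀ K, r ^ K * ‖e K‖ ≤ B)
    (hG : Tendsto (fun K => r ^ K * ‖G K‖) atTop (𝓝 0)) (s : ℤ) :
    ∃ w : C, Tendsto (fun N : ℕ => (p : C) ^ N * extZ e ((n : ℤ) * N + s)) atTop (𝓝 w) := by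
  apply cauchySeq_tendsto_of_complete
  apply NonarchimedeanAddGroup.cauchySeq_of_tendsto_sub_nhds_zero
  rw [tendsto_zero_iff_norm_tendsto_zero]
  have h0 := (diff_tendsto hp hn hr0 hr1 hq hρ0 hρ1 hV he hB0 hB hG).comp (tendsto_toNat hn s)
  have h1 := h0.const_mul (r ^ (-s))
  rw [mul_zero] at h1
  refine h1.congr' ?_
  filter_upwards [eventually_ge_atTop s.natAbs] with N hN
  have h2 : (N : ℤ) ≤ (n : ℤ) * N := by
    have : (1 : ℤ) ≤ n := by exact_mod_cast hn
    nlinarith [Int.natCast_nonneg N]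
  have hnn : 0 ≤ (n : ℤ) * N + s := by omega
  obtain ⟨K, hK⟩ := Int.eq_ofNat_of_zero_le hnn
  have hn1 : (n : ℤ) * ((N + 1 : ℕ) : ℤ) + s = ((K + n : ℕ) : ℤ) := by
    push_cast; linarith
  simp only [Function.comp, hK, Int.toNat_natCast]
  rw [hn1, extZ_natCast, extZ_natCast, pow_succ]
  have h3 : (p : C) ^ N * (p : C) * e (K + n) - (p : C) ^ N * e K =
      (p : C) ^ N * ((p : C) * e (K + n) - e K) := by ring
  rw [h3, norm_mul, norm_pow_scale hr0 hq N K s hK.symm]
  ring

theorem norm_sub_le_max' (x y : C) : ‖x - y‖ ≤ max ‖x‖ ‖y‖ := by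
  rw [sub_eq_add_neg, ← norm_neg y]
  exact IsUltrametricDist.norm_add_le_max _ _

/-- Uniform bound for the scaled sequence. -/
theorem norm_scaled_le (hr0 : 0 < r) (hq : r ^ n = ‖(p : C)‖) {e : ℕ → C} {B : ℝ} (hB0 : 0 ≤ B)
    (hB : ∀ K, r ^ K * ‖e K‖ ≤ B) (N : ℕ) (s : ℤ) :
    ‖(p : C) ^ N * extZ e ((n : ℤ) * N + s)‖ ≤ B * r ^ (-s) := by
  have hrs : 0 < r ^ (-s) := zpow_pos hr0 _
  by_cases h : 0 ≤ (n : ℤ) * N + s
  · obtain ⟨K, hK⟩ := Int.eq_ofNat_of_zero_le h
    rw [hK, extZ_natCast, norm_mul, norm_pow_scale hr0 hq N K s hK.symm]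
    calc r ^ K * r ^ (-s) * ‖e K‖ = (r ^ K * ‖e K‖) * r ^ (-s) := by ring
      _ ≤ B * r ^ (-s) := mul_le_mul_of_nonneg_right (hB K) hrs.le
  · rw [extZ_of_neg e (not_le.mp h), mul_zero, norm_zero]
    positivity

/-- Scaling step: `r^(K+n) ‖x‖ = r^K ‖p x‖`. -/
theorem scale_step (hr0 : 0 < r) (hq : r ^ n = ‖(p : C)‖) (K : ℕ) (x : C) :
    r ^ (K + n) * ‖x‖ = r ^ K * ‖(p : C) * x‖ := by
  rw [norm_mul, ← hq, pow_add]; ring

/-- **Boundedness.** If the scaled sequence tends to `0` and the forcing is `≤ 1`, then `‖e K‖ ≤ 1`. -/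
theorem norm_le_one_of_tendsto (hp : 2 ≤ p) (hn : 1 ≤ n) (hr0 : 0 < r) (hr1 : r < 1)
    (hq : r ^ n = ‖(p : C)‖) (hρ0 : 0 ≤ ρ) (hρ1 : ρ < 1) {V e G : ℕ → C} (hV : VBd n ρ V)
    (he : IsHRec p V e G) (hG : ∀ K, ‖G K‖ ≤ 1)
    (ha : Tendsto (fun K => r ^ K * ‖e K‖) atTop (𝓝 0)) : ∀ K, ‖e K‖ ≤ 1 := by
  have hp0 : p ≠ 0 := by omega
  have hq0 : 0 < ‖(p : C)‖ := hq ▸ pow_pos hr0 n
  have hq1 : ‖(p : C)‖ ≤ 1 := hq ▸ pow_le_one₀ hr0.le hr1.le
  obtain ⟨K₀, hK₀⟩ := exists_pow_pow_le (p := p) hρ0 hρ1 (half_pos hq0) hp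
  -- Step A
  have hA : ∀ K, K₀ ≤ K → ‖e K‖ ≤ 1 := by
    intro K' hK'
    by_contra hcon
    push Not at hcon
    set a : ℕ → ℝ := fun K => r ^ K * ‖e K‖ with ha_def
    have hrK' : 0 < r ^ K' := pow_pos hr0 K'
    have haK' : r ^ K' < a K' := by
      simp only [ha_def]
      nlinarith
    have hpos : 0 < a K' := hrK'.trans haK'
    obtain ⟨N₁, hN₁⟩ : ∃ N₁, ∀ K, N₁ ≤ K → a K < a K' := by
      have := (ha.eventually (gt_mem_nhds hpos))
      simpa using this
    obtain ⟨Ks, hKs, hmax⟩ := Finset.exists_max_image (Finset.Icc K' (max N₁ K')) a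
      ⟨K', by simp⟩
    have hKs' : K' ≤ Ks := (Finset.mem_Icc.mp hKs).1
    have hmaxall : ∀ K, K' ≤ K → a K ≤ a Ks := by
      intro K hK
      by_cases h : K ≤ max N₁ K'
      · exact hmax K (Finset.mem_Icc.mpr ⟨hK, h⟩)
      · have h' : N₁ ≤ K := by omega
        exact (hN₁ K h').le.trans (hmax K' (by simp))
    have hAge : a K' ≤ a Ks := hmaxall K' le_rfl
    have hApos : 0 < a Ks := hpos.trans_le hAge
    have hrKs : r ^ Ks < a Ks := by
      have : r ^ Ks ≤ r ^ K' := pow_le_pow_of_le_one hr0.le hr1.le hKs'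
      linarith
    have hconst : ∀ t : ℕ, a (Ks + n * t) = a Ks := by
      intro t
      induction t with
      | zero => simp
      | succ t ih =>
        set K := Ks + n * t with hK
        have hKge : Ks ≤ K := by omega
        have hK0 : K₀ ≤ K := by omega
        have hKK : Ks + n * (t + 1) = K + n := by rw [hK]; ring
        rw [hKK]
        have hrK : 0 < r ^ K := pow_pos hr0 K
        have hc : r ^ K * ‖corr p n V e K‖ ≤ a Ks / 2 := by
          have h1 := corr_le hp0 hr0 hr1 hq hρ0 hρ1.le hV e K (a Ks) hApos.le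
            (fun i hi => hmaxall _ (by have := Finset.mem_Ico.mp hi; omega))
          refine h1.trans ?_
          have h2 := hK₀ K hK0
          calc a Ks / ‖(p : C)‖ * ρ ^ (p ^ K) ≤ a Ks / ‖(p : C)‖ * (‖(p : C)‖ / 2) :=
                mul_le_mul_of_nonneg_left h2 (by positivity)
            _ = a Ks / 2 := by field_simp
        have hg : r ^ K * ‖G (K + n)‖ < a Ks := by
          have h1 : r ^ K * ‖G (K + n)‖ ≤ r ^ K * 1 := mul_le_mul_of_nonneg_left (hG _) hrK.le
          have h2 : r ^ K ≤ r ^ Ks := pow_le_pow_of_le_one hr0.le hr1.le hKge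
          linarith
        have hY : r ^ K * ‖corr p n V e K + G (K + n)‖ < a Ks := by
          have h5 : r ^ K * ‖corr p n V e K + G (K + n)‖ ≤
              max (r ^ K * ‖corr p n V e K‖) (r ^ K * ‖G (K + n)‖) := by
            rw [← mul_max_of_nonneg _ _ hrK.le]
            exact mul_le_mul_of_nonneg_left (IsUltrametricDist.norm_add_le_max _ _) hrK.le
          refine h5.trans_lt (max_lt ?_ hg)
          linarith
        have hlt : ‖corr p n V e K + G (K + n)‖ < ‖e K‖ := by
          have : r ^ K * ‖corr p n V e K + G (K + n)‖ < r ^ K * ‖e K‖ := by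
            have h' : r ^ K * ‖e K‖ = a Ks := ih
            linarith
          exact lt_of_mul_lt_mul_left this hrK.le
        have hadd : ‖e K + (corr p n V e K + G (K + n))‖ = ‖e K‖ := by
          rw [IsUltrametricDist.norm_add_eq_max_of_norm_ne_norm hlt.ne']
          exact max_eq_left hlt.le
        have hrec : (p : C) * e (K + n) = e K + (corr p n V e K + G (K + n)) := by
          rw [rec_split hp0 hn hV he K]; ring
        calc a (K + n) = r ^ K * ‖(p : C) * e (K + n)‖ := scale_step hr0 hq K _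
          _ = r ^ K * ‖e K‖ := by rw [hrec, hadd]
          _ = a Ks := ih
    have hsub : Tendsto (fun t : ℕ => a (Ks + n * t)) atTop (𝓝 0) := by
      refine ha.comp ?_
      rw [tendsto_atTop]
      intro b
      filter_upwards [eventually_ge_atTop b] with t ht
      have : t ≤ n * t := Nat.le_mul_of_pos_left t (by omega)
      omega
    have hconst' : Tendsto (fun t : ℕ => a (Ks + n * t)) atTop (𝓝 (a Ks)) := by
      simp only [hconst]
      exact tendsto_const_nhds
    exact hApos.ne' (tendsto_nhds_unique hconst' hsub)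
  -- Step B
  have hB : ∀ m K, K₀ ≤ K + m → ‖e K‖ ≤ 1 := by
    intro m
    induction m with
    | zero => intro K hK; exact hA K (by omega)
    | succ m ih =>
      intro K hK
      by_cases hKm : K₀ ≤ K + m
      · exact ih K hKm
      · have hrec : e K = (p : C) * e (K + n) - corr p n V e K - G (K + n) := by
          rw [rec_split hp0 hn hV he K]; ring
        rw [hrec]
        have h1 : ‖(p : C) * e (K + n)‖ ≤ 1 := by
          rw [norm_mul]
          exact mul_le_one₀ hq1 (norm_nonneg _) (ih _ (by omega))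
        have h2 : ‖corr p n V e K‖ ≤ 1 := by
          refine IsUltrametricDist.norm_sum_le_of_forall_le_of_nonneg zero_le_one ?_
          intro i hi
          have hi' := Finset.mem_Ico.mp hi
          rw [norm_mul, norm_pow]
          exact mul_le_one₀ (ih _ (by omega)) (by positivity)
            (pow_le_one₀ (norm_nonneg _) (hV.norm_le_one hρ1.le _))
        refine (norm_sub_le_max' _ _).trans (max_le ?_ (hG _))
        exact (norm_sub_le_max' _ _).trans (max_le h1 h2)
  intro K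
  exact hB K₀ K (by omega)

/-- **Nonvanishing.** A sequence with `e 0 ≠ 0` and no forcing has a scaled subsequence of constant
nonzero norm. -/
theorem exists_const_norm (hp : 2 ≤ p) (hn : 1 ≤ n) (hr0 : 0 < r) (hr1 : r < 1)
    (hq : r ^ n = ‖(p : C)‖) (hρ0 : 0 ≤ ρ) (hρ1 : ρ < 1) {V e : ℕ → C} (hV : VBd n ρ V)
    (he : IsHRec p V e (fun _ => 0)) (h00 : e 0 ≠ 0) :
    ∃ (L : ℕ) (c : ℝ), 0 < c ∧ ∀ t : ℕ, ‖(p : C) ^ t * extZ e ((n : ℤ) * t + (L : ℤ))‖ = c := by
  have hp0 : p ≠ 0 := by omega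
  have hq0 : 0 < ‖(p : C)‖ := hq ▸ pow_pos hr0 n
  obtain ⟨K₀, hK₀⟩ := exists_pow_pow_le (p := p) hρ0 hρ1 (half_pos hq0) hp
  have hsplit : ∀ K, (p : C) * e (K + n) = e K + corr p n V e K := by
    intro K
    have := rec_split hp0 hn hV he K
    simpa using this
  -- zero window descent
  have hdesc : ∀ m, (∀ j ∈ Finset.Ico m (m + n), e j = 0) → e 0 = 0 := by
    intro m
    induction m with
    | zero =>
      intro h
      exact h 0 (by simp; omega)
    | succ m ih =>
      intro h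
      apply ih
      intro j hj
      have hj' := Finset.mem_Ico.mp hj
      by_cases hjm : j = m
      · subst hjm
        have h1 : e (j + n) = 0 := h _ (Finset.mem_Ico.mpr ⟨by omega, by omega⟩)
        have h2 : corr p n V e j = 0 := by
          apply Finset.sum_eq_zero
          intro i hi
          have hi' := Finset.mem_Ico.mp hi
          rw [h _ (Finset.mem_Ico.mpr ⟨by omega, by omega⟩), zero_mul]
        have h3 := hsplit j
        rw [h1, h2] at h3
        simpa using h3.symm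
      · exact h j (Finset.mem_Ico.mpr ⟨by omega, by omega⟩)
  set a : ℕ → ℝ := fun K => r ^ K * ‖e K‖ with ha_def
  obtain ⟨L, hL, hmax⟩ := Finset.exists_max_image (Finset.Ico K₀ (K₀ + n)) a
    ⟨K₀, Finset.mem_Ico.mpr ⟨le_rfl, by omega⟩⟩
  have hL' := Finset.mem_Ico.mp hL
  have hMpos : 0 < a L := by
    by_contra hcon
    push Not at hcon
    apply h00
    apply hdesc K₀
    intro j hj
    have h1 := (hmax j hj).trans hcon
    have hrj : 0 < r ^ j := pow_pos hr0 j
    have h2 : ‖e j‖ ≤ 0 := by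
      by_contra h3
      push Not at h3
      have : 0 < r ^ j * ‖e j‖ := mul_pos hrj h3
      exact absurd h1 (not_le.mpr this)
    simpa using h2
  have hcorr : ∀ K, K₀ ≤ K → (∀ i ∈ Finset.Ico 1 n, a (K + n - i) ≤ a L) →
      r ^ K * ‖corr p n V e K‖ ≤ a L / 2 := by
    intro K hK hM
    have h1 := corr_le hp0 hr0 hr1 hq hρ0 hρ1.le hV e K (a L) hMpos.le hM
    refine h1.trans ?_
    have h2 := hK₀ K hK
    calc a L / ‖(p : C)‖ * ρ ^ (p ^ K) ≤ a L / ‖(p : C)‖ * (‖(p : C)‖ / 2) :=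
          mul_le_mul_of_nonneg_left h2 (by positivity)
      _ = a L / 2 := by field_simp
  have hall : ∀ j, K₀ ≤ j → a j ≤ a L := by
    intro j
    induction j using Nat.strong_induction_on with
    | _ j ih =>
      intro hj
      by_cases hjw : j < K₀ + n
      · exact hmax j (Finset.mem_Ico.mpr ⟨hj, hjw⟩)
      · obtain ⟨K, rfl⟩ : ∃ K, j = K + n := ⟨j - n, by omega⟩
        have hK : K₀ ≤ K := by omega
        have hc := hcorr K hK (fun i hi => by
          have hi' := Finset.mem_Ico.mp hi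
          exact ih _ (by omega) (by omega))
        have hrK : 0 < r ^ K := pow_pos hr0 K
        have h5 : r ^ K * ‖e K + corr p n V e K‖ ≤
            max (r ^ K * ‖e K‖) (r ^ K * ‖corr p n V e K‖) := by
          rw [← mul_max_of_nonneg _ _ hrK.le]
          exact mul_le_mul_of_nonneg_left (IsUltrametricDist.norm_add_le_max _ _) hrK.le
        calc a (K + n) = r ^ K * ‖(p : C) * e (K + n)‖ := scale_step hr0 hq K _
          _ = r ^ K * ‖e K + corr p n V e K‖ := by rw [hsplit]
          _ ≤ a L := h5.trans (max_le (ih K (by omega) hK) (by linarith))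
  have hconst : ∀ t : ℕ, a (L + n * t) = a L := by
    intro t
    induction t with
    | zero => simp
    | succ t ih =>
      set K := L + n * t with hK
      have hK0 : K₀ ≤ K := by omega
      have hKK : L + n * (t + 1) = K + n := by rw [hK]; ring
      rw [hKK]
      have hrK : 0 < r ^ K := pow_pos hr0 K
      have hc := hcorr K hK0 (fun i hi => by
        have hi' := Finset.mem_Ico.mp hi
        exact hall _ (by omega))
      have hlt : ‖corr p n V e K‖ < ‖e K‖ := by
        have : r ^ K * ‖corr p n V e K‖ < r ^ K * ‖e K‖ := by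
          have h' : r ^ K * ‖e K‖ = a L := ih
          linarith
        exact lt_of_mul_lt_mul_left this hrK.le
      have hadd : ‖e K + corr p n V e K‖ = ‖e K‖ := by
        rw [IsUltrametricDist.norm_add_eq_max_of_norm_ne_norm hlt.ne']
        exact max_eq_left hlt.le
      calc a (K + n) = r ^ K * ‖(p : C) * e (K + n)‖ := scale_step hr0 hq K _
        _ = r ^ K * ‖e K‖ := by rw [hsplit, hadd]
        _ = a L := ih
  refine ⟨L, a L * r ^ (-(L : ℤ)), mul_pos hMpos (zpow_pos hr0 _), fun t => ?_⟩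
  have hK : ((L + n * t : ℕ) : ℤ) = (n : ℤ) * t + (L : ℤ) := by push_cast; ring
  rw [← hK, extZ_natCast, norm_mul, norm_pow_scale hr0 hq t _ _ hK, ← hconst t]
  simp only [ha_def]
  ring

theorem IsHRec.const_mul {V e G : ℕ → C} (he : IsHRec p V e G) (c : C) :
    IsHRec p V (fun K => c * e K) (fun K => c * G K) := by
  intro K hK
  have h := he K hK
  calc (p : C) * (c * e K) = c * ((p : C) * e K) := by ring
    _ = _ := by
      rw [h, mul_add, Finset.mul_sum]
      congr 1
      exact Finset.sum_congr rfl fun i _ => by ring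

theorem IsHRec.sub {V e G e' G' : ℕ → C} (he : IsHRec p V e G) (he' : IsHRec p V e' G') :
    IsHRec p V (fun K => e K - e' K) (fun K => G K - G' K) := by
  intro K hK
  have h := he K hK
  have h' := he' K hK
  rw [mul_sub, h, h']
  have : ∑ i ∈ Finset.Icc 1 K, (e (K - i) - e' (K - i)) * V (i - 1) ^ (p ^ (K - i)) =
      ∑ i ∈ Finset.Icc 1 K, e (K - i) * V (i - 1) ^ (p ^ (K - i)) -
        ∑ i ∈ Finset.Icc 1 K, e' (K - i) * V (i - 1) ^ (p ^ (K - i)) := by
    rw [← Finset.sum_sub_distrib]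
    exact Finset.sum_congr rfl fun i _ => by ring
  rw [this]
  ring

theorem IsHRec.sum {ι : Type*} (S : Finset ι) {V : ℕ → C} {e G : ι → ℕ → C}
    (he : ∀ k ∈ S, IsHRec p V (e k) (G k)) :
    IsHRec p V (fun K => ∑ k ∈ S, e k K) (fun K => ∑ k ∈ S, G k K) := by
  intro K hK
  rw [Finset.mul_sum]
  have h1 : ∀ k ∈ S, (p : C) * e k K =
      ∑ i ∈ Finset.Icc 1 K, e k (K - i) * V (i - 1) ^ (p ^ (K - i)) + G k K :=
    fun k hk => he k hk K hK
  rw [Finset.sum_congr rfl h1, Finset.sum_add_distrib]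
  congr 1
  rw [Finset.sum_comm]
  exact Finset.sum_congr rfl fun i _ => by rw [Finset.sum_mul]

/-- A sequence tends to `0` if its restrictions to the residue classes mod `n` do. -/
theorem tendsto_of_residues (hn : 1 ≤ n) (f : ℕ → ℝ)
    (h : ∀ s ∈ Finset.range n, Tendsto (fun N : ℕ => f (n * N + s)) atTop (𝓝 0)) :
    Tendsto f atTop (𝓝 0) := by
  rw [Metric.tendsto_atTop]
  intro ε hε
  have h1 : ∀ᶠ N : ℕ in atTop, ∀ s ∈ Finset.range n, dist (f (n * N + s)) 0 < ε := by
    rw [Filter.eventually_all_finset]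
    intro s hs
    exact (Metric.tendsto_nhds.mp (h s hs)) ε hε
  obtain ⟨N₀, hN₀⟩ := eventually_atTop.mp h1
  refine ⟨n * N₀, fun K hK => ?_⟩
  have hK1 : N₀ ≤ K / n := (Nat.le_div_iff_mul_le (by omega)).mpr (by rw [mul_comm]; exact hK)
  have := hN₀ (K / n) hK1 (K % n) (Finset.mem_range.mpr (Nat.mod_lt _ (by omega)))
  rwa [Nat.div_add_mod] at this

end Seq

end PeriodAux

end Crest.Agent.LT
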