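/-
S0351 package CHAR0/PERIOD: Gross-Hopkins period functions, elementary version: `w_s(τ) = lim_N p^N ℓ_{nN+s}(τ)`. See BLUEPRINT.md §C0.
-/
import Crest.Agent.LT.LogEval
import Crest.Agent.LT.CharP.Setup
import Crest.Agent.LT.Char0.PeriodAux

set_option autoImplicit false
set_option linter.unusedSectionVars false
set_option linter.unusedVariables false

open Crest.LubinTate

namespace Crest.Agent.LT

noncomputable section

variable (p : ℕ) [Fact p.Prime] (n : ℕ)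
variable {C : Type} [NontriviallyNormedField C] [IsUltrametricDist C] [CompleteSpace C] [CharZero C]

/-- Parameters `v_i = τ_{i-1}`, `1 ≤ i < n`, `v_n = 1` (all `n-1` coordinates). -/
abbrev v0 (τ : Fin (n - 1) → OC C) : ℕ → OC C := vStr 1 n τ

/-- `ℓ_K` extended by `0` to negative `K`. -/
def ellZ (τ : Fin (n - 1) → OC C) (K : ℤ) : C :=
  if 0 ≤ K then ellV p (v0 n τ) K.toNat else 0

section Aux

open PeriodAux Filter Topology

omit [CompleteSpace C] [CharZero C] in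
/-- The shape of the parameter vector. -/
theorem vBd_v0 (τ : Fin (n - 1) → OC C) {ρ : ℝ} (hτ : ∀ j, ‖((τ j : OC C) : C)‖ ≤ ρ) :
    VBd n ρ (fun i => ((v0 n τ i : OC C) : C)) := by
  refine ⟨fun i hi => ?_, fun i hi => ?_, fun i hi => ?_⟩
  · simp only [v0, vStr]
    rw [dif_pos ⟨by omega, hi⟩]
    exact hτ _
  · simp only [v0, vStr]
    rw [dif_neg (by omega), if_pos hi]
    simp
  · simp only [v0, vStr]
    rw [dif_neg (by omega), if_neg (by omega)]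
    simp

omit [CompleteSpace C] [CharZero C] in
/-- The sup of finitely many norms `< 1`. -/
theorem exists_rho_char0 (τ : Fin (n - 1) → OC C) (hτ : ∀ j, ‖((τ j : OC C) : C)‖ < 1) :
    ∃ ρ : ℝ, 0 ≤ ρ ∧ ρ < 1 ∧ ∀ j, ‖((τ j : OC C) : C)‖ ≤ ρ := by
  by_cases h : Nonempty (Fin (n - 1))
  · obtain ⟨j₀, hj₀⟩ := Finite.exists_max (fun j => ‖((τ j : OC C) : C)‖)
    exact ⟨_, norm_nonneg _, hτ j₀, hj₀⟩
  · rw [not_nonempty_iff] at h
    exact ⟨0, le_rfl, one_pos, fun j => h.elim j⟩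

omit [IsUltrametricDist C] [CompleteSpace C] [CharZero C] in
/-- The `n`-th root of `‖p‖`. -/
theorem exists_root (hp0 : (p : C) ≠ 0) (hp1 : ‖(p : C)‖ < 1) (hn : 1 ≤ n) :
    ∃ r : ℝ, 0 < r ∧ r < 1 ∧ r ^ n = ‖(p : C)‖ ∧ ∀ K : ℤ, ‖(p : C)‖ ^ (-(K : ℝ) / n) = r ^ (-K) := by
  have hq0 : 0 < ‖(p : C)‖ := norm_pos_iff.mpr hp0
  have hn0 : (n : ℝ) ≠ 0 := by
    have : (1 : ℝ) ≤ n := by exact_mod_cast hn
    positivity
  refine ⟨‖(p : C)‖ ^ ((1 : ℝ) / n), Real.rpow_pos_of_pos hq0 _,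
    Real.rpow_lt_one hq0.le hp1 (by positivity), ?_, fun K => ?_⟩
  · rw [← Real.rpow_natCast, ← Real.rpow_mul hq0.le]
    rw [one_div, inv_mul_cancel₀ hn0, Real.rpow_one]
  · rw [← Real.rpow_intCast, ← Real.rpow_mul hq0.le]
    congr 1
    push_cast
    field_simp

variable {p}

/-- `ℓ_K` obeys the unforced recursion. -/
theorem ellV_isHRec (v : ℕ → OC C) :
    IsHRec p (fun i => ((v i : OC C) : C)) (ellV p v) (fun _ => 0) := by
  intro K hK
  rw [add_zero]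
  exact ellV_rec p v K hK

variable (p)

variable {ρ : ℝ}

/-- The derivative of `ℓ_K` evaluated at `v`. -/
def dEllV (v : ℕ → OC C) (k K : ℕ) : C :=
  MvPolynomial.aeval (R := ℚ) (fun i => ((v i : OC C) : C)) (MvPolynomial.pderiv k (hzEll p K))

/-- The forcing term in the recursion for `∂_k ℓ_K`. -/
def dForce (v : ℕ → OC C) (k K : ℕ) : C :=
  ∑ i ∈ Finset.Icc 1 K, ellV p v (K - i) * ((p ^ (K - i) : ℕ) : C) *
    ((v (i - 1) : OC C) : C) ^ (p ^ (K - i) - 1) * (if i - 1 = k then 1 else 0)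

/-- Derivative recursion. -/
theorem dEllV_isHRec (v : ℕ → OC C) (k : ℕ) :
    IsHRec p (fun i => ((v i : OC C) : C)) (dEllV p v k) (dForce p v k) := by
  intro K hK
  have h := congrArg (MvPolynomial.pderiv k) (hzEll_rec p K hK)
  have h2 := congrArg (MvPolynomial.aeval (R := ℚ) (fun i => ((v i : OC C) : C))) h
  simp only [Derivation.leibniz, map_sum, smul_eq_mul, Derivation.leibniz_pow, MvPolynomial.pderiv_X,
    map_add, map_mul, map_natCast, Derivation.map_natCast, map_pow, MvPolynomial.aeval_X,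
    mul_zero, add_zero] at h2
  simp only [dEllV, dForce]
  rw [h2, ← Finset.sum_add_distrib]
  refine Finset.sum_congr rfl fun i _ => ?_
  simp only [Pi.single_apply, ellV]
  by_cases hik : i - 1 = k
  · simp only [hik, if_true, mul_one, nsmul_eq_mul, map_mul, map_natCast, map_pow,
      MvPolynomial.aeval_X, Nat.cast_pow]
    ring
  · simp only [hik, if_false, mul_zero, map_zero, smul_zero, add_zero, zero_add]
    ring

/-- The forcing term is bounded by `1`. -/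
theorem norm_dForce_le (hp1 : ‖(p : C)‖ < 1) (v : ℕ → OC C) (k K : ℕ) : ‖dForce p v k K‖ ≤ 1 := by
  refine IsUltrametricDist.norm_sum_le_of_forall_le_of_nonneg zero_le_one fun i _ => ?_
  have h1 := norm_ellV_le p v (K - i)
  have h2 : ‖((v (i - 1) : OC C) : C)‖ ≤ 1 := (v (i - 1)).2
  rw [norm_mul, norm_mul, norm_mul, norm_pow]
  have h3 : ‖(((p ^ (K - i) : ℕ) : C))‖ = ‖(p : C)‖ ^ (K - i) := by
    rw [Nat.cast_pow, norm_pow]
  rw [h3]
  have h4 : ‖((v (i - 1) : OC C) : C)‖ ^ (p ^ (K - i) - 1) ≤ 1 := pow_le_one₀ (norm_nonneg _) h2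
  have h5 : ‖(if i - 1 = k then (1 : C) else 0)‖ ≤ 1 := by
    split_ifs <;> simp
  exact mul_le_one₀ (mul_le_one₀ h1 (by positivity) h4) (norm_nonneg _) h5

theorem dEllV_zero (v : ℕ → OC C) (k : ℕ) : dEllV p v k 0 = 0 := by
  simp [dEllV, hzEll_zero]

/-- Uniform constants: `K₀` and the bound for `ℓ` and `∂ℓ`. -/
theorem exists_uniform (hp0 : (p : C) ≠ 0) (hρ0 : 0 ≤ ρ) (hρ1 : ρ < 1) :
    ∃ K₀ : ℕ, ∀ j, K₀ ≤ j → ρ ^ (p ^ j) ≤ ‖(p : C)‖ :=
  exists_pow_pow_le hρ0 hρ1 (norm_pos_iff.mpr hp0) (Fact.out : p.Prime).two_le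

/-- Growth of `ℓ`, uniform in `τ`. -/
theorem ell_bound {r : ℝ} (hr0 : 0 < r) (hr1 : r < 1) (hq : r ^ n = ‖(p : C)‖) (hρ0 : 0 ≤ ρ) (hρ1 : ρ < 1)
    (K₀ : ℕ) (hK₀ : ∀ j, K₀ ≤ j → ρ ^ (p ^ j) ≤ ‖(p : C)‖) (τ : Fin (n - 1) → OC C)
    (hτ : ∀ j, ‖((τ j : OC C) : C)‖ ≤ ρ) (K : ℕ) :
    r ^ K * ‖ellV p (v0 n τ) K‖ ≤ 1 / ‖(p : C)‖ ^ K₀ := by
  refine growth_seq (Fact.out : p.Prime).ne_zero hr0 hr1 hq hρ1.le K₀ hK₀ hρ0 (vBd_v0 n τ hτ)
    (ellV_isHRec _) (D := 0) (E := 1) (fun K _ => by simp) (by simp [ellV_zero]) (by simp) K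

/-- Growth of `∂ℓ`, uniform in `τ`. -/
theorem dEll_bound (hp1 : ‖(p : C)‖ < 1) {r : ℝ} (hr0 : 0 < r) (hr1 : r < 1) (hq : r ^ n = ‖(p : C)‖) (hρ0 : 0 ≤ ρ) (hρ1 : ρ < 1)
    (K₀ : ℕ) (hK₀ : ∀ j, K₀ ≤ j → ρ ^ (p ^ j) ≤ ‖(p : C)‖) (τ : Fin (n - 1) → OC C)
    (hτ : ∀ j, ‖((τ j : OC C) : C)‖ ≤ ρ) (k K : ℕ) :
    r ^ K * ‖dEllV p (v0 n τ) k K‖ ≤ (1 / ‖(p : C)‖) / ‖(p : C)‖ ^ K₀ := by
  have hq0 : 0 < ‖(p : C)‖ := hq ▸ pow_pos hr0 n
  refine growth_seq (Fact.out : p.Prime).ne_zero hr0 hr1 hq hρ1.le K₀ hK₀ hρ0 (vBd_v0 n τ hτ)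
    (dEllV_isHRec p _ k) (D := 1) (E := 1 / ‖(p : C)‖) (fun K _ => ?_) (by simp [dEllV_zero]) le_rfl K
  have h1 := norm_dForce_le p hp1 (v0 n τ) k K
  have h2 : r ^ K ≤ 1 := pow_le_one₀ hr0.le hr1.le
  exact mul_le_one₀ h1 (by positivity) h2

/-- The increment of the parameter vector. -/
def aA (A : Fin (n - 1) → OC C) (i : ℕ) : OC C := if h : i < n - 1 then A ⟨i, h⟩ else 0

omit [CompleteSpace C] [CharZero C] in
theorem v0_add (τ A : Fin (n - 1) → OC C) (i : ℕ) : v0 n (τ + A) i = v0 n τ i + aA n A i := by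
  simp only [v0, vStr, aA]
  by_cases h : i + 1 < n
  · have hi : i < n - 1 := by omega
    rw [dif_pos ⟨by omega, h⟩, dif_pos ⟨by omega, h⟩, dif_pos hi]
    rfl
  · rw [dif_neg (by omega), dif_neg (by omega), dif_neg (by omega), add_zero]

omit [CompleteSpace C] [CharZero C] in
theorem sum_aA (A : Fin (n - 1) → OC C) (j : ℕ) :
    ∑ k : Fin (n - 1), ((A k : OC C) : C) * (if j = (k : ℕ) then 1 else 0) = ((aA n A j : OC C) : C) := by
  by_cases h : j < n - 1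
  · rw [Finset.sum_eq_single ⟨j, h⟩]
    · simp [aA, h]
    · intro b _ hb
      have : j ≠ (b : ℕ) := fun h' => hb (Fin.ext h'.symm)
      simp [this]
    · simp
  · have : ∀ k : Fin (n - 1), j ≠ (k : ℕ) := fun k hk => h (hk ▸ k.2)
    simp [this, aA, h]

omit [CompleteSpace C] [CharZero C] in
theorem norm_aA_le (A : Fin (n - 1) → OC C) (j : ℕ) :
    ‖((aA n A j : OC C) : C)‖ ≤ ‖(fun j => ((A j : OC C) : C))‖ := by
  simp only [aA]
  split_ifs with h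
  · exact norm_le_pi_norm (fun j => ((A j : OC C) : C)) ⟨j, h⟩
  · simp

/-- The second-order remainder `R_K`. -/
def remR (τ A : Fin (n - 1) → OC C) (K : ℕ) : C :=
  ellV p (v0 n (τ + A)) K - ellV p (v0 n τ) K -
    ∑ k : Fin (n - 1), dEllV p (v0 n τ) k K * ((A k : OC C) : C)

/-- The linear part at level `j`. -/
def linD (τ A : Fin (n - 1) → OC C) (j : ℕ) : C :=
  ∑ k : Fin (n - 1), dEllV p (v0 n τ) k j * ((A k : OC C) : C)

/-- The forcing term of the recursion for `R_K`. -/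
def forceT (τ A : Fin (n - 1) → OC C) (K : ℕ) : C :=
  ∑ i ∈ Finset.Icc 1 K,
    (ellV p (v0 n τ) (K - i) *
        (((v0 n τ (i - 1) + aA n A (i - 1) : OC C) : C) ^ (p ^ (K - i)) -
          ((v0 n τ (i - 1) : OC C) : C) ^ (p ^ (K - i)) -
          ((p ^ (K - i) : ℕ) : C) * ((v0 n τ (i - 1) : OC C) : C) ^ (p ^ (K - i) - 1) *
            ((aA n A (i - 1) : OC C) : C)) +
      linD p n τ A (K - i) *
        (((v0 n τ (i - 1) + aA n A (i - 1) : OC C) : C) ^ (p ^ (K - i)) -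
          ((v0 n τ (i - 1) : OC C) : C) ^ (p ^ (K - i))))

/-- The recursion for `R_K`. -/
theorem remR_isHRec (τ A : Fin (n - 1) → OC C) :
    IsHRec p (fun i => ((v0 n (τ + A) i : OC C) : C)) (remR p n τ A) (forceT p n τ A) := by
  intro K hK
  have hx := ellV_rec p (v0 n (τ + A)) K hK
  have hy := ellV_rec p (v0 n τ) K hK
  have hd : ∀ k : Fin (n - 1), (p : C) * dEllV p (v0 n τ) k K =
      ∑ i ∈ Finset.Icc 1 K, dEllV p (v0 n τ) k (K - i) * ((v0 n τ (i - 1) : OC C) : C) ^ (p ^ (K - i)) +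
        dForce p (v0 n τ) k K := fun k => dEllV_isHRec p (v0 n τ) k K hK
  have hsum1 : (p : C) * ∑ k : Fin (n - 1), dEllV p (v0 n τ) k K * ((A k : OC C) : C) =
      ∑ i ∈ Finset.Icc 1 K, linD p n τ A (K - i) * ((v0 n τ (i - 1) : OC C) : C) ^ (p ^ (K - i)) +
      ∑ i ∈ Finset.Icc 1 K, ellV p (v0 n τ) (K - i) * ((p ^ (K - i) : ℕ) : C) *
        ((v0 n τ (i - 1) : OC C) : C) ^ (p ^ (K - i) - 1) * ((aA n A (i - 1) : OC C) : C) := by
    have h1 : ∀ k : Fin (n - 1), (p : C) * (dEllV p (v0 n τ) k K * ((A k : OC C) : C)) =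
        (∑ i ∈ Finset.Icc 1 K, dEllV p (v0 n τ) k (K - i) * ((v0 n τ (i - 1) : OC C) : C) ^ (p ^ (K - i))) *
          ((A k : OC C) : C) + dForce p (v0 n τ) k K * ((A k : OC C) : C) := by
      intro k
      rw [← mul_assoc, hd k]
      ring
    rw [Finset.mul_sum, Finset.sum_congr rfl (fun k _ => h1 k), Finset.sum_add_distrib]
    congr 1
    · simp only [Finset.sum_mul, linD]
      rw [Finset.sum_comm]
      refine Finset.sum_congr rfl fun i _ => Finset.sum_congr rfl fun k _ => ?_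
      ring
    · simp only [dForce, Finset.sum_mul]
      rw [Finset.sum_comm]
      refine Finset.sum_congr rfl fun i _ => ?_
      rw [← sum_aA n A (i - 1), Finset.mul_sum]
      refine Finset.sum_congr rfl fun k _ => ?_
      ring
  simp only [remR]
  rw [mul_sub, mul_sub, hx, hy, hsum1]
  simp only [forceT, linD]
  rw [← Finset.sum_add_distrib]
  simp only [← Finset.sum_sub_distrib, ← Finset.sum_add_distrib]
  refine Finset.sum_congr rfl fun i _ => ?_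
  rw [v0_add]
  push_cast
  ring

/-- Bound of the forcing term of `R_K`. -/
theorem norm_forceT_le (hp1 : ‖(p : C)‖ < 1) {r : ℝ} (hr0 : 0 < r) (hr1 : r < 1) (hq : r ^ n = ‖(p : C)‖)
    (hρ0 : 0 ≤ ρ) (hρ1 : ρ < 1) (K₀ : ℕ) (hK₀ : ∀ j, K₀ ≤ j → ρ ^ (p ^ j) ≤ ‖(p : C)‖)
    (τ A : Fin (n - 1) → OC C) (hτ : ∀ j, ‖((τ j : OC C) : C)‖ ≤ ρ) (K : ℕ) :
    ‖forceT p n τ A K‖ * r ^ K ≤
      (1 / ‖(p : C)‖) / ‖(p : C)‖ ^ K₀ * ‖(fun j => ((A j : OC C) : C))‖ ^ 2 := by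
  have hq0 : 0 < ‖(p : C)‖ := hq ▸ pow_pos hr0 n
  set Nrm := ‖(fun j => ((A j : OC C) : C))‖ with hNrm
  have hN0 : 0 ≤ Nrm := norm_nonneg _
  set B : ℝ := (1 / ‖(p : C)‖) / ‖(p : C)‖ ^ K₀ with hB
  have hB0 : 0 ≤ B := by positivity
  have hBl : 1 / ‖(p : C)‖ ^ K₀ ≤ B := by
    rw [hB, div_div, div_le_div_iff₀ (by positivity) (by positivity)]
    have : ‖(p : C)‖ * ‖(p : C)‖ ^ K₀ ≤ ‖(p : C)‖ ^ K₀ := by
      have h1 : ‖(p : C)‖ ^ K₀ ≥ 0 := by positivity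
      nlinarith
    linarith
  have hrK : 0 < r ^ K := pow_pos hr0 K
  rw [← le_div_iff₀ hrK]
  refine IsUltrametricDist.norm_sum_le_of_forall_le_of_nonneg (by positivity) fun i hi => ?_
  have hi' := Finset.mem_Icc.mp hi
  set j := K - i with hj
  have hjK : j ≤ K := by omega
  have hrj : 0 < r ^ j := pow_pos hr0 j
  set U : OC C := v0 n τ (i - 1) with hU
  set a : OC C := aA n A (i - 1) with ha
  set m : ℕ := p ^ j with hm
  obtain ⟨κ, hκ⟩ := Polynomial.powAddExpansion U a m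
  have hκc : ((U + a : OC C) : C) ^ m = (U : C) ^ m + (m : C) * (U : C) ^ (m - 1) * (a : C) +
      (κ : C) * (a : C) ^ 2 := by
    have := congrArg (fun x : OC C => (x : C)) hκ
    simpa using this
  have hκ1 : ‖(κ : C)‖ ≤ 1 := κ.2
  have han : ‖(a : C)‖ ≤ Nrm := norm_aA_le n A (i - 1)
  have ha1 : ‖(a : C)‖ ≤ 1 := a.2
  have hQ : ‖((U + a : OC C) : C) ^ m - (U : C) ^ m - ((p ^ j : ℕ) : C) * (U : C) ^ (m - 1) * (a : C)‖ ≤
      Nrm ^ 2 := by
    rw [hκc]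
    have : (U : C) ^ m + (m : C) * (U : C) ^ (m - 1) * (a : C) + (κ : C) * (a : C) ^ 2 - (U : C) ^ m -
        ((p ^ j : ℕ) : C) * (U : C) ^ (m - 1) * (a : C) = (κ : C) * (a : C) ^ 2 := by
      rw [hm]; ring
    rw [this, norm_mul, norm_pow]
    calc ‖(κ : C)‖ * ‖(a : C)‖ ^ 2 ≤ 1 * Nrm ^ 2 :=
          mul_le_mul hκ1 (pow_le_pow_left₀ (norm_nonneg _) han 2) (by positivity) zero_le_one
      _ = Nrm ^ 2 := one_mul _
  have hdiff : ‖((U + a : OC C) : C) ^ m - (U : C) ^ m‖ ≤ Nrm := by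
    set z : OC C := (m : OC C) * U ^ (m - 1) + κ * a with hz
    have hzc : ((U + a : OC C) : C) ^ m - (U : C) ^ m = (z : C) * (a : C) := by
      rw [hκc, hz]
      push_cast
      ring
    rw [hzc, norm_mul]
    have hz1 : ‖(z : C)‖ ≤ 1 := z.2
    calc ‖(z : C)‖ * ‖(a : C)‖ ≤ 1 * Nrm := mul_le_mul hz1 han (norm_nonneg _) zero_le_one
      _ = Nrm := one_mul _
  have hl : ‖ellV p (v0 n τ) j‖ ≤ B / r ^ j := by
    rw [le_div_iff₀ hrj, mul_comm]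
    exact (ell_bound p n hr0 hr1 hq hρ0 hρ1 K₀ hK₀ τ hτ j).trans hBl
  have hD : ‖linD p n τ A j‖ ≤ B / r ^ j * Nrm := by
    refine IsUltrametricDist.norm_sum_le_of_forall_le_of_nonneg (by positivity) fun k _ => ?_
    rw [norm_mul]
    refine mul_le_mul ?_ (norm_le_pi_norm (fun j => ((A j : OC C) : C)) k) (norm_nonneg _) (by positivity)
    rw [le_div_iff₀ hrj, mul_comm]
    exact dEll_bound p n hp1 hr0 hr1 hq hρ0 hρ1 K₀ hK₀ τ hτ k j
  have hrr : B / r ^ j * Nrm ^ 2 ≤ B * Nrm ^ 2 / r ^ K := by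
    rw [div_mul_eq_mul_div]
    exact div_le_div_of_nonneg_left (by positivity) hrK (pow_le_pow_of_le_one hr0.le hr1.le hjK)
  refine (IsUltrametricDist.norm_add_le_max _ _).trans (max_le ?_ ?_)
  · rw [norm_mul]
    exact (mul_le_mul hl hQ (norm_nonneg _) (by positivity)).trans hrr
  · rw [norm_mul]
    refine (mul_le_mul hD hdiff (norm_nonneg _) (by positivity)).trans ?_
    refine le_trans (le_of_eq ?_) hrr
    ring

/-- **Second-order bound** for `R_K`. -/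
theorem remR_bound (hp1 : ‖(p : C)‖ < 1) {r : ℝ} (hr0 : 0 < r) (hr1 : r < 1) (hq : r ^ n = ‖(p : C)‖)
    (hρ0 : 0 ≤ ρ) (hρ1 : ρ < 1) (K₀ : ℕ) (hK₀ : ∀ j, K₀ ≤ j → ρ ^ (p ^ j) ≤ ‖(p : C)‖)
    (τ A : Fin (n - 1) → OC C) (hτ : ∀ j, ‖((τ j : OC C) : C)‖ ≤ ρ)
    (hτA : ∀ j, ‖((τ j + A j : OC C) : C)‖ ≤ ρ) (K : ℕ) :
    r ^ K * ‖remR p n τ A K‖ ≤
      ((1 / ‖(p : C)‖) / ‖(p : C)‖ ^ K₀ * ‖(fun j => ((A j : OC C) : C))‖ ^ 2) / ‖(p : C)‖ / ‖(p : C)‖ ^ K₀ := by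
  have hq0 : 0 < ‖(p : C)‖ := hq ▸ pow_pos hr0 n
  refine growth_seq (Fact.out : p.Prime).ne_zero hr0 hr1 hq hρ1.le K₀ hK₀ hρ0
    (vBd_v0 n (τ + A) hτA) (remR_isHRec p n τ A)
    (D := (1 / ‖(p : C)‖) / ‖(p : C)‖ ^ K₀ * ‖(fun j => ((A j : OC C) : C))‖ ^ 2) (E := _)
    (fun K _ => norm_forceT_le p n hp1 hr0 hr1 hq hρ0 hρ1 K₀ hK₀ τ A hτ K) ?_ le_rfl K
  have h0 : remR p n τ A 0 = 0 := by
    simp [remR, ellV_zero, dEllV_zero]
  rw [h0, norm_zero]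
  positivity

theorem dForce_self (v : ℕ → OC C) (k : ℕ) : dForce p v k (k + 1) = 1 := by
  rw [dForce, Finset.sum_eq_single (k + 1)]
  · simp [ellV_zero]
  · intro i hi hik
    have hi' := Finset.mem_Icc.mp hi
    have : i - 1 ≠ k := by omega
    simp [this]
  · intro h
    exact absurd (Finset.mem_Icc.mpr ⟨by omega, le_rfl⟩) h

theorem dForce_other (hp1 : ‖(p : C)‖ < 1) (hρ0 : 0 ≤ ρ) (hρ1 : ρ ≤ 1) (v : ℕ → OC C) (k k' : ℕ) (hk : k' ≠ k)
    (hv : ∀ i, i ≤ k → ‖((v i : OC C) : C)‖ ≤ ρ) : ‖dForce p v k' (k + 1)‖ ≤ ρ := by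
  refine IsUltrametricDist.norm_sum_le_of_forall_le_of_nonneg hρ0 fun i hi => ?_
  have hi' := Finset.mem_Icc.mp hi
  by_cases hik : i - 1 = k'
  · rw [if_pos hik, mul_one, norm_mul, norm_mul, norm_pow]
    have h1 := norm_ellV_le p v (k + 1 - i)
    have h3 : ‖(((p ^ (k + 1 - i) : ℕ) : C))‖ = ‖(p : C)‖ ^ (k + 1 - i) := by
      rw [Nat.cast_pow, norm_pow]
    rw [h3]
    have hj : 1 ≤ k + 1 - i := by omega
    have hp2 : 2 ≤ p := (Fact.out : p.Prime).two_le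
    have hm : p ^ (k + 1 - i) - 1 ≠ 0 := by
      have : 2 ≤ p ^ (k + 1 - i) := hp2.trans (Nat.le_self_pow (by omega) p)
      omega
    have h4 : ‖((v (i - 1) : OC C) : C)‖ ^ (p ^ (k + 1 - i) - 1) ≤ ρ :=
      (pow_le_pow_left₀ (norm_nonneg _) (hv _ (by omega)) _).trans (pow_le_of_le_one hρ0 hρ1 hm)
    calc _ ≤ 1 * ρ := mul_le_mul h1 h4 (by positivity) zero_le_one
      _ = ρ := one_mul _
  · rw [if_neg hik, mul_zero, norm_zero]
    exact hρ0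

/-- Frobenius contraction: `t^(p^m) - b^(p^m) → 0` when `t ≡ b` mod `𝔪`. -/
theorem tendsto_frob_sub (hp1 : ‖(p : C)‖ < 1) (t b : OC C) (htb : ‖((t - b : OC C) : C)‖ < 1) :
    Filter.Tendsto (fun m : ℕ => ‖((t : C) ^ (p ^ m) - (b : C) ^ (p ^ m))‖) Filter.atTop (nhds 0) := by
  have hpp : p.Prime := Fact.out
  set c₀ : ℝ := max ‖(p : C)‖ ‖((t - b : OC C) : C)‖ with hc₀
  have hc1 : c₀ < 1 := max_lt hp1 htb
  have hc0 : 0 ≤ c₀ := (norm_nonneg _).trans (le_max_left _ _)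
  have hkey : ∀ m : ℕ, ‖((t : C) ^ (p ^ m) - (b : C) ^ (p ^ m))‖ ≤ c₀ ^ (m + 1) := by
    intro m
    induction m with
    | zero =>
      simp only [pow_zero, pow_one, zero_add]
      have : (t : C) - (b : C) = ((t - b : OC C) : C) := by simp
      rw [this]
      exact le_max_right _ _
    | succ m ih =>
      set x : OC C := t ^ (p ^ m) with hx
      set y : OC C := b ^ (p ^ m) with hy
      set a : OC C := x - y with ha
      have hxc : (t : C) ^ (p ^ m) = (x : C) := by simp [hx]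
      have hyc : (b : C) ^ (p ^ m) = (y : C) := by simp [hy]
      have hac : ‖(a : C)‖ ≤ c₀ ^ (m + 1) := by
        have : (a : C) = (t : C) ^ (p ^ m) - (b : C) ^ (p ^ m) := by
          rw [hxc, hyc, ha]; simp
        rw [this]; exact ih
      obtain ⟨w, hw⟩ := exists_add_pow_prime_eq hpp y a
      have hxa : y + a = x := by rw [ha]; ring
      rw [hxa] at hw
      have hstep : (t : C) ^ (p ^ (m + 1)) - (b : C) ^ (p ^ (m + 1)) =
          (a : C) ^ p + (p : C) * (y : C) * (a : C) * (w : C) := by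
        have h1 : (t : C) ^ (p ^ (m + 1)) = (x : C) ^ p := by rw [pow_succ, pow_mul, hxc]
        have h2 : (b : C) ^ (p ^ (m + 1)) = (y : C) ^ p := by rw [pow_succ, pow_mul, hyc]
        rw [h1, h2]
        have := congrArg (fun z : OC C => (z : C)) hw
        simp only [Subring.coe_pow, Subring.coe_add, Subring.coe_mul] at this
        rw [this]
        push_cast
        ring
      rw [hstep]
      have hcpow : c₀ ^ (m + 1) ≤ c₀ := by
        calc c₀ ^ (m + 1) ≤ c₀ ^ 1 := pow_le_pow_of_le_one hc0 hc1.le (by omega)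
          _ = c₀ := pow_one _
      refine (IsUltrametricDist.norm_add_le_max _ _).trans (max_le ?_ ?_)
      · rw [norm_pow]
        have h2p : 2 ≤ p := hpp.two_le
        have ha1 : ‖(a : C)‖ ≤ 1 := a.2
        calc ‖(a : C)‖ ^ p ≤ ‖(a : C)‖ ^ 2 := pow_le_pow_of_le_one (norm_nonneg _) ha1 h2p
          _ ≤ c₀ ^ (m + 1) * c₀ := by
              rw [pow_two]
              exact mul_le_mul hac (hac.trans hcpow) (norm_nonneg _) (by positivity)
          _ = c₀ ^ (m + 1 + 1) := (pow_succ _ _).symm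
      · rw [norm_mul, norm_mul, norm_mul]
        have hy1 : ‖(y : C)‖ ≤ 1 := y.2
        have hw1 : ‖(w : C)‖ ≤ 1 := w.2
        have hpc : ‖(p : C)‖ ≤ c₀ := le_max_left _ _
        calc ‖(p : C)‖ * ‖(y : C)‖ * ‖(a : C)‖ * ‖(w : C)‖ ≤ c₀ * 1 * c₀ ^ (m + 1) * 1 := by
              gcongr
          _ = c₀ ^ (m + 1 + 1) := by ring
  refine squeeze_zero (fun m => norm_nonneg _) hkey ?_
  have := (tendsto_pow_atTop_nhds_zero_of_lt_one hc0 hc1).comp (Filter.tendsto_add_atTop_nat 1)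
  exact this

omit [IsUltrametricDist C] [CompleteSpace C] [CharZero C] in
/-- Periodicity of the Frobenius orbit of `b`, `b^(p^n) = b`. -/
theorem frob_periodic (b : C) (hb : b ^ (p ^ n) = b) (l M : ℕ) :
    b ^ (p ^ (l + n * M)) = b ^ (p ^ l) := by
  induction M with
  | zero => simp
  | succ M ih =>
    have : p ^ (l + n * (M + 1)) = p ^ (l + n * M) * p ^ n := by
      rw [← pow_add]; congr 1; ring
    rw [this, mul_comm, pow_mul, hb, ih]

/-- Frobenius orbits along an arithmetic progression of exponents. -/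
theorem tendsto_frob_orbit (hp1 : ‖(p : C)‖ < 1) (hn : 1 ≤ n) (t b : OC C)
    (htb : ‖((t - b : OC C) : C)‖ < 1) (hb : (b : C) ^ (p ^ n) = b) (s : ℤ) :
    Filter.Tendsto (fun N : ℕ => (t : C) ^ (p ^ ((n : ℤ) * N + s).toNat)) Filter.atTop
      (nhds ((b : C) ^ (p ^ (s % n).toNat))) := by
  have hn0 : (n : ℤ) ≠ 0 := by
    have : (1 : ℤ) ≤ n := by exact_mod_cast hn
    omega
  have h1 := (tendsto_frob_sub p hp1 t b htb).comp (PeriodAux.tendsto_toNat hn s)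
  rw [tendsto_iff_norm_sub_tendsto_zero]
  refine h1.congr' ?_
  filter_upwards [Filter.eventually_ge_atTop (s / n).natAbs] with N hN
  simp only [Function.comp]
  have hl : 0 ≤ s % n := Int.emod_nonneg _ hn0
  have hdm : s = (n : ℤ) * (s / n) + s % n := (Int.mul_ediv_add_emod s n).symm
  obtain ⟨l, hl'⟩ := Int.eq_ofNat_of_zero_le hl
  have hM0 : 0 ≤ (N : ℤ) + s / n := by omega
  obtain ⟨M, hM⟩ := Int.eq_ofNat_of_zero_le hM0
  have hK : (n : ℤ) * N + s = ((l + n * M : ℕ) : ℤ) := by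
    push_cast
    rw [← hM, ← hl']
    nth_rewrite 1 [hdm]
    ring
  rw [hK, Int.toNat_natCast, hl', Int.toNat_natCast, frob_periodic p n (b : C) hb l M]

end Aux

/-- Growth bound `‖ℓ_K‖ ≤ A ‖p‖^(-K/n)`, from `p ℓ_K = ℓ_{K-n} + ∑_{i<n} ℓ_{K-i} v_i^(p^(K-i))`, `‖ℓ_K‖ ≤ ‖p‖^(-K)` for small `K`, superexponential
smallness of `v_i^(p^(K-i))`. -/
theorem ellZ_growth (hp0 : (p : C) ≠ 0) (hp1 : ‖(p : C)‖ < 1) (hn : 1 ≤ n) (τ : Fin (n - 1) → OC C)
    (hτ : ∀ j, ‖((τ j : OC C) : C)‖ < 1) :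
    ∃ A : ℝ, 0 < A ∧ ∀ K : ℤ, ‖ellZ p n τ K‖ ≤ A * ‖(p : C)‖ ^ (-(K : ℝ) / n) := by
  obtain ⟨r, hr0, hr1, hq, hrp⟩ := exists_root p n hp0 hp1 hn
  obtain ⟨ρ, hρ0, hρ1, hτρ⟩ := exists_rho_char0 n τ hτ
  obtain ⟨K₀, hK₀⟩ := exists_uniform p hp0 hρ0 hρ1
  have hq0 : 0 < ‖(p : C)‖ := norm_pos_iff.mpr hp0
  refine ⟨1 / ‖(p : C)‖ ^ K₀, by positivity, fun K => ?_⟩
  rw [hrp]
  by_cases hK : 0 ≤ K
  · obtain ⟨K', rfl⟩ := Int.eq_ofNat_of_zero_le hK
    have h := ell_bound p n hr0 hr1 hq hρ0 hρ1 K₀ hK₀ τ hτρ K'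
    have h2 : ‖ellZ p n τ (K' : ℤ)‖ = ‖ellV p (v0 n τ) K'‖ := by
      simp [ellZ]
    rw [h2, zpow_neg, zpow_natCast, ← div_eq_mul_inv, le_div_iff₀ (pow_pos hr0 _), mul_comm]
    exact h
  · have h2 : ellZ p n τ K = 0 := by simp [ellZ, hK]
    rw [h2, norm_zero]
    have := zpow_pos hr0 (-K)
    positivity

/-- The period `w_s(τ)`. -/
def wPer (τ : Fin (n - 1) → OC C) (s : ℤ) : C :=
  Classical.epsilon fun w : C =>
    Filter.Tendsto (fun N : ℕ => (p : C) ^ N * ellZ p n τ ((n : ℤ) * N + s)) Filter.atTop (nhds w)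

/-- Convergence: `p^(N+1) ℓ_{K+n} - p^N ℓ_K = p^N ∑_{i<n} ℓ_{K+n-i} v_i^(p^(K+n-i))` is super-exponentially small. -/
theorem tendsto_wPer (hp0 : (p : C) ≠ 0) (hp1 : ‖(p : C)‖ < 1) (hn : 1 ≤ n) (τ : Fin (n - 1) → OC C)
    (hτ : ∀ j, ‖((τ j : OC C) : C)‖ < 1) (s : ℤ) :
    Filter.Tendsto (fun N : ℕ => (p : C) ^ N * ellZ p n τ ((n : ℤ) * N + s)) Filter.atTop
      (nhds (wPer p n τ s)) := by
  obtain ⟨r, hr0, hr1, hq, hrp⟩ := exists_root p n hp0 hp1 hn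
  obtain ⟨ρ, hρ0, hρ1, hτρ⟩ := exists_rho_char0 n τ hτ
  obtain ⟨K₀, hK₀⟩ := exists_uniform p hp0 hρ0 hρ1
  have hq0 : 0 < ‖(p : C)‖ := norm_pos_iff.mpr hp0
  obtain ⟨w, hw⟩ := PeriodAux.exists_tendsto_extZ (Fact.out : p.Prime).two_le hn hr0 hr1 hq hρ0 hρ1
    (vBd_v0 n τ hτρ) (ellV_isHRec (p := p) (v0 n τ)) (B := 1 / ‖(p : C)‖ ^ K₀) (by positivity)
    (ell_bound p n hr0 hr1 hq hρ0 hρ1 K₀ hK₀ τ hτρ) (by simp) s
  exact Classical.epsilon_spec (p := fun w : C => Filter.Tendsto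
    (fun N : ℕ => (p : C) ^ N * ellZ p n τ ((n : ℤ) * N + s)) Filter.atTop (nhds w)) ⟨w, hw⟩

theorem wPer_sub_n (hp0 : (p : C) ≠ 0) (hp1 : ‖(p : C)‖ < 1) (hn : 1 ≤ n) (τ : Fin (n - 1) → OC C)
    (hτ : ∀ j, ‖((τ j : OC C) : C)‖ < 1) (s : ℤ) :
    wPer p n τ (s - n) = (p : C) * wPer p n τ s := by
  have h1 := tendsto_wPer p n hp0 hp1 hn τ hτ (s - n)
  have h2 := (tendsto_wPer p n hp0 hp1 hn τ hτ s).const_mul (p : C)
  have h3 := (Filter.tendsto_add_atTop_iff_nat 1).mpr h1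
  refine tendsto_nhds_unique h3 (h2.congr fun N => ?_)
  have : ((n : ℤ) * ((N + 1 : ℕ) : ℤ) + (s - n)) = (n : ℤ) * N + s := by push_cast; ring
  rw [this, pow_succ]
  ring

/-- Some period is nonzero. `ℓ_0 = 1`, so the window `(ℓ_K..ℓ_{K+n-1})` is nonzero for all `K ≥ 0` (if `W_{K+1} = 0` then `ℓ_K = 0` by the recursion). `a_K = ‖p‖^(K/n) ‖ℓ_K‖`: `M_K = max` of `a` over
the window is constant for `K ≥ K₀` (corrections superexponentially small), and if `a_L = M_{K₀}` in the window then `p^N ℓ_{L+nN}` has constant norm: its limit is nonzero. -/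
theorem exists_wPer_ne_zero (hp0 : (p : C) ≠ 0) (hp1 : ‖(p : C)‖ < 1) (hn : 1 ≤ n) (τ : Fin (n - 1) → OC C)
    (hτ : ∀ j, ‖((τ j : OC C) : C)‖ < 1) : ∃ s : ℤ, wPer p n τ s ≠ 0 := by
  obtain ⟨r, hr0, hr1, hq, hrp⟩ := exists_root p n hp0 hp1 hn
  obtain ⟨ρ, hρ0, hρ1, hτρ⟩ := exists_rho_char0 n τ hτ
  obtain ⟨L, c, hc, hconst⟩ := PeriodAux.exists_const_norm (Fact.out : p.Prime).two_le hn hr0 hr1 hq hρ0 hρ1
    (vBd_v0 n τ hτρ) (ellV_isHRec (p := p) (v0 n τ)) (by rw [ellV_zero]; exact one_ne_zero)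
  refine ⟨L, fun h0 => ?_⟩
  have h1 := (tendsto_wPer p n hp0 hp1 hn τ hτ (L : ℤ)).norm
  rw [h0, norm_zero] at h1
  have h2 : Filter.Tendsto (fun t : ℕ => ‖(p : C) ^ t * ellZ p n τ ((n : ℤ) * t + (L : ℤ))‖)
      Filter.atTop (nhds c) := by
    refine tendsto_const_nhds.congr fun t => ?_
    exact (hconst t).symm
  exact hc.ne' (tendsto_nhds_unique h2 h1)

/-- Derivative of `ℓ_K` in the coordinate `τ_k`. -/
def dEllZ (τ : Fin (n - 1) → OC C) (k : Fin (n - 1)) (K : ℤ) : C :=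
  if 0 ≤ K then MvPolynomial.aeval (R := ℚ) (fun i => ((v0 n τ i : OC C) : C))
    (MvPolynomial.pderiv (k : ℕ) (hzEll p K.toNat)) else 0

/-- Derivative of the period. -/
def dwPer (τ : Fin (n - 1) → OC C) (k : Fin (n - 1)) (s : ℤ) : C :=
  Classical.epsilon fun w : C =>
    Filter.Tendsto (fun N : ℕ => (p : C) ^ N * dEllZ p n τ k ((n : ℤ) * N + s)) Filter.atTop (nhds w)

omit [CompleteSpace C] in
theorem dEllZ_natCast (τ : Fin (n - 1) → OC C) (k : Fin (n - 1)) (K : ℕ) :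
    dEllZ p n τ k (K : ℤ) = dEllV p (v0 n τ) k K := by
  simp only [dEllZ, dEllV, Int.natCast_nonneg, if_true, Int.toNat_natCast]

omit [CompleteSpace C] in
theorem ellZ_natCast (τ : Fin (n - 1) → OC C) (K : ℕ) :
    ellZ p n τ (K : ℤ) = ellV p (v0 n τ) K := by
  simp only [ellZ, Int.natCast_nonneg, if_true, Int.toNat_natCast]

theorem tendsto_dwPer (hp0 : (p : C) ≠ 0) (hp1 : ‖(p : C)‖ < 1) (hn : 1 ≤ n) (τ : Fin (n - 1) → OC C)
    (hτ : ∀ j, ‖((τ j : OC C) : C)‖ < 1) (k : Fin (n - 1)) (s : ℤ) :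
    Filter.Tendsto (fun N : ℕ => (p : C) ^ N * dEllZ p n τ k ((n : ℤ) * N + s)) Filter.atTop
      (nhds (dwPer p n τ k s)) := by
  obtain ⟨r, hr0, hr1, hq, hrp⟩ := exists_root p n hp0 hp1 hn
  obtain ⟨ρ, hρ0, hρ1, hτρ⟩ := exists_rho_char0 n τ hτ
  obtain ⟨K₀, hK₀⟩ := exists_uniform p hp0 hρ0 hρ1
  have hq0 : 0 < ‖(p : C)‖ := norm_pos_iff.mpr hp0
  have hG : Filter.Tendsto (fun K : ℕ => r ^ K * ‖dForce p (v0 n τ) (k : ℕ) K‖) Filter.atTop (nhds 0) := by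
    refine squeeze_zero (fun K => by positivity) (fun K => ?_) (tendsto_pow_atTop_nhds_zero_of_lt_one hr0.le hr1)
    have h1 := norm_dForce_le p hp1 (v0 n τ) (k : ℕ) K
    have h2 : 0 < r ^ K := pow_pos hr0 K
    nlinarith
  obtain ⟨w, hw⟩ := PeriodAux.exists_tendsto_extZ (Fact.out : p.Prime).two_le hn hr0 hr1 hq hρ0 hρ1
    (vBd_v0 n τ hτρ) (dEllV_isHRec p (v0 n τ) (k : ℕ)) (B := (1 / ‖(p : C)‖) / ‖(p : C)‖ ^ K₀)
    (by positivity) (dEll_bound p n hp1 hr0 hr1 hq hρ0 hρ1 K₀ hK₀ τ hτρ (k : ℕ)) hG s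
  exact Classical.epsilon_spec (p := fun w : C => Filter.Tendsto
    (fun N : ℕ => (p : C) ^ N * dEllZ p n τ k ((n : ℤ) * N + s)) Filter.atTop (nhds w)) ⟨w, hw⟩

theorem dwPer_sub_n (hp0 : (p : C) ≠ 0) (hp1 : ‖(p : C)‖ < 1) (hn : 1 ≤ n) (τ : Fin (n - 1) → OC C)
    (hτ : ∀ j, ‖((τ j : OC C) : C)‖ < 1) (k : Fin (n - 1)) (s : ℤ) :
    dwPer p n τ k (s - n) = (p : C) * dwPer p n τ k s := by
  have h1 := tendsto_dwPer p n hp0 hp1 hn τ hτ k (s - n)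
  have h2 := (tendsto_dwPer p n hp0 hp1 hn τ hτ k s).const_mul (p : C)
  have h3 := (Filter.tendsto_add_atTop_iff_nat 1).mpr h1
  refine tendsto_nhds_unique h3 (h2.congr fun N => ?_)
  have : ((n : ℤ) * ((N + 1 : ℕ) : ℤ) + (s - n)) = (n : ℤ) * N + s := by push_cast; ring
  rw [this, pow_succ]
  ring

/-- First-order Taylor. For `ρ < 1` there is `K` such that for `‖τ j‖, ‖τ j + A j‖ ≤ ρ`:
`‖w_s(τ + A) - w_s(τ) - ∑_k ∂_k w_s(τ) A_k‖ ≤ K ‖A‖²`. Proof: for fixed direction, `t ↦ p^N ℓ_{nN+s}(τ + t A₀)` is a polynomial bounded by `K₀` on `‖t‖ ≤ 1`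
(`ellZ_growth` is uniform for `‖τ‖ ≤ ρ`), so all its coefficients are `≤ K₀` (max principle, infinite residue field); so remainder `≤ K₀ ‖t‖²`; let `N → ∞`. -/
theorem period_taylor (hp0 : (p : C) ≠ 0) (hp1 : ‖(p : C)‖ < 1) (hn : 1 ≤ n) [IsAlgClosed C] (ρ : ℝ) (hρ : ρ < 1)
    (s : ℤ) : ∃ K : ℝ, ∀ τ A : Fin (n - 1) → OC C, (∀ j, ‖((τ j : OC C) : C)‖ ≤ ρ) →
      (∀ j, ‖((τ j + A j : OC C) : C)‖ ≤ ρ) →
      ‖wPer p n (τ + A) s - wPer p n τ s -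
        ∑ k, dwPer p n τ k s * ((A k : OC C) : C)‖ ≤ K * ‖(fun j => ((A j : OC C) : C))‖ ^ 2 := by
  obtain ⟨r, hr0, hr1, hq, hrp⟩ := exists_root p n hp0 hp1 hn
  have hρ0' : 0 ≤ max ρ 0 := le_max_right _ _
  have hρ1' : max ρ 0 < 1 := max_lt hρ one_pos
  obtain ⟨K₀, hK₀⟩ := exists_uniform p hp0 hρ0' hρ1'
  have hq0 : 0 < ‖(p : C)‖ := norm_pos_iff.mpr hp0
  refine ⟨(1 / ‖(p : C)‖) / ‖(p : C)‖ ^ K₀ / ‖(p : C)‖ / ‖(p : C)‖ ^ K₀ * r ^ (-s), fun τ A hτ hτA => ?_⟩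
  have hτ' : ∀ j, ‖((τ j : OC C) : C)‖ ≤ max ρ 0 := fun j => (hτ j).trans (le_max_left _ _)
  have hτA' : ∀ j, ‖((τ j + A j : OC C) : C)‖ ≤ max ρ 0 := fun j => (hτA j).trans (le_max_left _ _)
  have hτ1 : ∀ j, ‖((τ j : OC C) : C)‖ < 1 := fun j => (hτ' j).trans_lt hρ1'
  have hτA1 : ∀ j, ‖(((τ + A) j : OC C) : C)‖ < 1 := fun j => (hτA' j).trans_lt hρ1'
  have hlim1 := tendsto_wPer p n hp0 hp1 hn (τ + A) hτA1 s
  have hlim2 := tendsto_wPer p n hp0 hp1 hn τ hτ1 s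
  have hlim3 : Filter.Tendsto (fun N : ℕ => ∑ k : Fin (n - 1),
      ((p : C) ^ N * dEllZ p n τ k ((n : ℤ) * N + s)) * ((A k : OC C) : C)) Filter.atTop
      (nhds (∑ k : Fin (n - 1), dwPer p n τ k s * ((A k : OC C) : C))) :=
    tendsto_finsetSum _ fun k _ => (tendsto_dwPer p n hp0 hp1 hn τ hτ1 k s).mul_const _
  have hlim := ((hlim1.sub hlim2).sub hlim3).norm
  refine le_of_tendsto' hlim fun N => ?_
  have hid : (p : C) ^ N * ellZ p n (τ + A) ((n : ℤ) * N + s) - (p : C) ^ N * ellZ p n τ ((n : ℤ) * N + s) -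
      ∑ k : Fin (n - 1), ((p : C) ^ N * dEllZ p n τ k ((n : ℤ) * N + s)) * ((A k : OC C) : C) =
      (p : C) ^ N * PeriodAux.extZ (remR p n τ A) ((n : ℤ) * N + s) := by
    by_cases h : 0 ≤ (n : ℤ) * N + s
    · simp only [ellZ, dEllZ, PeriodAux.extZ, if_pos h, remR, dEllV]
      rw [mul_sub, mul_sub, Finset.mul_sum]
      congr 1
      exact Finset.sum_congr rfl fun k _ => by ring
    · simp [ellZ, dEllZ, PeriodAux.extZ, if_neg h]
  rw [hid]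
  have hbd := PeriodAux.norm_scaled_le (p := p) hr0 hq (e := remR p n τ A) (B := _) (by positivity)
    (remR_bound p n hp1 hr0 hr1 hq hρ0' hρ1' K₀ hK₀ τ A hτ' hτA') N s
  refine hbd.trans (le_of_eq ?_)
  ring

/-- **Independence.** If `∑_k λ_k ∂_k w_s = μ w_s` for all `s` then `λ = 0`, `μ = 0`.

Proof. `λ = 0` implies `μ = 0` as `w ≠ 0`. Else scale `max ‖λ_k‖ = 1`. `e_K = ∑_k λ_k ∂_k ℓ_K - μ ℓ_K`, `π_j = p^j ℓ_j` (integral):
`p e_K = ∑_{i=1}^n e_{K-i} v_i^(p^(K-i)) + ∑_{1≤i<n} π_{K-i} v_i^(p^(K-i)-1) λ_i`. The hypothesis says `p^N e_{nN+s} → 0`, i.e. `a_K = ‖p‖^(K/n) ‖e_K‖ → 0`. Downward: at a maximiser `K*` of `a` on `K ≥ K'` (`K'` large) the recursion at `K*+n` forces `a_{K*} ≤ ‖p‖^(K*/n)` (otherwise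
`a_{K*+n} = a_{K*}`, repeat: contradiction with `a → 0`). So `‖e_K‖ ≤ 1` for large `K`, and then for all `K ≥ 0` by the recursion solved for `e_{K-n}` (all other terms `≤ 1`). Then for `1 ≤ K < n` the recursion is
`λ_K = p e_K - ∑_{i=1}^K e_{K-i} v_i^(p^(K-i)) - ∑_{i<K} π_{K-i} v_i^(p^(K-i)-1) λ_i`: norm `< 1` for all `K`: contradiction with `max ‖λ‖ = 1`. -/
theorem period_indep (hp0 : (p : C) ≠ 0) (hp1 : ‖(p : C)‖ < 1) (hn : 1 ≤ n) (τ : Fin (n - 1) → OC C)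
    (hτ : ∀ j, ‖((τ j : OC C) : C)‖ < 1) (lam : Fin (n - 1) → C) (μ : C)
    (h0 : ∀ s : ℤ, ∑ k, lam k * dwPer p n τ k s = μ * wPer p n τ s) : lam = 0 ∧ μ = 0 := by
  by_cases hlam : lam = 0
  · refine ⟨hlam, ?_⟩
    obtain ⟨s, hs⟩ := exists_wPer_ne_zero p n hp0 hp1 hn τ hτ
    have h := h0 s
    subst hlam
    simp only [Pi.zero_apply, zero_mul, Finset.sum_const_zero] at h
    exact (mul_eq_zero.mp h.symm).resolve_right hs
  exfalso
  have hne : Nonempty (Fin (n - 1)) := by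
    by_contra hcon
    rw [not_nonempty_iff] at hcon
    exact hlam (Subsingleton.elim _ _)
  obtain ⟨k₀, hk₀⟩ := Finite.exists_max (fun k => ‖lam k‖)
  have hc : lam k₀ ≠ 0 := by
    intro h
    apply hlam
    funext k
    have := hk₀ k
    rw [h, norm_zero] at this
    simpa using this
  set c := lam k₀ with hcdef
  set lam' : Fin (n - 1) → C := fun k => lam k / c with hlam'
  set μ' : C := μ / c with hμ'
  have hl1 : ∀ k, ‖lam' k‖ ≤ 1 := by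
    intro k
    simp only [hlam', norm_div]
    exact div_le_one_of_le₀ (hk₀ k) (norm_nonneg _)
  have hl0 : lam' k₀ = 1 := div_self hc
  obtain ⟨r, hr0, hr1, hq, hrp⟩ := exists_root p n hp0 hp1 hn
  obtain ⟨ρ, hρ0, hρ1, hτρ⟩ := exists_rho_char0 n τ hτ
  set V : ℕ → OC C := v0 n τ with hV
  set VC : ℕ → C := fun i => ((V i : OC C) : C) with hVC
  have hVb : PeriodAux.VBd n ρ VC := vBd_v0 n τ hτρ
  set e : ℕ → C := fun K => ∑ k : Fin (n - 1), lam' k * dEllV p V k K - μ' * ellV p V K with he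
  set G : ℕ → C := fun K => ∑ k : Fin (n - 1), lam' k * dForce p V k K - μ' * 0 with hG
  have hrec : PeriodAux.IsHRec p VC e G :=
    (PeriodAux.IsHRec.sum (Finset.univ : Finset (Fin (n - 1)))
      (e := fun k K => lam' k * dEllV p V (k : ℕ) K) (G := fun k K => lam' k * dForce p V (k : ℕ) K)
      (fun k _ => (dEllV_isHRec p V (k : ℕ)).const_mul (lam' k))).sub
      ((ellV_isHRec (p := p) V).const_mul μ')
  have hG1 : ∀ K, ‖G K‖ ≤ 1 := by
    intro K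
    simp only [hG, mul_zero, sub_zero]
    refine IsUltrametricDist.norm_sum_le_of_forall_le_of_nonneg zero_le_one fun k _ => ?_
    rw [norm_mul]
    exact mul_le_one₀ (hl1 k) (norm_nonneg _) (norm_dForce_le p hp1 V _ K)
  have ha : Filter.Tendsto (fun K => r ^ K * ‖e K‖) Filter.atTop (nhds 0) := by
    refine PeriodAux.tendsto_of_residues hn _ fun s _ => ?_
    have hlim : Filter.Tendsto (fun N : ℕ => (∑ k : Fin (n - 1), lam' k *
        ((p : C) ^ N * dEllZ p n τ k ((n : ℤ) * N + (s : ℤ)))) -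
        μ' * ((p : C) ^ N * ellZ p n τ ((n : ℤ) * N + (s : ℤ)))) Filter.atTop
        (nhds ((∑ k : Fin (n - 1), lam' k * dwPer p n τ k (s : ℤ)) - μ' * wPer p n τ (s : ℤ))) :=
      (tendsto_finsetSum _ fun k _ => (tendsto_dwPer p n hp0 hp1 hn τ hτ k (s : ℤ)).const_mul _).sub
        ((tendsto_wPer p n hp0 hp1 hn τ hτ (s : ℤ)).const_mul _)
    have hzero : (∑ k : Fin (n - 1), lam' k * dwPer p n τ k (s : ℤ)) - μ' * wPer p n τ (s : ℤ) = 0 := by
      have h := h0 (s : ℤ)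
      simp only [hlam', hμ']
      rw [sub_eq_zero]
      calc ∑ k : Fin (n - 1), lam k / c * dwPer p n τ k (s : ℤ)
          = (∑ k : Fin (n - 1), lam k * dwPer p n τ k (s : ℤ)) / c := by
            rw [Finset.sum_div]
            exact Finset.sum_congr rfl fun k _ => by ring
        _ = μ / c * wPer p n τ (s : ℤ) := by rw [h]; ring
    rw [hzero] at hlim
    have hlim' := (hlim.norm).const_mul (r ^ s)
    simp only [norm_zero, mul_zero] at hlim'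
    refine hlim'.congr fun N => ?_
    have hK : ((n * N + s : ℕ) : ℤ) = (n : ℤ) * N + (s : ℤ) := by push_cast; ring
    have hscale := PeriodAux.norm_pow_scale (p := p) hr0 hq N (n * N + s) (s : ℤ) hK
    have hrs : r ^ (n * N + s) * r ^ (-(s : ℤ)) * r ^ s = r ^ (n * N + s) := by
      rw [zpow_neg, zpow_natCast]
      have : r ^ s ≠ 0 := (pow_pos hr0 s).ne'
      field_simp
    have hid : (∑ k : Fin (n - 1), lam' k * ((p : C) ^ N * dEllZ p n τ k ((n : ℤ) * N + (s : ℤ)))) -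
        μ' * ((p : C) ^ N * ellZ p n τ ((n : ℤ) * N + (s : ℤ))) = (p : C) ^ N * e (n * N + s) := by
      have h1 : ∀ k : Fin (n - 1), dEllZ p n τ k ((n : ℤ) * N + (s : ℤ)) = dEllV p V k (n * N + s) := by
        intro k
        rw [← hK, dEllZ_natCast]
      have h2 : ellZ p n τ ((n : ℤ) * N + (s : ℤ)) = ellV p V (n * N + s) := by
        rw [← hK, ellZ_natCast]
      simp only [h1, h2, he]
      rw [mul_sub, Finset.mul_sum]
      congr 1
      · exact Finset.sum_congr rfl fun k _ => by ring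
      · ring
    rw [hid, norm_mul, hscale]
    calc r ^ s * (r ^ (n * N + s) * r ^ (-(s : ℤ)) * ‖e (n * N + s)‖)
        = (r ^ (n * N + s) * r ^ (-(s : ℤ)) * r ^ s) * ‖e (n * N + s)‖ := by ring
      _ = r ^ (n * N + s) * ‖e (n * N + s)‖ := by rw [hrs]
  have hle := PeriodAux.norm_le_one_of_tendsto (Fact.out : p.Prime).two_le hn hr0 hr1 hq hρ0 hρ1 hVb hrec hG1 ha
  -- the contradiction at level `K = k₀ + 1`
  set K : ℕ := (k₀ : ℕ) + 1 with hK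
  have hk₀n : (k₀ : ℕ) < n - 1 := k₀.2
  have hrK := hrec K (by omega)
  have hGK : G K = 1 + ∑ k ∈ Finset.univ.erase k₀, lam' k * dForce p V k K := by
    simp only [hG, mul_zero, sub_zero]
    rw [← Finset.add_sum_erase _ _ (Finset.mem_univ k₀), hl0, hK, dForce_self, one_mul]
  have hone : (1 : C) = (p : C) * e K - ∑ i ∈ Finset.Icc 1 K, e (K - i) * VC (i - 1) ^ (p ^ (K - i)) -
      ∑ k ∈ Finset.univ.erase k₀, lam' k * dForce p V k K := by
    rw [hrK, hGK]; ring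
  set ρ₁ := max ‖(p : C)‖ ρ with hρ₁
  have hρ₁1 : ρ₁ < 1 := max_lt hp1 hρ1
  have hρ₁0 : 0 ≤ ρ₁ := hρ0.trans (le_max_right _ _)
  have h1 : ‖(p : C) * e K‖ ≤ ρ₁ := by
    rw [norm_mul]
    calc _ ≤ ‖(p : C)‖ * 1 := mul_le_mul_of_nonneg_left (hle K) (norm_nonneg _)
      _ = ‖(p : C)‖ := mul_one _
      _ ≤ ρ₁ := le_max_left _ _
  have h2 : ‖∑ i ∈ Finset.Icc 1 K, e (K - i) * VC (i - 1) ^ (p ^ (K - i))‖ ≤ ρ₁ := by
    refine IsUltrametricDist.norm_sum_le_of_forall_le_of_nonneg hρ₁0 fun i hi => ?_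
    have hi' := Finset.mem_Icc.mp hi
    rw [norm_mul, norm_pow]
    have hsm : ‖VC (i - 1)‖ ≤ ρ := hVb.small _ (by omega)
    have hpm : p ^ (K - i) ≠ 0 := pow_ne_zero _ (Fact.out : p.Prime).ne_zero
    have h3 : ‖VC (i - 1)‖ ^ (p ^ (K - i)) ≤ ρ :=
      (pow_le_pow_left₀ (norm_nonneg _) hsm _).trans (pow_le_of_le_one hρ0 hρ1.le hpm)
    calc _ ≤ 1 * ρ := mul_le_mul (hle _) h3 (by positivity) zero_le_one
      _ = ρ := one_mul _
      _ ≤ ρ₁ := le_max_right _ _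
  have h3 : ‖∑ k ∈ Finset.univ.erase k₀, lam' k * dForce p V k K‖ ≤ ρ₁ := by
    refine IsUltrametricDist.norm_sum_le_of_forall_le_of_nonneg hρ₁0 fun k hk => ?_
    have hkne : (k : ℕ) ≠ k₀ := fun h => (Finset.mem_erase.mp hk).1 (Fin.ext h)
    rw [norm_mul]
    have hv : ∀ i, i ≤ (k₀ : ℕ) → ‖((V i : OC C) : C)‖ ≤ ρ := fun i hi => hVb.small i (by omega)
    have h4 := dForce_other p hp1 hρ0 hρ1.le V (k₀ : ℕ) (k : ℕ) hkne hv
    calc _ ≤ 1 * ρ := mul_le_mul (hl1 k) h4 (norm_nonneg _) zero_le_one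
      _ = ρ := one_mul _
      _ ≤ ρ₁ := le_max_right _ _
  have h5 : ‖(1 : C)‖ ≤ ρ₁ := by
    rw [hone]
    refine (PeriodAux.norm_sub_le_max' _ _).trans (max_le ?_ h3)
    exact (PeriodAux.norm_sub_le_max' _ _).trans (max_le h1 h2)
  rw [norm_one] at h5
  linarith

/-- **Equivariance.** `θ : H(τ') → H(τ)` with tokens `t`, `b` with `b_j^q = b_j`, `‖t_j - b_j‖ < 1`, `b_j = 0` for `j ≥ J`. Then
`t_0 w_s(τ') = ∑_{j<J} b_j^(p^((s-j) mod n)) w_{s-j}(τ)`. Proof: multiply `log_identity` (`K = nN+s`) by `p^N`, `t_j^(p^(K-j)) → b_j^(p^((s-j) mod n))`, dominated convergence by `ellZ_growth`. -/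
theorem period_equivariance (hp0 : (p : C) ≠ 0) (hp1 : ‖(p : C)‖ < 1) (hn : 1 ≤ n) (τ τ' : Fin (n - 1) → OC C)
    (hτ : ∀ j, ‖((τ j : OC C) : C)‖ < 1) (hτ' : ∀ j, ‖((τ' j : OC C) : C)‖ < 1)
    (θ : PowerSeries (OC C)) (hθ : IsFGHom (hzv p (v0 n τ')) (hzv p (v0 n τ)) θ) (t b : ℕ → OC C)
    (ht0 : t 0 = PowerSeries.coeff 1 θ)
    (ht : ∀ N i, i < p ^ N → PowerSeries.coeff i θ = PowerSeries.coeff i
      ((∑ j ∈ Finset.range N, tokenPt (hzv p (v0 n τ)) (t j) (p ^ j)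
        (pow_ne_zero _ (Fact.out : p.Prime).ne_zero) : (hzv p (v0 n τ)).Point Unit).val))
    (hb : ∀ j, ((b j : OC C) : C) ^ (p ^ n) = b j) (htb : ∀ j, ‖((t j - b j : OC C) : C)‖ < 1)
    (J : ℕ) (hJ : ∀ j, J ≤ j → b j = 0) (s : ℤ) :
    ((t 0 : OC C) : C) * wPer p n τ' s = ∑ j ∈ Finset.range J,
      ((b j : OC C) : C) ^ (p ^ ((s - j) % n).toNat) * wPer p n τ (s - j) := by
  obtain ⟨r, hr0, hr1, hq, hrp⟩ := exists_root p n hp0 hp1 hn
  obtain ⟨ρ, hρ0, hρ1, hτρ⟩ := exists_rho_char0 n τ hτ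
  obtain ⟨K₀, hK₀⟩ := exists_uniform p hp0 hρ0 hρ1
  have hq0 : 0 < ‖(p : C)‖ := norm_pos_iff.mpr hp0
  set B : ℝ := 1 / ‖(p : C)‖ ^ K₀ with hB
  have hB0 : 0 ≤ B := by positivity
  have hbd : ∀ K, r ^ K * ‖ellV p (v0 n τ) K‖ ≤ B := ell_bound p n hr0 hr1 hq hρ0 hρ1 K₀ hK₀ τ hτρ
  -- the sequence
  set f : ℕ → ℕ → C := fun N j => ((p : C) ^ N * ellZ p n τ ((n : ℤ) * N + (s - j))) *
    ((t j : OC C) : C) ^ (p ^ ((n : ℤ) * N + (s - j)).toNat) with hf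
  set g : ℕ → C := fun j => ((b j : OC C) : C) ^ (p ^ ((s - j) % n).toNat) * wPer p n τ (s - j) with hg
  have hterm : ∀ j, Filter.Tendsto (fun N => f N j) Filter.atTop (nhds (g j)) := by
    intro j
    have h1 := tendsto_wPer p n hp0 hp1 hn τ hτ (s - j)
    have h2 := tendsto_frob_orbit p n hp1 hn (t j) (b j) (htb j) (hb j) (s - j)
    have := h1.mul h2
    simp only [hf, hg]
    rw [mul_comm (((b j : OC C) : C) ^ _)]
    exact this
  have hsumm : Summable (fun j : ℕ => B * r ^ (-(s - (j : ℤ)))) := by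
    have h1 : ∀ j : ℕ, B * r ^ (-(s - (j : ℤ))) = B * r ^ (-s) * r ^ j := by
      intro j
      rw [neg_sub, sub_eq_add_neg, add_comm, zpow_add₀ hr0.ne', zpow_natCast]
      ring
    simp only [h1]
    exact (summable_geometric_of_lt_one hr0.le hr1).mul_left _
  have hdom : ∀ N j, ‖f N j‖ ≤ B * r ^ (-(s - (j : ℤ))) := by
    intro N j
    simp only [hf]
    rw [norm_mul]
    have h1 : ‖(p : C) ^ N * ellZ p n τ ((n : ℤ) * N + (s - j))‖ ≤ B * r ^ (-(s - (j : ℤ))) :=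
      PeriodAux.norm_scaled_le (p := p) hr0 hq hB0 hbd N (s - j)
    have h2 : ‖((t j : OC C) : C) ^ (p ^ ((n : ℤ) * N + (s - j)).toNat)‖ ≤ 1 := by
      rw [norm_pow]
      exact pow_le_one₀ (norm_nonneg _) (t j).2
    calc _ ≤ B * r ^ (-(s - (j : ℤ))) * 1 := mul_le_mul h1 h2 (norm_nonneg _) (by
          have := zpow_pos hr0 (-(s - (j : ℤ)))
          positivity)
      _ = _ := mul_one _
  have hT := tendsto_tsum_of_dominated_convergence (𝓕 := Filter.atTop) hsumm hterm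
    (Filter.Eventually.of_forall (hdom))
  have hg0 : ∀ j, j ∉ Finset.range J → g j = 0 := by
    intro j hj
    have hjJ : J ≤ j := by simpa using hj
    simp only [hg]
    rw [hJ j hjJ]
    simp [(Fact.out : p.Prime).ne_zero]
  rw [tsum_eq_sum hg0] at hT
  -- the left side
  have hL := (tendsto_wPer p n hp0 hp1 hn τ' hτ' s).const_mul ((t 0 : OC C) : C)
  refine tendsto_nhds_unique hL (hT.congr' ?_)
  filter_upwards [Filter.eventually_ge_atTop s.natAbs] with N hN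
  have h2 : (N : ℤ) ≤ (n : ℤ) * N := by
    have : (1 : ℤ) ≤ n := by exact_mod_cast hn
    nlinarith [Int.natCast_nonneg N]
  have hnn : 0 ≤ (n : ℤ) * N + s := by omega
  obtain ⟨K, hK⟩ := Int.eq_ofNat_of_zero_le hnn
  have hlog := log_identity p (v0 n τ) (v0 n τ') θ hθ t ht0 ht K
  have hf0 : ∀ j, j ∉ Finset.range (K + 1) → f N j = 0 := by
    intro j hj
    have hjK : K + 1 ≤ j := by simpa using hj
    have hneg : (n : ℤ) * N + (s - j) < 0 := by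
      have : ((K : ℤ)) + 1 ≤ j := by exact_mod_cast hjK
      linarith
    simp only [hf, ellZ, if_neg (not_le.mpr hneg), mul_zero, zero_mul]
  have hfj : ∀ j ∈ Finset.range (K + 1), f N j =
      (p : C) ^ N * (ellV p (v0 n τ) (K - j) * ((t j : OC C) : C) ^ (p ^ (K - j))) := by
    intro j hj
    have hjK : j ≤ K := by
      have := Finset.mem_range.mp hj
      omega
    have e : (n : ℤ) * N + (s - j) = ((K - j : ℕ) : ℤ) := by
      rw [Nat.cast_sub hjK]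
      linarith
    simp only [hf]
    rw [e, ellZ_natCast, Int.toNat_natCast]
    ring
  rw [tsum_eq_sum hf0, Finset.sum_congr rfl hfj, ← Finset.mul_sum, ← hlog, hK, ellZ_natCast]
  ring

end

end Crest.Agent.LT
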