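/-
S0351 package CHAR0: formal lemmas on finite token sums used by `coreCharZero` (helper88).
-/
import Crest.Agent.LT.Char0.Period
import Crest.Agent.LT.CharP.Deep
import Crest.Agent.LT.ValuedPoint

set_option autoImplicit false

open Crest.LubinTate

namespace Crest.Agent.LT

noncomputable section

section Formal

variable {R S : Type*} [CommRing R] [CommRing S]

theorem c0_tokenPt_val (F : FormalGroup R) (c : R) (e : ℕ) (he : e ≠ 0) :
    (tokenPt F c e he).val = (PowerSeries.C c * PowerSeries.X ^ e : PowerSeries R) := rfl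

theorem c0_tokenPt_zero (F : FormalGroup R) (e : ℕ) (he : e ≠ 0) : tokenPt F 0 e he = 0 :=
  Subtype.ext (by rw [c0_tokenPt_val]; simp)

theorem c0_hasSubst_point_val (F : FormalGroup R) (x : F.Point Unit) :
    PowerSeries.HasSubst (x.val : PowerSeries R) := x.prop

/-- Finite sums of points of order `≥ K` have order `≥ K`. -/
theorem c0_modX_sum_points (F : FormalGroup R) [F.IsComm] {ι : Type*} (s : Finset ι)
    (f : ι → F.Point Unit) (K : ℕ)
    (h : ∀ i ∈ s, ModX K ((f i).val : PowerSeries R) 0) :
    ModX K ((∑ i ∈ s, f i).val : PowerSeries R) 0 := by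
  classical
  induction s using Finset.induction_on with
  | empty => intro i _; rfl
  | insert a s ha ih =>
    rw [Finset.sum_insert ha]
    have h1 := modX_subst_pair F.toPowerSeries (K := K) (f a).prop (∑ i ∈ s, f i).prop
      (PowerSeries.HasSubst.zero) (PowerSeries.HasSubst.zero)
      (h a (Finset.mem_insert_self _ _))
      (ih fun i hi => h i (Finset.mem_insert_of_mem hi))
    refine ModX.trans h1 ?_
    have : (F.toPowerSeries.subst ![(0 : PowerSeries R), 0] : PowerSeries R) = 0 := by
      have := FormalGroup.add_zero F (PowerSeries.HasSubst.zero (R := R) (τ := Unit))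
      exact this
    rw [this]
    exact ModX.refl _ _

variable (p : ℕ) [Fact p.Prime]

theorem c0_tokenSum_succ (F : FormalGroup R) [F.IsComm] (t : ℕ → R) (N : ℕ) :
    tokenSum p F t (N + 1) = F.toPowerSeries.subst ![tokenSum p F t N,
      (PowerSeries.C (t N) * PowerSeries.X ^ (p ^ N) : PowerSeries R)] := by
  unfold tokenSum
  rw [Finset.sum_range_succ]
  rfl

theorem c0_tokenSum_zero (F : FormalGroup R) [F.IsComm] (t : ℕ → R) : tokenSum p F t 0 = 0 := by
  unfold tokenSum
  rw [Finset.sum_range_zero]
  rfl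

theorem c0_hasSubst_tokenSum (F : FormalGroup R) [F.IsComm] (t : ℕ → R) (N : ℕ) :
    PowerSeries.HasSubst (tokenSum p F t N) :=
  (∑ j ∈ Finset.range N, tokenPt F (t j) (p ^ j)
    (pow_ne_zero _ (Fact.out : p.Prime).ne_zero) : F.Point Unit).prop

theorem c0_hasSubst_tok (c : R) (N : ℕ) :
    PowerSeries.HasSubst (PowerSeries.C c * PowerSeries.X ^ (p ^ N) : PowerSeries R) := by
  apply PowerSeries.HasSubst.of_constantCoeff_zero'
  have : p ^ N ≠ 0 := pow_ne_zero _ (Fact.out : p.Prime).ne_zero
  simp [zero_pow this]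

/-- Later tokens do not change the low coefficients. -/
theorem c0_modX_tokenSum (F : FormalGroup R) [F.IsComm] (t : ℕ → R) (N N' : ℕ) (h : N ≤ N') :
    ModX (p ^ N) (tokenSum p F t N') (tokenSum p F t N) := by
  induction N', h using Nat.le_induction with
  | base => exact ModX.refl _ _
  | succ N' hN' ih =>
    rw [c0_tokenSum_succ]
    have hle : p ^ N ≤ p ^ N' := Nat.pow_le_pow_right (Fact.out : p.Prime).pos hN'
    have h1 := modX_subst_pair F.toPowerSeries (K := p ^ N) (c0_hasSubst_tokenSum p F t N')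
      (c0_hasSubst_tok p (t N') N') (c0_hasSubst_tokenSum p F t N) (PowerSeries.HasSubst.zero) ih
      (modX_token_zero (t N') _ _ hle)
    refine ModX.trans h1 ?_
    have := FormalGroup.add_zero F (c0_hasSubst_tokenSum p F t N)
    rw [this]
    exact ModX.refl _ _

theorem c0_map_tokenSum (φ : R →+* S) (F : FormalGroup R) [F.IsComm] (t : ℕ → R) (N : ℕ) :
    PowerSeries.map φ (tokenSum p F t N) = tokenSum p (F.map φ) (fun j => φ (t j)) N := by
  induction N with
  | zero => simp [c0_tokenSum_zero]
  | succ N ih =>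
    rw [c0_tokenSum_succ, c0_tokenSum_succ, ← ih]
    have hpair := hasSubst_pairN (c0_hasSubst_tokenSum p F t N) (c0_hasSubst_tok p (t N) N)
    have h := MvPowerSeries.map_subst hpair (h := φ) F.toPowerSeries
    refine (h.trans ?_)
    congr 1
    funext i
    fin_cases i
    · rfl
    · simp only [Fin.mk_one, Fin.isValue, Matrix.cons_val_one, Matrix.cons_val_fin_one]
      change PowerSeries.map φ _ = _
      simp

end Formal

section Residue

variable {C : Type} [NontriviallyNormedField C] [IsUltrametricDist C]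

/-- The maximal ideal of `𝒪_C`. -/
def c0mC : Ideal (OC C) where
  carrier := {x | ‖((x : OC C) : C)‖ < 1}
  add_mem' {a b} ha hb := by
    simp only [Set.mem_ofPred_eq] at *
    exact (IsUltrametricDist.norm_add_le_max (a : C) b).trans_lt (max_lt ha hb)
  zero_mem' := by simp
  smul_mem' c {x} hx := by
    simp only [Set.mem_ofPred_eq, smul_eq_mul] at *
    have h1 : ‖(c : C)‖ ≤ 1 := c.2
    push_cast
    rw [norm_mul]
    calc ‖(c : C)‖ * ‖(x : C)‖ ≤ 1 * ‖(x : C)‖ := by gcongr
      _ < 1 := by simpa using hx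

theorem c0_mem_mC (x : OC C) : x ∈ c0mC (C := C) ↔ ‖(x : C)‖ < 1 := Iff.rfl

variable (p : ℕ) [Fact p.Prime] (n : ℕ)

local notation "E" => LTRing p n
local notation "k" => GaloisField p n

/-- **Tokens modulo `𝔪_C`.** `θ` a series over `E₀` reducing to a token sum with tokens `T` read modulo `𝔪`; if the
image of `θ` along `Z` has tokens `t` then `t_j ≡ Z(T_j)` modulo `𝔪_C`. -/
theorem c0_tokens_close (Z : E →+* OC C)
    (hZ : ∀ x ∈ IsLocalRing.maximalIdeal E, ‖((Z x : OC C) : C)‖ < 1)
    (F : FormalGroup E) [F.IsComm] (F₀ : FormalGroup k) [F₀.IsComm]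
    (hF₀ : F.map (LTRing.residue p n) = F₀) (F₁ : FormalGroup (OC C)) [F₁.IsComm]
    (hF₁ : F.map Z = F₁) (θ : PowerSeries E) (T : ℕ → E)
    (hT : ∀ N i, i < p ^ N → PowerSeries.coeff i (PowerSeries.map (LTRing.residue p n) θ) =
      PowerSeries.coeff i (tokenSum p F₀ (fun j => LTRing.residue p n (T j)) N))
    (t : ℕ → OC C)
    (ht : ∀ N i, i < p ^ N → PowerSeries.coeff i (PowerSeries.map Z θ) =
      PowerSeries.coeff i (tokenSum p F₁ t N)) (j : ℕ) :
    ‖((t j - Z (T j) : OC C) : C)‖ < 1 := by
  subst hF₀ hF₁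
  let res : OC C →+* OC C ⧸ c0mC (C := C) := Ideal.Quotient.mk _
  have key := tokenSum_unique p ((F.map Z).map res) (fun j => res (t j)) (fun j => res (Z (T j)))
    (by
      intro N i hi
      rw [← c0_map_tokenSum p res (F.map Z) t N, PowerSeries.coeff_map, ← ht N i hi,
        PowerSeries.coeff_map]
      have h2 := c0_map_tokenSum p res (F.map Z) (fun j => Z (T j)) N
      rw [← h2, PowerSeries.coeff_map, ← c0_map_tokenSum p Z F T N, PowerSeries.coeff_map]
      have h3 := hT N i hi
      rw [← c0_map_tokenSum p (LTRing.residue p n) F T N, PowerSeries.coeff_map,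
        PowerSeries.coeff_map] at h3
      have h4 : PowerSeries.coeff i θ - PowerSeries.coeff i (tokenSum p F T N) ∈
          IsLocalRing.maximalIdeal E := by
        rw [← ker_residue, RingHom.mem_ker, map_sub, h3, sub_self]
      have h5 := hZ _ h4
      apply Ideal.Quotient.eq.mpr
      rw [c0_mem_mC, ← map_sub]
      exact h5)
  have h6 := congrFun key j
  have h7 : t j - Z (T j) ∈ c0mC (C := C) := Ideal.Quotient.eq.mp h6
  exact h7

end Residue

end

end Crest.Agent.LT
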