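/-
S0351 package CHAR0: the token family `δ(β)`, `β : ℕ →₀ k`, its realisations, the relation with periods (helper88).
-/
import Crest.Agent.LT.Char0.TokenLemmas

set_option autoImplicit false

open Crest.LubinTate

namespace Crest.Agent.LT

noncomputable section

variable (p : ℕ) [Fact p.Prime] (n : ℕ)

local notation "k" => GaloisField p n
local notation "W" => WittVector p (GaloisField p n)
local notation "E" => LTRing p n

/-- `δ(β) = ∑^Γ_a β_a X^(p^(a+1))`. -/
def c0Delta (hn : 1 ≤ n) (β : ℕ →₀ k) : EndZ p n :=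
  β.sum fun a b => EndZ.token p n hn b (a + 1) (by omega)

/-- The tokens of `g(δ(β)) = X +_Γ δ(β)`. -/
def c0Toks (β : ℕ →₀ k) : ℕ → k
  | 0 => 1
  | a + 1 => β a

theorem c0_token_coe (hn : 1 ≤ n) (b : k) (a : ℕ) (h : 1 ≤ a + 1) :
    ((EndZ.token p n hn b (a + 1) h : EndZ p n) : (Gam0 p n).Point Unit) =
      tokenPt (Gam0 p n) b (p ^ (a + 1)) (pow_ne_zero _ (Fact.out : p.Prime).ne_zero) :=
  Subtype.ext (EndZ.val_token p n hn b (a + 1) h)

theorem c0Delta_coe (hn : 1 ≤ n) (β : ℕ →₀ k) :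
    ((c0Delta p n hn β : EndZ p n) : (Gam0 p n).Point Unit) =
      ∑ a ∈ β.support, tokenPt (Gam0 p n) (β a) (p ^ (a + 1))
        (pow_ne_zero _ (Fact.out : p.Prime).ne_zero) := by
  unfold c0Delta Finsupp.sum
  rw [AddSubmonoidClass.coe_finsetSum]
  exact Finset.sum_congr rfl fun a _ => c0_token_coe p n hn _ a _

/-- Large `N`: the token sum is exactly `g`. -/
theorem c0_tokenSum_eq_aut (hn : 1 ≤ n) (β : ℕ →₀ k) (N : ℕ) (hN : ∀ a ∈ β.support, a < N) :
    tokenSum p (Gam0 p n) (c0Toks p n β) (N + 1) = EndZ.aut p n (c0Delta p n hn β) := by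
  unfold tokenSum EndZ.aut
  rw [Finset.sum_range_succ', add_comm]
  have h1 : ∑ j ∈ Finset.range N, tokenPt (Gam0 p n) (c0Toks p n β (j + 1)) (p ^ (j + 1))
        (pow_ne_zero _ (Fact.out : p.Prime).ne_zero) =
      ((c0Delta p n hn β : EndZ p n) : (Gam0 p n).Point Unit) := by
    rw [c0Delta_coe]
    symm
    apply Finset.sum_subset
    · intro a ha
      exact Finset.mem_range.mpr (hN a ha)
    · intro a _ ha
      have : β a = 0 := by simpa using ha
      change tokenPt (Gam0 p n) (β a) _ _ = 0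
      rw [this]
      exact c0_tokenPt_zero _ _ _
  rw [h1]
  change (Gam0 p n).toPowerSeries.subst ![(PowerSeries.C (1 : k) * PowerSeries.X ^ (p ^ 0) : PowerSeries k), _] = _
  simp

theorem c0_aut_tokens (hn : 1 ≤ n) (β : ℕ →₀ k) (N i : ℕ) (hi : i < p ^ N) :
    PowerSeries.coeff i (EndZ.aut p n (c0Delta p n hn β)) =
      PowerSeries.coeff i (tokenSum p (Gam0 p n) (c0Toks p n β) N) := by
  classical
  set N' := N + β.support.sup id with hN'
  have hlt : ∀ a ∈ β.support, a < N' + 1 := by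
    intro a ha
    have : a ≤ β.support.sup id := Finset.le_sup (f := id) ha
    omega
  rw [← c0_tokenSum_eq_aut p n hn β (N' + 1) hlt]
  exact c0_modX_tokenSum p (Gam0 p n) (c0Toks p n β) N (N' + 1 + 1) (by omega) i hi

/-- Deep tokens give a `CongX` automorphism. -/
theorem c0_congX (hn : 1 ≤ n) (β : ℕ →₀ k) (t M : ℕ) (hM : M ≤ (p ^ n) ^ t)
    (hβ : ∀ a, a < n * t → β a = 0) : CongX (EndZ.aut p n (c0Delta p n hn β)) M := by
  apply EndZ.aut_congX p n hn t M hM
  intro i hi
  have := c0_modX_sum_points (Gam0 p n) β.support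
    (fun a => tokenPt (Gam0 p n) (β a) (p ^ (a + 1)) (pow_ne_zero _ (Fact.out : p.Prime).ne_zero))
    ((p ^ n) ^ t) (by
      intro a ha
      apply modX_token_zero
      rw [← pow_mul]
      apply Nat.pow_le_pow_right (Fact.out : p.Prime).pos
      by_contra hlt
      have : β a = 0 := hβ a (by omega)
      simp at ha
      exact ha this) i hi
  rw [← c0Delta_coe p n hn β] at this
  simpa using this

/-- The filter "all tokens deep" on `ℕ →₀ k`. -/
def c0Filter : Filter (ℕ →₀ k) := ⨅ L : ℕ, Filter.principal {β | ∀ a, a < L → β a = 0}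

theorem c0Filter_directed :
    Directed (· ≥ ·) (fun L : ℕ => Filter.principal {β : ℕ →₀ k | ∀ a, a < L → β a = 0}) := by
  intro L L'
  refine ⟨max L L', ?_, ?_⟩
  · apply Filter.principal_mono.mpr
    intro β hβ a ha
    exact hβ a (lt_of_lt_of_le ha (le_max_left _ _))
  · apply Filter.principal_mono.mpr
    intro β hβ a ha
    exact hβ a (lt_of_lt_of_le ha (le_max_right _ _))

theorem mem_c0Filter (S : Set (ℕ →₀ k)) :
    S ∈ c0Filter p n ↔ ∃ L : ℕ, {β : ℕ →₀ k | ∀ a, a < L → β a = 0} ⊆ S := by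
  unfold c0Filter
  rw [Filter.mem_iInf_of_directed (c0Filter_directed p n)]
  simp only [Filter.mem_principal]

instance c0Filter_neBot : (c0Filter p n).NeBot := by
  unfold c0Filter
  apply Filter.iInf_neBot_of_directed (c0Filter_directed p n)
  intro L
  rw [Filter.principal_neBot_iff]
  exact ⟨0, fun a _ => rfl⟩

theorem c0_eventually_congX (hn : 1 ≤ n) (M : ℕ) :
    ∀ᶠ β in c0Filter p n, CongX (EndZ.aut p n (c0Delta p n hn β)) M := by
  have hM : M ≤ (p ^ n) ^ M := by
    have h2 : 2 ≤ p ^ n := by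
      calc 2 ≤ p := (Fact.out : p.Prime).two_le
        _ = p ^ 1 := (pow_one p).symm
        _ ≤ p ^ n := Nat.pow_le_pow_right (Fact.out : p.Prime).pos hn
    exact (Nat.lt_pow_self h2).le
  apply (mem_c0Filter p n _).mpr
  refine ⟨n * M, fun β hβ => c0_congX p n hn β M M hM hβ⟩

/-- Shift of levels by `n`. -/
def c0Shift (β : ℕ →₀ k) : ℕ →₀ k := Finsupp.mapDomain (· + n) β

theorem c0_add_inj : Function.Injective (fun a : ℕ => a + n) := add_left_injective n

theorem c0Shift_iterate_apply (t : ℕ) (β : ℕ →₀ k) (a : ℕ) (ha : a < n * t) :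
    ((c0Shift p n)^[t] β) a = 0 := by
  induction t generalizing a with
  | zero => simp at ha
  | succ t ih =>
    rw [Function.iterate_succ_apply']
    unfold c0Shift
    by_cases han : a < n
    · apply Finsupp.mapDomain_of_notMem_range
      rintro ⟨b, hb⟩
      simp only at hb
      omega
    · have h : a = (a - n) + n := by omega
      rw [h]
      rw [Finsupp.mapDomain_apply (c0_add_inj n)]
      apply ih
      rw [Nat.mul_succ] at ha
      omega

theorem c0Filter_iterate (hn : 1 ≤ n) (S : Set (ℕ →₀ k)) (hS : S ∈ c0Filter p n) :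
    ∃ t₀ : ℕ, ∀ t, t₀ ≤ t → ∀ a, (c0Shift p n)^[t] a ∈ S := by
  obtain ⟨L, hL⟩ := (mem_c0Filter p n S).mp hS
  refine ⟨L, fun t ht a => hL ?_⟩
  intro b hb
  apply c0Shift_iterate_apply
  calc b < L := hb
    _ ≤ t := ht
    _ = 1 * t := (one_mul t).symm
    _ ≤ n * t := Nat.mul_le_mul_right _ hn

end

end Crest.Agent.LT
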