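/-
S0351 package CHAR0: realisations of the token family and the relation with periods (helper88).
-/
import Crest.Agent.LT.Char0.Family0

set_option autoImplicit false

open Crest.LubinTate

namespace Crest.Agent.LT

noncomputable section

variable (p : ℕ) [Fact p.Prime] (n : ℕ)

local notation "k" => GaloisField p n
local notation "W" => WittVector p (GaloisField p n)
local notation "E" => LTRing p n

variable {C : Type} [NontriviallyNormedField C] [IsUltrametricDist C]

/-- `[β] = Z(C(teich β))`. -/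
def c0Teich (Z : E →+* OC C) : k →* OC C :=
  (Z.comp (MvPowerSeries.C)).toMonoidHom.comp (WittVector.teichmuller p)

theorem c0Teich_apply (Z : E →+* OC C) (β : k) :
    c0Teich p n Z β = Z (MvPowerSeries.C (WittVector.teichmuller p β)) := rfl

theorem c0Teich_zero (Z : E →+* OC C) : c0Teich p n Z 0 = 0 := by
  rw [c0Teich_apply, WittVector.teichmuller_zero, map_zero, map_zero]

theorem c0Teich_pow_card (hn : 1 ≤ n) (Z : E →+* OC C) (β : k) :
    c0Teich p n Z β ^ (p ^ n) = c0Teich p n Z β := by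
  rw [← map_pow]
  congr 1
  let _ : Fintype k := Fintype.ofFinite k
  have h := FiniteField.pow_card β
  rw [← Nat.card_eq_fintype_card, GaloisField.card p n (by omega)] at h
  exact h

theorem c0_residue_C_teich (β : k) :
    LTRing.residue p n (MvPowerSeries.C (WittVector.teichmuller p β)) = β := by
  unfold LTRing.residue
  simp only [RingHom.comp_apply]
  rw [MvPowerSeries.constantCoeff_C]
  exact WittVector.teichmuller_coeff_zero p β

theorem c0_X_mem (j : Fin (n - 1)) : (MvPowerSeries.X j : E) ∈ IsLocalRing.maximalIdeal E := by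
  rw [← ker_residue, RingHom.mem_ker]
  unfold LTRing.residue
  simp

theorem c0_vE_map (Z : E →+* OC C) (i : ℕ) :
    Z (vE p n i) = v0 n (fun j => Z (MvPowerSeries.X j)) i := by
  unfold vE uu v0 vStr
  by_cases h1 : i + 1 < n
  · have h2 : i + 1 ≠ n := by omega
    have h3 : 1 ≤ i + 1 ∧ i + 1 < n := ⟨by omega, h1⟩
    simp only [h2, if_false, dif_pos h3]
  · by_cases h2 : i + 1 = n
    · have h3 : ¬ (1 ≤ i + 1 ∧ i + 1 < n) := by omega
      simp [h2]
    · have h3 : ¬ (1 ≤ i + 1 ∧ i + 1 < n) := by omega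
      simp only [h2, if_false, dif_neg h3, map_zero]

theorem c0_HH_map (Z : E →+* OC C) :
    (HH p n).map Z = hzv p (v0 n (fun j => Z (MvPowerSeries.X j))) := by
  unfold HH
  rw [hzv_map]
  congr 1
  funext i
  exact c0_vE_map p n Z i

/-- Ring maps which agree on `W`. -/
theorem c0_comp_C (Z : E →+* OC C) (φ : E →ₐ[W] E) :
    (Z.comp φ.toRingHom).comp (MvPowerSeries.C) = Z.comp (MvPowerSeries.C) := by
  apply RingHom.ext
  intro a
  exact congrArg Z (φ.commutes a)

variable [CompleteSpace C] [CharZero C]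

/-- `V_s(β) = ∑_a [β_a]^(p^((s-a-1) mod n)) w_{s-a-1}(τ)`. -/
def c0V (Z : E →+* OC C) (τ : Fin (n - 1) → OC C) (β : ℕ →₀ k) (s : ℤ) : C :=
  β.sum fun a b => ((c0Teich p n Z b : OC C) : C) ^ (p ^ ((s - ((a + 1 : ℕ) : ℤ)) % n).toNat) *
    wPer p n τ (s - ((a + 1 : ℕ) : ℤ))

variable [IsAlgClosed C]

/-- **Key relation** for a realisation `(φ, θ)` of `g(δ(β))`. -/
theorem c0_relation (Z : E →+* OC C)
    (hZ : ∀ x ∈ IsLocalRing.maximalIdeal E, ‖((Z x : OC C) : C)‖ < 1)
    (hp0 : (p : C) ≠ 0) (hp1 : ‖(p : C)‖ < 1) (hn : 1 ≤ n) (β : ℕ →₀ k)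
    (φ : E →ₐ[W] E) (θ : PowerSeries E)
    (h1 : (LTRing.residue p n).comp φ.toRingHom = LTRing.residue p n)
    (h2 : IsFGHom ((HH p n).map φ.toRingHom) (HH p n) θ)
    (h3 : PowerSeries.map (LTRing.residue p n) θ = EndZ.aut p n (c0Delta p n hn β)) (s : ℤ) :
    ((PowerSeries.coeff 1 (PowerSeries.map Z θ) : OC C) : C) *
        wPer p n (fun j => Z (φ (MvPowerSeries.X j))) s =
      wPer p n (fun j => Z (MvPowerSeries.X j)) s +
        c0V p n Z (fun j => Z (MvPowerSeries.X j)) β s := by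
  classical
  set τ : Fin (n - 1) → OC C := fun j => Z (MvPowerSeries.X j) with hτdef
  set τ' : Fin (n - 1) → OC C := fun j => Z (φ (MvPowerSeries.X j)) with hτ'def
  have hτ : ∀ j, ‖((τ j : OC C) : C)‖ < 1 := fun j => hZ _ (c0_X_mem p n j)
  have hφmem : ∀ x ∈ IsLocalRing.maximalIdeal E, φ x ∈ IsLocalRing.maximalIdeal E := by
    intro x hx
    rw [← ker_residue, RingHom.mem_ker] at hx ⊢
    have := congrArg (fun f => f x) h1
    simp only [RingHom.comp_apply] at this
    rw [← hx, ← this]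
    rfl
  have hτ' : ∀ j, ‖((τ' j : OC C) : C)‖ < 1 := fun j => hZ _ (hφmem _ (c0_X_mem p n j))
  have hF' : ((HH p n).map φ.toRingHom).map Z = hzv p (v0 n τ') := by
    rw [map_map_law, c0_HH_map]
    rfl
  have hF : (HH p n).map Z = hzv p (v0 n τ) := c0_HH_map p n Z
  have hom' : IsFGHom (hzv p (v0 n τ')) (hzv p (v0 n τ)) (PowerSeries.map Z θ) := by
    have := fgHom_map h2 Z
    rwa [hF', hF] at this
  have hℓ : ∀ ℓ : ℕ, ℓ.Prime → ℓ ≠ p → ((ℓ : ℕ) : OC C) ≠ 0 ∧
      ∃ ζ : OC C, ∑ a ∈ Finset.range ℓ, ζ ^ a = 0 :=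
    fun ℓ hℓ hℓp => OC_roots p (Or.inr inferInstance) ℓ hℓ hℓp
  obtain ⟨t, ht0, ht⟩ := exists_tokens p hℓ (v0 n τ') (v0 n τ) (PowerSeries.map Z θ) hom'
  let T : ℕ → E := fun j => MvPowerSeries.C (WittVector.teichmuller p (c0Toks p n β j))
  have hresT : ∀ j, LTRing.residue p n (T j) = c0Toks p n β j := fun j => c0_residue_C_teich p n _
  have hT : ∀ N i, i < p ^ N → PowerSeries.coeff i (PowerSeries.map (LTRing.residue p n) θ) =
      PowerSeries.coeff i (tokenSum p (Gam0 p n) (fun j => LTRing.residue p n (T j)) N) := by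
    intro N i hi
    rw [h3]
    simp only [hresT]
    exact c0_aut_tokens p n hn β N i hi
  have hclose := c0_tokens_close p n Z hZ (HH p n) (Gam0 p n) (HH_residue p n hn)
    (hzv p (v0 n τ)) hF θ T hT t ht
  let b : ℕ → OC C := fun j => Z (T j)
  have hbpow : ∀ j, ((b j : OC C) : C) ^ (p ^ n) = b j := by
    intro j
    have := c0Teich_pow_card p n hn Z (c0Toks p n β j)
    have h' : ((c0Teich p n Z (c0Toks p n β j) ^ p ^ n : OC C) : C) = (c0Teich p n Z (c0Toks p n β j) : OC C) :=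
      congrArg (fun x : OC C => (x : C)) this
    rw [SubmonoidClass.coe_pow] at h'
    exact h'
  obtain ⟨J, hJ⟩ : ∃ J : ℕ, ∀ a ∈ β.support, a < J :=
    ⟨β.support.sup id + 1, fun a ha => Nat.lt_succ_of_le (Finset.le_sup (f := id) ha)⟩
  have hb0 : ∀ j, J + 1 ≤ j → b j = 0 := by
    intro j hj
    obtain ⟨a, rfl⟩ : ∃ a, j = a + 1 := ⟨j - 1, by omega⟩
    have hβa : β a = 0 := by
      by_contra hne
      have := hJ a (Finsupp.mem_support_iff.mpr hne)
      omega
    change c0Teich p n Z (β a) = 0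
    rw [hβa, c0Teich_zero]
  have key := period_equivariance p n hp0 hp1 hn τ τ' hτ hτ' (PowerSeries.map Z θ) hom' t b
    ht0 ht hbpow hclose (J + 1) hb0 s
  have ht0' : ((t 0 : OC C) : C) = ((PowerSeries.coeff 1 (PowerSeries.map Z θ) : OC C) : C) := by
    rw [ht0]
  rw [ht0'] at key
  rw [key, Finset.sum_range_succ', add_comm]
  congr 1
  · have hb00 : b 0 = 1 := by
      change c0Teich p n Z 1 = 1
      exact map_one _
    rw [hb00]
    simp
  · unfold c0V Finsupp.sum
    symm
    apply Finset.sum_subset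
    · intro a ha
      exact Finset.mem_range.mpr (hJ a ha)
    · intro a _ ha
      have hβa : β a = 0 := by simpa using ha
      have hne : p ^ ((s - ((a + 1 : ℕ) : ℤ)) % n).toNat ≠ 0 :=
        pow_ne_zero _ (Fact.out : p.Prime).ne_zero
      rw [hβa]
      simp only [c0Teich_zero, ZeroMemClass.coe_zero, zero_pow hne, zero_mul]

end

end Crest.Agent.LT
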