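/-
S0351 package CHAR0: the period matrix is invertible; the vectors `y(β,l)` span (helper88).
-/
import Crest.Agent.LT.Char0.Real0

set_option autoImplicit false
set_option linter.unusedSectionVars false

open Crest.LubinTate

namespace Crest.Agent.LT

noncomputable section

/-- Quasi-periodic functions vanish along residue classes. -/
theorem c0_quasi_zero {C : Type} [Field C] (n : ℕ) (pp : C) (hpp : pp ≠ 0) (G : ℤ → C)
    (hG : ∀ s, G (s - n) = pp * G s) (s q : ℤ) : G (s + n * q) = 0 ↔ G s = 0 := by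
  induction q using Int.induction_on with
  | zero => simp
  | succ q ih =>
    have h := hG (s + n * ((q : ℤ) + 1))
    have e : s + (n : ℤ) * ((q : ℤ) + 1) - n = s + n * q := by ring
    rw [e] at h
    rw [← ih, h]
    simp [hpp]
  | pred q ih =>
    have h := hG (s + n * (-(q : ℤ)))
    have e : s + (n : ℤ) * (-(q : ℤ)) - n = s + n * (-(q : ℤ) - 1) := by ring
    rw [e] at h
    rw [← ih, h]
    simp [hpp]

variable (p : ℕ) [Fact p.Prime] (n : ℕ)

local notation "k" => GaloisField p n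
local notation "E" => LTRing p n

variable {C : Type} [NontriviallyNormedField C] [IsUltrametricDist C] [CompleteSpace C] [CharZero C]

/-- The period matrix. -/
def c0Mat (τ : Fin (n - 1) → OC C) : Matrix (Fin (n - 1 + 1)) (Fin (n - 1 + 1)) C :=
  Matrix.of fun s j => Fin.cases (wPer p n τ ((s : ℕ) : ℤ)) (fun κ => dwPer p n τ κ ((s : ℕ) : ℤ)) j

theorem c0Mat_zero (τ : Fin (n - 1) → OC C) (s : Fin (n - 1 + 1)) :
    c0Mat p n τ s 0 = wPer p n τ ((s : ℕ) : ℤ) := rfl

theorem c0Mat_succ (τ : Fin (n - 1) → OC C) (s : Fin (n - 1 + 1)) (κ : Fin (n - 1)) :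
    c0Mat p n τ s κ.succ = dwPer p n τ κ ((s : ℕ) : ℤ) := rfl

/-- Every `s : ℤ` is `r + n q` with `r` in `Fin (n - 1 + 1)`. -/
theorem c0_int_decomp (hn : 1 ≤ n) (s : ℤ) :
    ∃ (r : Fin (n - 1 + 1)) (q : ℤ), s = ((r : ℕ) : ℤ) + n * q := by
  have hn0 : (0 : ℤ) < n := by exact_mod_cast hn
  have h1 := Int.emod_nonneg s hn0.ne'
  have h2 := Int.emod_lt_of_pos s hn0
  refine ⟨⟨(s % n).toNat, by omega⟩, s / n, ?_⟩
  simp only [Int.toNat_of_nonneg h1]
  exact (Int.emod_add_mul_ediv s n).symm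

/-- The period matrix is invertible. -/
theorem c0Mat_isUnit (hp0 : (p : C) ≠ 0) (hp1 : ‖(p : C)‖ < 1) (hn : 1 ≤ n)
    (τ : Fin (n - 1) → OC C) (hτ : ∀ j, ‖((τ j : OC C) : C)‖ < 1) :
    IsUnit (c0Mat p n τ).det := by
  rw [← Matrix.isUnit_iff_isUnit_det, ← Matrix.mulVec_injective_iff_isUnit]
  suffices hs : ∀ z, (c0Mat p n τ).mulVec z = 0 → z = 0 by
    intro x y hxy
    have := hs (x - y) (by rw [Matrix.mulVec_sub]; exact sub_eq_zero.mpr hxy)
    exact sub_eq_zero.mp this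
  intro z hz
  set G : ℤ → C := fun s => z 0 * wPer p n τ s + ∑ κ, z κ.succ * dwPer p n τ κ s with hG
  have hGper : ∀ s, G (s - n) = (p : C) * G s := by
    intro s
    simp only [hG, wPer_sub_n p n hp0 hp1 hn τ hτ s, dwPer_sub_n p n hp0 hp1 hn τ hτ _ s,
      mul_add, Finset.mul_sum]
    congr 1
    · ring
    · exact Finset.sum_congr rfl fun κ _ => by ring
  have hGr : ∀ r : Fin (n - 1 + 1), G ((r : ℕ) : ℤ) = 0 := by
    intro r
    have := congrFun hz r
    simp only [Matrix.mulVec, dotProduct, Pi.zero_apply] at this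
    rw [Fin.sum_univ_succ] at this
    simp only [c0Mat_zero, c0Mat_succ] at this
    rw [← this]
    simp only [hG]
    congr 1
    · ring
    · exact Finset.sum_congr rfl fun κ _ => by ring
  have hGall : ∀ s, G s = 0 := by
    intro s
    obtain ⟨r, q, rfl⟩ := c0_int_decomp n hn s
    exact (c0_quasi_zero n (p : C) hp0 G hGper _ q).mpr (hGr r)
  have hind := period_indep p n hp0 hp1 hn τ hτ (fun κ => z κ.succ) (-z 0) (by
    intro s
    have := hGall s
    simp only [hG] at this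
    linear_combination this)
  funext j
  refine Fin.cases ?_ (fun κ => ?_) j
  · have := hind.2
    simpa using this
  · exact congrFun hind.1 κ

variable [IsAlgClosed C]

/-- The vector `y(β,l)`. -/
def c0y (Z : E →+* OC C) (τ : Fin (n - 1) → OC C) (β : k) (l : ℕ) (s : ℤ) : C :=
  ((c0Teich p n Z β : OC C) : C) ^ (p ^ ((s - ((l + 1 : ℕ) : ℤ)) % n).toNat) *
    wPer p n τ (s - ((l + 1 : ℕ) : ℤ))

/-- The `n` characters `β ↦ [β]^(p^e)`. -/
def c0Chi (Z : E →+* OC C) (e : ℕ) : k →* C :=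
  (powMonoidHom (p ^ e)).comp ((OC C).subtype.toMonoidHom.comp (c0Teich p n Z))

theorem c0Chi_apply (Z : E →+* OC C) (e : ℕ) (β : k) :
    c0Chi p n Z e β = ((c0Teich p n Z β : OC C) : C) ^ (p ^ e) := rfl

/-- `[·]` is injective. -/
theorem c0Teich_injective (Z : E →+* OC C) (hZ : Function.Injective (Z.comp (MvPowerSeries.C))) :
    Function.Injective (c0Teich p n Z) := by
  intro a b hab
  have h1 : WittVector.teichmuller p a = WittVector.teichmuller p b := hZ hab
  have h2 := congrArg (fun x => WittVector.coeff x 0) h1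
  simpa [WittVector.teichmuller_coeff_zero] using h2

/-- The characters are distinct. -/
theorem c0Chi_injective (hn : 1 ≤ n) (Z : E →+* OC C) (hZ : Function.Injective (Z.comp (MvPowerSeries.C)))
    (e e' : ℕ) (he : e < n) (he' : e' < n) (h : c0Chi p n Z e = c0Chi p n Z e') : e = e' := by
  by_contra hne
  wlog hlt : e < e' generalizing e e'
  · exact this e' e he' he h.symm (Ne.symm hne) (by omega)
  have hp := (Fact.out : p.Prime)
  have hall : ∀ β : k, β ^ (p ^ e') = β ^ (p ^ e) := by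
    intro β
    have h1 := DFunLike.congr_fun h β
    simp only [c0Chi_apply] at h1
    have h2 : ((c0Teich p n Z (β ^ (p ^ e)) : OC C) : C) = c0Teich p n Z (β ^ (p ^ e')) := by
      simp only [map_pow, SubmonoidClass.coe_pow]
      exact h1
    exact (c0Teich_injective p n Z hZ (Subtype.ext h2)).symm
  let _ : Fintype k := Fintype.ofFinite k
  have hcard : Fintype.card k = p ^ n := by
    rw [← Nat.card_eq_fintype_card, GaloisField.card p n (by omega)]
  let P : Polynomial k := Polynomial.X ^ (p ^ e') - Polynomial.X ^ (p ^ e)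
  have hlt' : p ^ e < p ^ e' := Nat.pow_lt_pow_right hp.one_lt hlt
  have hdeg : P.natDegree = p ^ e' := by
    have : (Polynomial.X ^ (p ^ e) : Polynomial k).natDegree < (Polynomial.X ^ (p ^ e') : Polynomial k).natDegree := by
      simpa using hlt'
    simp only [P]
    rw [Polynomial.natDegree_sub_eq_left_of_natDegree_lt this]
    simp
  have hP0 : P = 0 := by
    apply Polynomial.eq_zero_of_natDegree_lt_card_of_eval_eq_zero P (f := fun x : k => x) (fun _ _ h => h)
    · intro β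
      simp [P, hall β]
    · rw [hcard, hdeg]
      exact Nat.pow_lt_pow_right hp.one_lt he'
  have hc : P.coeff (p ^ e') = 1 := by
    simp only [P, Polynomial.coeff_sub, Polynomial.coeff_X_pow, if_true]
    rw [if_neg (by omega)]
    simp
  rw [hP0] at hc
  simp at hc

theorem c0_emod_injective (hn : 1 ≤ n) (l : ℕ) (s s' : Fin (n - 1 + 1))
    (h : ((((s : ℕ) : ℤ) - ((l + 1 : ℕ) : ℤ)) % n).toNat = ((((s' : ℕ) : ℤ) - ((l + 1 : ℕ) : ℤ)) % n).toNat) :
    s = s' := by
  have hn0 : (0 : ℤ) < n := by exact_mod_cast hn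
  have h1 := Int.emod_nonneg (((s : ℕ) : ℤ) - ((l + 1 : ℕ) : ℤ)) hn0.ne'
  have h2 := Int.emod_nonneg (((s' : ℕ) : ℤ) - ((l + 1 : ℕ) : ℤ)) hn0.ne'
  have h3 : (((s : ℕ) : ℤ) - ((l + 1 : ℕ) : ℤ)) % n = (((s' : ℕ) : ℤ) - ((l + 1 : ℕ) : ℤ)) % n := by
    omega
  have h4 := Int.ModEq.add_right ((l + 1 : ℕ) : ℤ) (show Int.ModEq n _ _ from h3)
  simp only [sub_add_cancel] at h4
  have hs := s.2
  have hs' := s'.2
  have h5 : ((s : ℕ) : ℤ) % n = ((s : ℕ) : ℤ) := Int.emod_eq_of_lt (by omega) (by omega)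
  have h6 : ((s' : ℕ) : ℤ) % n = ((s' : ℕ) : ℤ) := Int.emod_eq_of_lt (by omega) (by omega)
  have h7 : ((s : ℕ) : ℤ) = ((s' : ℕ) : ℤ) := by
    rw [← h5, ← h6]
    exact h4
  exact Fin.ext (by exact_mod_cast h7)

/-- **Span.** A linear form killing all `y(β,l)` vanishes. -/
theorem c0_span (hp0 : (p : C) ≠ 0) (hp1 : ‖(p : C)‖ < 1) (hn : 1 ≤ n)
    (Z : E →+* OC C) (hZ : Function.Injective (Z.comp (MvPowerSeries.C)))
    (τ : Fin (n - 1) → OC C) (hτ : ∀ j, ‖((τ j : OC C) : C)‖ < 1)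
    (lam : Fin (n - 1 + 1) → C)
    (h : ∀ (β : k) (l : ℕ), l < n → ∑ s, lam s * c0y p n Z τ β l ((s : ℕ) : ℤ) = 0) : lam = 0 := by
  have hn0 : (0 : ℤ) < n := by exact_mod_cast hn
  have hcoef : ∀ (l : ℕ), l < n → ∀ (s : Fin (n - 1 + 1)),
      lam s * wPer p n τ (((s : ℕ) : ℤ) - ((l + 1 : ℕ) : ℤ)) = 0 := by
    intro l hl
    let e : Fin (n - 1 + 1) → ℕ := fun s => ((((s : ℕ) : ℤ) - ((l + 1 : ℕ) : ℤ)) % n).toNat
    have he : ∀ s, e s < n := by
      intro s
      have h1 := Int.emod_nonneg (((s : ℕ) : ℤ) - ((l + 1 : ℕ) : ℤ)) hn0.ne'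
      have h2 := Int.emod_lt_of_pos (((s : ℕ) : ℤ) - ((l + 1 : ℕ) : ℤ)) hn0
      simp only [e]
      omega
    have hinj : Function.Injective (fun s => c0Chi p n Z (e s)) := by
      intro s s' hss
      exact c0_emod_injective n hn l s s' (c0Chi_injective p n hn Z hZ _ _ (he s) (he s') hss)
    have hLI := (linearIndependent_monoidHom k C).comp _ hinj
    rw [Fintype.linearIndependent_iff] at hLI
    intro s
    refine hLI (fun s => lam s * wPer p n τ (((s : ℕ) : ℤ) - ((l + 1 : ℕ) : ℤ))) ?_ s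
    funext β
    have := h β l hl
    simp only [c0y] at this
    rw [Finset.sum_apply]
    simp only [Function.comp, Pi.smul_apply, smul_eq_mul, c0Chi_apply, Pi.zero_apply]
    rw [← this]
    exact Finset.sum_congr rfl fun s _ => by ring
  funext s
  obtain ⟨s₀, hs₀⟩ := exists_wPer_ne_zero p n hp0 hp1 hn τ hτ
  -- choose `l` with `s - (l+1) ≡ s₀`
  set x : ℤ := ((s : ℕ) : ℤ) - 1 - s₀ with hx
  have h1 := Int.emod_nonneg x hn0.ne'
  have hl : (((x % n).toNat + 1 : ℕ) : ℤ) = x % n + 1 := by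
    push_cast
    rw [Int.toNat_of_nonneg h1]
  have h2 := Int.emod_lt_of_pos x hn0
  have := hcoef (x % n).toNat (by omega) s
  have hne : wPer p n τ (((s : ℕ) : ℤ) - (((x % n).toNat + 1 : ℕ) : ℤ)) ≠ 0 := by
    intro h0
    apply hs₀
    have e : ((s : ℕ) : ℤ) - (((x % n).toNat + 1 : ℕ) : ℤ) = s₀ + n * (x / n) := by
      rw [hl]
      have := Int.emod_add_mul_ediv x n
      rw [hx] at this ⊢
      linarith
    rw [e] at h0
    exact (c0_quasi_zero n (p : C) hp0 (wPer p n τ) (wPer_sub_n p n hp0 hp1 hn τ hτ) s₀ _).mp h0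
  exact (mul_eq_zero.mp this).resolve_right hne

section Columns

variable {m' : ℕ} (e : Fin m' ≃ (GaloisField p n) × Fin n)

/-- The columns `y(β,l)`, `l < n`. -/
def c0Y (Z : E →+* OC C) (τ : Fin (n - 1) → OC C) : Matrix (Fin (n - 1 + 1)) (Fin m') C :=
  Matrix.of fun s a => c0y p n Z τ (e a).1 ((e a).2 : ℕ) ((s : ℕ) : ℤ)

theorem c0Y_surjective (hp0 : (p : C) ≠ 0) (hp1 : ‖(p : C)‖ < 1) (hn : 1 ≤ n)
    (Z : E →+* OC C) (hZ : Function.Injective (Z.comp (MvPowerSeries.C)))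
    (τ : Fin (n - 1) → OC C) (hτ : ∀ j, ‖((τ j : OC C) : C)‖ < 1) :
    Function.Surjective (c0Y p n e Z τ).mulVec := by
  by_contra hns
  have hlt : LinearMap.range (Matrix.mulVecLin (c0Y p n e Z τ)) < ⊤ := by
    rw [lt_top_iff_ne_top]
    intro h
    exact hns (LinearMap.range_eq_top.mp h)
  obtain ⟨f, hf0, hfle⟩ := Submodule.exists_le_ker_of_lt_top _ hlt
  let lam : Fin (n - 1 + 1) → C := fun s => f (fun j => if s = j then 1 else 0)
  have hf : ∀ x, f x = ∑ s, lam s * x s := by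
    intro x
    rw [LinearMap.pi_apply_eq_sum_univ f x]
    exact Finset.sum_congr rfl fun s _ => by simp [lam, mul_comm]
  have hlam : lam = 0 := by
    apply c0_span p n hp0 hp1 hn Z hZ τ hτ
    intro β l hl
    let a : Fin m' := e.symm (β, (⟨l, hl⟩ : Fin n))
    have h1 : f ((c0Y p n e Z τ).mulVec (Pi.single a 1)) = 0 := by
      have : (c0Y p n e Z τ).mulVec (Pi.single a 1) ∈ LinearMap.range (Matrix.mulVecLin (c0Y p n e Z τ)) :=
        ⟨_, rfl⟩
      exact hfle this
    rw [hf, Matrix.mulVec_single_one] at h1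
    have hea : e a = (β, (⟨l, hl⟩ : Fin n)) := e.apply_symm_apply _
    rw [← h1]
    refine Finset.sum_congr rfl fun s _ => ?_
    simp only [c0Y, Matrix.col_apply, Matrix.of_apply, hea]
  apply hf0
  ext x
  have hx := hf (Pi.single x 1)
  simpa [hlam] using hx

/-- Levels. -/
def c0Lev (q : Fin m' → ℕ) (a : Fin m') : ℕ := ((e a).2 : ℕ) + n * q a

theorem c0Lev_injective (hn : 1 ≤ n) (q : Fin m' → ℕ)
    (hq : ∀ a : Fin m', q a % (m' + 1) = a) : Function.Injective (c0Lev p n e q) := by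
  intro a b hab
  unfold c0Lev at hab
  have ha := (e a).2.2
  have hb := (e b).2.2
  have h1 : ((e a).2 : ℕ) = (e b).2 := by
    have h2 := congrArg (· % n) hab
    simp only [Nat.add_mul_mod_self_left] at h2
    rw [Nat.mod_eq_of_lt ha, Nat.mod_eq_of_lt hb] at h2
    exact h2
  rw [h1] at hab
  have h3 : n * q a = n * q b := by omega
  have h4 : q a = q b := Nat.eq_of_mul_eq_mul_left (by omega) h3
  apply Fin.ext
  rw [← hq a, ← hq b, h4]

/-- The token family with tokens `(e a).1` at levels `c0Lev`. -/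
def c0BetaT (q : Fin m' → ℕ) : ℕ →₀ k :=
  Finsupp.mapDomain (c0Lev p n e q) (Finsupp.equivFunOnFinite.symm fun a => (e a).1)

theorem c0_wPer_sub_mul (hp0 : (p : C) ≠ 0) (hp1 : ‖(p : C)‖ < 1) (hn : 1 ≤ n)
    (τ : Fin (n - 1) → OC C) (hτ : ∀ j, ‖((τ j : OC C) : C)‖ < 1) (x : ℤ) (q : ℕ) :
    wPer p n τ (x - n * q) = (p : C) ^ q * wPer p n τ x := by
  induction q with
  | zero => simp
  | succ q ih =>
    have e1 : x - (n : ℤ) * ((q + 1 : ℕ) : ℤ) = (x - n * q) - n := by push_cast; ring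
    rw [e1, wPer_sub_n p n hp0 hp1 hn τ hτ, ih]
    ring

theorem c0V_betaT (hp0 : (p : C) ≠ 0) (hp1 : ‖(p : C)‖ < 1) (hn : 1 ≤ n)
    (Z : E →+* OC C) (τ : Fin (n - 1) → OC C) (hτ : ∀ j, ‖((τ j : OC C) : C)‖ < 1)
    (q : Fin m' → ℕ) (hinj : Function.Injective (c0Lev p n e q)) (s : ℤ) :
    c0V p n Z τ (c0BetaT p n e q) s =
      ∑ a, c0y p n Z τ (e a).1 ((e a).2 : ℕ) s * (p : C) ^ q a := by
  unfold c0V c0BetaT
  rw [Finsupp.sum_mapDomain_index_inj hinj, Finsupp.sum_fintype]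
  · refine Finset.sum_congr rfl fun a _ => ?_
    simp only [Finsupp.equivFunOnFinite_symm_apply_apply, c0y]
    have e1 : s - ((c0Lev p n e q a + 1 : ℕ) : ℤ) =
        (s - (((e a).2 : ℕ) + 1 : ℕ)) - n * q a := by
      unfold c0Lev
      push_cast
      ring
    have e2 : (s - ((c0Lev p n e q a + 1 : ℕ) : ℤ)) % n = (s - (((e a).2 : ℕ) + 1 : ℕ)) % n := by
      rw [e1, sub_eq_add_neg, ← mul_neg, Int.add_mul_emod_self_left]
    rw [e2, e1, c0_wPer_sub_mul p n hp0 hp1 hn τ hτ]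
    ring
  · intro i
    have hne : ∀ N : ℕ, p ^ N ≠ 0 := fun N => pow_ne_zero _ (Fact.out : p.Prime).ne_zero
    simp only [c0Teich_zero, ZeroMemClass.coe_zero, zero_pow (hne _), zero_mul]

end Columns

theorem c0V_shift (hp0 : (p : C) ≠ 0) (hp1 : ‖(p : C)‖ < 1) (hn : 1 ≤ n)
    (Z : E →+* OC C) (τ : Fin (n - 1) → OC C) (hτ : ∀ j, ‖((τ j : OC C) : C)‖ < 1)
    (β : ℕ →₀ k) (s : ℤ) :
    c0V p n Z τ (c0Shift p n β) s = (p : C) * c0V p n Z τ β s := by
  unfold c0V c0Shift
  rw [Finsupp.sum_mapDomain_index_inj (c0_add_inj n), Finsupp.mul_sum]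
  refine Finset.sum_congr rfl fun a _ => ?_
  have e1 : s - ((a + n + 1 : ℕ) : ℤ) = (s - ((a + 1 : ℕ) : ℤ)) - n := by
    push_cast
    ring
  have e2 : (s - ((a + n + 1 : ℕ) : ℤ)) % n = (s - ((a + 1 : ℕ) : ℤ)) % n := by
    rw [e1]
    exact Int.sub_emod_right _ _
  simp only [e2]
  rw [e1, wPer_sub_n p n hp0 hp1 hn τ hτ]
  ring

end

/-- The leading form of a nonzero series. -/
theorem c0_leading {C : Type} [NormedField C] [IsUltrametricDist C] {m : ℕ}
    (f : MvPowerSeries (Fin m) (OC C)) (hf : f ≠ 0) :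
    ∃ (d : ℕ) (fd : MvPolynomial (Fin m) C), fd ≠ 0 ∧
      (∀ e : Fin m →₀ ℕ, MvPolynomial.coeff e fd = if e.degree = d then cf f e else 0) ∧
      (∀ e : Fin m →₀ ℕ, e.degree < d → cf f e = 0) := by
  classical
  have hex : ∃ x : ℕ, ∃ e : Fin m →₀ ℕ, e.degree = x ∧ cf f e ≠ 0 := by
    by_contra hno
    push Not at hno
    apply hf
    ext e
    have := hno e.degree e rfl
    simpa using this
  obtain ⟨e₀, he₀d, he₀⟩ := Nat.find_spec hex
  set d := Nat.find hex with hd
  refine ⟨d, ∑ e ∈ Finset.finsuppAntidiag Finset.univ d, MvPolynomial.monomial e (cf f e), ?_, ?_, ?_⟩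
  · intro h0
    have h1 := congrArg (MvPolynomial.coeff e₀) h0
    rw [MvPolynomial.coeff_sum] at h1
    simp only [MvPolynomial.coeff_monomial, MvPolynomial.coeff_zero] at h1
    rw [Finset.sum_ite_eq'] at h1
    rw [if_pos] at h1
    · exact he₀ h1
    · rw [Finset.mem_finsuppAntidiag]
      refine ⟨?_, Finset.subset_univ _⟩
      rw [← he₀d, Finsupp.degree_eq_sum]
  · intro e
    rw [MvPolynomial.coeff_sum]
    simp only [MvPolynomial.coeff_monomial]
    rw [Finset.sum_ite_eq']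
    have : e ∈ Finset.finsuppAntidiag Finset.univ d ↔ e.degree = d := by
      rw [Finset.mem_finsuppAntidiag, Finsupp.degree_eq_sum]
      constructor
      · exact fun h => h.1
      · exact fun h => ⟨h, Finset.subset_univ _⟩
    simp only [this]
  · intro e he
    by_contra hne
    exact Nat.find_min hex he ⟨e, rfl, hne⟩

end Crest.Agent.LT
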