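/-
S0351 package CHAR0/CORE: the characteristic-`0` core. See BLUEPRINT.md §C0.
-/
import Crest.Agent.LT.Char0.Span0
import Crest.Agent.LT.Char0.Leading
import Crest.Agent.LT.CharP.Deep
import Crest.Agent.LT.ValuedPoint

set_option autoImplicit false

open Crest.LubinTate

namespace Crest.Agent.LT

noncomputable section

variable {C : Type} [NontriviallyNormedField C] [IsUltrametricDist C] [CompleteSpace C]

-- `poly_vanish_product`, `leading_form_vanish`: see `Char0/Leading.lean` (sorry-free).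

variable (p : ℕ) [Fact p.Prime] (n : ℕ)

local notation "k" => GaloisField p n
local notation "E" => LTRing p n

/-- A uniform radius. -/
theorem c0_radius (hn : 1 ≤ n) {C : Type} [NontriviallyNormedField C] [IsUltrametricDist C] (Z : E →+* OC C)
    (hZ : ∀ x ∈ IsLocalRing.maximalIdeal E, ‖((Z x : OC C) : C)‖ < 1) :
    ∃ r : ℝ, 0 ≤ r ∧ r < 1 ∧ ∀ x ∈ IsLocalRing.maximalIdeal E, ‖((Z x : OC C) : C)‖ ≤ r := by
  classical
  obtain ⟨h, rfl⟩ : ∃ h, n = h + 1 := ⟨n - 1, by omega⟩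
  let G : Finset (LTRing p (h + 1)) := insert (p : LTRing p (h + 1)) ((Finset.Icc 1 h).image (uu p (h + 1)))
  obtain ⟨x₀, hx₀, hmax⟩ := Finset.exists_max_image G (fun x => ‖((Z x : OC C) : C)‖) ⟨(p : LTRing p (h + 1)), Finset.mem_insert_self _ _⟩
  have hGmem : ∀ x ∈ G, x ∈ IsLocalRing.maximalIdeal (LTRing p (h + 1)) := by
    intro x hx
    rcases Finset.mem_insert.mp hx with rfl | hx
    · exact natCast_p_mem_maximal p (h + 1)
    · obtain ⟨i, _, rfl⟩ := Finset.mem_image.mp hx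
      exact uu_mem_maximal p (h + 1) i
  refine ⟨‖((Z x₀ : OC C) : C)‖, norm_nonneg _, hZ _ (hGmem _ hx₀), ?_⟩
  intro x hx
  rw [← JJ_n p (h + 1) hn] at hx
  change x ∈ Ideal.span _ at hx
  induction hx using Submodule.span_induction with
  | mem y hy =>
    apply hmax
    rcases hy with hy | ⟨i, hi, rfl⟩
    · rw [Set.mem_singleton_iff.mp hy]
      exact Finset.mem_insert_self _ _
    · exact Finset.mem_insert_of_mem (Finset.mem_image_of_mem _ (by simpa using hi))
  | zero => simp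
  | add a b _ _ ha hb =>
    rw [map_add]
    exact (IsUltrametricDist.norm_add_le_max _ _).trans (max_le ha hb)
  | smul c a _ ha =>
    rw [smul_eq_mul, map_mul]
    have h1 : ‖((Z c : OC C) : C)‖ ≤ 1 := (Z c).2
    push_cast
    rw [norm_mul]
    calc _ ≤ 1 * ‖((Z a : OC C) : C)‖ := by gcongr
      _ ≤ _ := by simpa using ha

/-- The core over a fixed valued point. -/
theorem c0_core {C : Type} [NontriviallyNormedField C] [IsUltrametricDist C] [CompleteSpace C] [CharZero C]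
    [IsAlgClosed C] (hn : 1 ≤ n) (P : Ideal E) (M : ℕ) (hst : DeepStable p n M P)
    (Z : E →+* OC C) (hZ : ∀ x ∈ IsLocalRing.maximalIdeal E, ‖((Z x : OC C) : C)‖ < 1)
    (hZP : ∀ x ∈ P, Z x = 0) (hp0 : (p : C) ≠ 0) (hp1 : ‖(p : C)‖ < 1)
    (hZinj : Function.Injective (Z.comp (MvPowerSeries.C))) (f : E) (hfP : f ∈ P) (hf : f ≠ 0) : False := by
  classical
  set τ : Fin (n - 1) → OC C := fun j => Z (MvPowerSeries.X j) with hτdef
  have hτ : ∀ j, ‖((τ j : OC C) : C)‖ < 1 := fun j => hZ _ (c0_X_mem p n j)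
  have hreal : ∀ β : ℕ →₀ k, CongX (EndZ.aut p n (c0Delta p n hn β)) M →
      ∃ (φ : E →ₐ[WittVector p k] E) (θ : PowerSeries E),
      (LTRing.residue p n).comp φ.toRingHom = LTRing.residue p n ∧
      IsFGHom ((HH p n).map φ.toRingHom) (HH p n) θ ∧
      PowerSeries.map (LTRing.residue p n) θ = EndZ.aut p n (c0Delta p n hn β) ∧
      Ideal.comap φ.toRingHom P = P := fun β hβ =>
    hst _ (EndZ.aut_isFGAut p n hn _) hβ
  choose! φ θ h1 h2 h3 h4 using hreal
  -- the family
  let τ' : (ℕ →₀ k) → Fin (n - 1) → OC C := fun β j => Z (φ β (MvPowerSeries.X j))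
  let Ao : (ℕ →₀ k) → Fin (n - 1) → OC C := fun β j => τ' β j - τ j
  let A : (ℕ →₀ k) → Fin (n - 1) → C := fun β j => ((Ao β j : OC C) : C)
  let c : (ℕ →₀ k) → C := fun β => ((PowerSeries.coeff 1 (PowerSeries.map Z (θ β)) : OC C) : C)
  let V : (ℕ →₀ k) → Fin (n - 1 + 1) → C := fun β s => c0V p n Z τ β ((s : ℕ) : ℤ)
  have hτA : ∀ β, τ + Ao β = τ' β := fun β => by
    funext j
    simp [Ao]
  obtain ⟨r, hr0, hr1, hr⟩ := c0_radius p n hn Z hZ
  have hφmem : ∀ β, CongX (EndZ.aut p n (c0Delta p n hn β)) M →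
      ∀ x ∈ IsLocalRing.maximalIdeal E, φ β x ∈ IsLocalRing.maximalIdeal E := by
    intro β hβ x hx
    rw [← ker_residue, RingHom.mem_ker] at hx ⊢
    have := congrArg (fun f => f x) (h1 β hβ)
    simp only [RingHom.comp_apply] at this
    rw [← hx, ← this]
    rfl
  have hτ'r : ∀ β, CongX (EndZ.aut p n (c0Delta p n hn β)) M → ∀ j, ‖((τ' β j : OC C) : C)‖ ≤ r :=
    fun β hβ j => hr _ (hφmem β hβ _ (c0_X_mem p n j))
  have hτr : ∀ j, ‖((τ j : OC C) : C)‖ ≤ r := fun j => hr _ (c0_X_mem p n j)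
  -- Taylor
  choose Ks hKs using fun s : Fin (n - 1 + 1) => period_taylor p n hp0 hp1 hn r hr1 ((s : ℕ) : ℤ)
  let K : ℝ := ∑ s, |Ks s|
  have hKle : ∀ s, Ks s ≤ K := fun s =>
    (le_abs_self _).trans (Finset.single_le_sum (f := fun s => |Ks s|) (fun _ _ => abs_nonneg _) (Finset.mem_univ s))
  -- period matrix
  let Mat := c0Mat p n τ
  have hMat : IsUnit Mat.det := c0Mat_isUnit p n hp0 hp1 hn τ hτ
  let w : Fin (n - 1 + 1) → C := fun s => wPer p n τ ((s : ℕ) : ℤ)
  -- the relation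
  have hrelation : ∀ β, CongX (EndZ.aut p n (c0Delta p n hn β)) M → ∀ s : ℤ,
      c β * wPer p n (τ' β) s = wPer p n τ s + c0V p n Z τ β s :=
    fun β hβ s => c0_relation p n Z hZ hp0 hp1 hn β (φ β) (θ β) (h1 β hβ) (h2 β hβ) (h3 β hβ) s
  have hcnorm : ∀ β, ‖c β‖ ≤ 1 := fun β =>
    (PowerSeries.coeff 1 (PowerSeries.map Z (θ β)) : OC C).2
  have hrel : ∀ᶠ β in c0Filter p n, ∀ s, ‖c β * (w s + ∑ κ : Fin (n - 1), Mat s κ.succ * A β κ) - w s - V β s‖ ≤
      K * ‖A β‖ ^ 2 := by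
    filter_upwards [c0_eventually_congX p n hn M] with β hβ s
    have hT := hKs s τ (Ao β) hτr (fun j => by
      have : τ j + Ao β j = τ' β j := congrFun (hτA β) j
      rw [this]
      exact hτ'r β hβ j)
    rw [hτA β] at hT
    have hR := hrelation β hβ ((s : ℕ) : ℤ)
    have e1 : c β * (w s + ∑ κ : Fin (n - 1), Mat s κ.succ * A β κ) - w s - V β s =
        - (c β * (wPer p n (τ' β) ((s : ℕ) : ℤ) - wPer p n τ ((s : ℕ) : ℤ) -
          ∑ κ, dwPer p n τ κ ((s : ℕ) : ℤ) * ((Ao β κ : OC C) : C))) := by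
      simp only [w, V]
      have e2 : ∀ κ : Fin (n - 1), Mat s κ.succ * A β κ = dwPer p n τ κ ((s : ℕ) : ℤ) * ((Ao β κ : OC C) : C) :=
        fun κ => rfl
      simp only [e2]
      linear_combination hR
    rw [e1, norm_neg, norm_mul]
    have hA2 : ‖(fun j => ((Ao β j : OC C) : C))‖ = ‖A β‖ := rfl
    rw [hA2] at hT
    calc ‖c β‖ * _ ≤ 1 * _ := by gcongr; exact hcnorm β
      _ = _ := one_mul _
      _ ≤ Ks s * ‖A β‖ ^ 2 := hT
      _ ≤ K * ‖A β‖ ^ 2 := by gcongr; exact hKle s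
  -- continuity
  have hF : PowerSeries.map (LTRing.residue p n) (mulSeries (HH p n) p) = PowerSeries.X ^ (p ^ n) := by
    rw [← mulSeries_map, HH_residue p n hn, Gam0_pSeries p n hn]
  have hI : htIdeal p (HH p n) n = IsLocalRing.maximalIdeal E := by
    rw [htIdeal_HH p n hn n le_rfl, JJ_n p n hn]
  have hAc : Filter.Tendsto (fun β => (fun j => A β j, c β - 1)) (c0Filter p n) (nhds 0) := by
    rw [Metric.tendsto_nhds]
    intro ε hε
    obtain ⟨N, hN⟩ := exists_pow_lt_of_lt_one hε hr1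
    obtain ⟨M', hM'⟩ := continuity p n (HH p n) hn hF hI N 2
    filter_upwards [c0_eventually_congX p n hn M, c0_eventually_congX p n hn M'] with β hβ hβ'
    obtain ⟨hc1, hc2⟩ := hM' _ (φ β) (θ β) hβ' (h1 β hβ) (h2 β hβ) (h3 β hβ)
    have hpow : 0 ≤ r ^ N := pow_nonneg hr0 N
    have hA : ‖(fun j => A β j)‖ ≤ r ^ N := by
      rw [pi_norm_le_iff_of_nonneg hpow]
      intro j
      have := norm_le_of_mem_maximal_pow p n Z r hr0 hr N _ (hc1 (MvPowerSeries.X j))
      simpa [A, Ao, τ', hτdef] using this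
    have hc : ‖c β - 1‖ ≤ r ^ N := by
      have := norm_le_of_mem_maximal_pow p n Z r hr0 hr N _ (hc2 1 (by omega))
      simpa [c, PowerSeries.coeff_map] using this
    rw [dist_zero_right, Prod.norm_def]
    exact (max_le hA hc).trans_lt hN
  -- vanishing
  let kk : WittVector p k →+* OC C := Z.comp (MvPowerSeries.C)
  let fbar : MvPowerSeries (Fin (n - 1)) (OC C) := MvPowerSeries.map kk f
  have hfbar : fbar ≠ 0 := by
    intro h0
    apply hf
    apply MvPowerSeries.ext
    intro e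
    have := congrArg (MvPowerSeries.coeff e) h0
    simp only [fbar, MvPowerSeries.coeff_map, map_zero] at this
    have h7 : MvPowerSeries.coeff e f = 0 :=
      (injective_iff_map_eq_zero (Z.comp MvPowerSeries.C)).mp hZinj _ this
    simpa using h7
  let τc : Fin (n - 1) → C := fun j => ((τ j : OC C) : C)
  have hτc : ∀ j, ‖τc j‖ < 1 := hτ
  let ftil := taylorAt fbar τc hτc
  have hftil : ftil ≠ 0 := taylorAt_ne_zero fbar hfbar τc hτc
  have hvan : ∀ᶠ β in c0Filter p n, evMv ftil (A β) = 0 := by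
    filter_upwards [c0_eventually_congX p n hn M] with β hβ
    have hAlt : ∀ i, ‖A β i‖ < 1 := by
      intro i
      have e5 : A β i = ((τ' β i : OC C) : C) + (-((τ i : OC C) : C)) := by
        simp [A, Ao, sub_eq_add_neg]
      rw [e5]
      refine (IsUltrametricDist.norm_add_le_max _ _).trans_lt (max_lt ?_ ?_)
      · exact (hτ'r β hβ i).trans_lt hr1
      · rw [norm_neg]
        exact hτ i
    rw [evMv_taylorAt fbar τc hτc (A β) hAlt]
    have hZ' : ∀ x ∈ IsLocalRing.maximalIdeal E, ‖(((Z.comp (φ β).toRingHom) x : OC C) : C)‖ < 1 :=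
      fun x hx => hZ _ (hφmem β hβ x hx)
    have hev := eval_of_ringHom p n (Z.comp (φ β).toRingHom) hZ' f
    rw [c0_comp_C] at hev
    have hmem : (φ β).toRingHom f ∈ P := by
      have : f ∈ Ideal.comap (φ β).toRingHom P := by
        rw [h4 β hβ]
        exact hfP
      exact this
    have hzero : ((Z.comp (φ β).toRingHom) f : OC C) = 0 := hZP _ hmem
    rw [hzero] at hev
    have e3 : (τc + A β) = fun i => (((Z.comp (φ β).toRingHom) (MvPowerSeries.X i) : OC C) : C) := by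
      funext i
      simp only [Pi.add_apply, τc, A, Ao, τ', RingHom.comp_apply]
      push_cast
      ring_nf
      rfl
    rw [e3]
    simpa using hev.symm
  obtain ⟨d, fd, hfd, hfd', hord⟩ := c0_leading ftil hftil
  have hlead : ∀ β, MvPolynomial.eval (fun κ : Fin (n - 1) => (Mat⁻¹.mulVec (V β)) κ.succ) fd = 0 := by
    intro β
    refine leading_form_vanish (c0Filter p n) (p : C) hp0 hp1 Mat hMat w (fun s => rfl) V A c K
      hAc hrel (c0Shift p n) ?_ ?_ ftil hftil hvan d fd hfd hfd' hord β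
    · intro a s
      exact c0V_shift p n hp0 hp1 hn Z τ hτ a _
    · intro S hS
      exact c0Filter_iterate p n hn S hS
  -- span
  obtain ⟨m', ⟨e'⟩⟩ := Finite.exists_equiv_fin (k × Fin n)
  let e : Fin m' ≃ k × Fin n := e'.symm
  let Y := c0Y p n e Z τ
  have hY : Function.Surjective Y.mulVec := c0Y_surjective p n e hp0 hp1 hn Z hZinj τ hτ
  let L : Matrix (Fin (n - 1)) (Fin m') C := Matrix.submatrix (Mat⁻¹ * Y) Fin.succ id
  have hLt : ∀ t : Fin m' → C, L.mulVec t = fun κ : Fin (n - 1) => (Mat⁻¹.mulVec (Y.mulVec t)) κ.succ := by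
    intro t
    funext κ
    rw [Matrix.mulVec_mulVec]
    rfl
  have hL : Function.Surjective L.mulVec := by
    intro v
    obtain ⟨t, ht⟩ := hY (Mat.mulVec (Fin.cons 0 v))
    refine ⟨t, ?_⟩
    rw [hLt, ht, Matrix.mulVec_mulVec, Matrix.nonsing_inv_mul _ hMat, Matrix.one_mulVec]
    funext κ
    simp
  let T : Fin m' → Set C := fun a => {x | ∃ q : ℕ, x = (p : C) ^ q ∧ q % (m' + 1) = a}
  have hT : ∀ a, (T a).Infinite := by
    intro a
    have hinj : Function.Injective (fun i : ℕ => (p : C) ^ ((a : ℕ) + (m' + 1) * i)) := by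
      intro i j hij
      have h5 : ‖(p : C)‖ ^ ((a : ℕ) + (m' + 1) * i) = ‖(p : C)‖ ^ ((a : ℕ) + (m' + 1) * j) := by
        have := congrArg norm hij
        simpa using this
      have h6 := pow_right_injective₀ (norm_pos_iff.mpr hp0) hp1.ne h5
      have h7 : (m' + 1) * i = (m' + 1) * j := by omega
      exact Nat.eq_of_mul_eq_mul_left (by omega) h7
    refine Set.infinite_of_injective_forall_mem hinj ?_
    intro i
    refine ⟨_, rfl, ?_⟩
    rw [Nat.add_mul_mod_self_left, Nat.mod_eq_of_lt (by omega)]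
  have hzero := poly_vanish_product fd L hL T hT (by
    intro t ht
    choose q hq hq' using ht
    have hinj := c0Lev_injective p n e hn q hq'
    have hV : V (c0BetaT p n e q) = Y.mulVec t := by
      funext s
      simp only [V]
      rw [c0V_betaT p n e hp0 hp1 hn Z τ hτ q hinj]
      simp only [Matrix.mulVec, dotProduct, Y, c0Y, Matrix.of_apply]
      exact Finset.sum_congr rfl fun a _ => by rw [hq a]
    rw [hLt, ← hV]
    exact hlead _)
  exact hfd hzero

/-- A prime ideal over a local ring: images of the maximal ideal are non-units. -/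
theorem c0_mk_mem_maximal {R : Type*} [CommRing R] [IsLocalRing R] (P : Ideal R) (hP : P.IsPrime)
    [IsLocalRing (R ⧸ P)] (x : R) (hx : x ∈ IsLocalRing.maximalIdeal R) :
    Ideal.Quotient.mk P x ∈ IsLocalRing.maximalIdeal (R ⧸ P) := by
  rw [IsLocalRing.mem_maximalIdeal, mem_nonunits_iff]
  intro hu
  obtain ⟨y, hy⟩ := hu.exists_right_inv
  obtain ⟨y', rfl⟩ := Ideal.Quotient.mk_surjective y
  rw [← map_mul, ← map_one (Ideal.Quotient.mk P), Ideal.Quotient.eq] at hy
  have h1 : x * y' - 1 ∈ IsLocalRing.maximalIdeal R := IsLocalRing.le_maximalIdeal hP.ne_top hy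
  have h2 : x * y' ∈ IsLocalRing.maximalIdeal R := Ideal.mul_mem_right _ _ hx
  have h3 : (1 : R) ∈ IsLocalRing.maximalIdeal R := by
    have := Ideal.sub_mem _ h2 h1
    simpa using this
  exact (Ideal.ne_top_iff_one _).mp (IsLocalRing.maximalIdeal.isMaximal R).ne_top h3

/-- Characteristic zero from `p ≠ 0`, `‖p‖ < 1`. -/
theorem c0_charZero {C : Type} [NontriviallyNormedField C] [IsUltrametricDist C]
    (hp0 : (p : C) ≠ 0) (hp1 : ‖(p : C)‖ < 1) : CharZero C := by
  obtain ⟨q, hq⟩ := CharP.exists C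
  rcases CharP.char_is_prime_or_zero C q with hqp | hq0
  · exfalso
    by_cases hqeq : q = p
    · subst hqeq
      exact hp0 (CharP.cast_eq_zero C q)
    · have hcop : IsCoprime (p : ℤ) (q : ℤ) := by
        apply Nat.isCoprime_iff_coprime.mpr
        exact (Nat.coprime_primes (Fact.out : p.Prime) hqp).mpr (Ne.symm hqeq)
      obtain ⟨a, b, hab⟩ := hcop
      have h1 : ((a : C)) * (p : C) = 1 := by
        have := congrArg (Int.cast : ℤ → C) hab
        push_cast at this
        rw [CharP.cast_eq_zero C q] at this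
        simpa using this
      have h2 : ‖(a : C)‖ ≤ 1 := IsUltrametricDist.norm_intCast_le_one C a
      have h3 := congrArg norm h1
      rw [norm_mul, norm_one] at h3
      have h4 : ‖(a : C)‖ * ‖(p : C)‖ < 1 := by
        calc _ ≤ 1 * ‖(p : C)‖ := by gcongr
          _ < 1 := by simpa using hp1
      exact h4.ne h3
  · subst hq0
    exact CharP.charP_to_charZero C

/-- **Core in characteristic `0`.** `P` prime, `p ∉ P`, deep-stable ⟹ `P = 0`.

Proof. `f ∈ P`, `f ≠ 0`. `exists_valued_point` for `E₀/P`, `w = p`: `C`, `z`; `C` has characteristic `0` (‖p‖ < 1, `p ≠ 0`). `kk₀ = z ∘ C : W(k) → 𝒪_C` injective (kernel a prime of the DVR not containing `p`). `f̄ = map kk₀ f ≠ 0`, `τ = z(u)`,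
`f̃ = taylorAt f̄ τ`. Tokens: `𝒟` = finitely supported `(β_a)_{a ≥ 1}`, `β_a ∈ k`; `δ = ∑^Γ_a β_a X^(p^a)`, `g = X +_Γ δ`. For deep `δ`: `φ_δ, θ_δ`, `Z' = z ∘ φ_δ`, `τ' = Z'(u)`, `A = τ' - τ`: `f̃(A) = 0`. `θ'` = image of `θ_δ`, tokens `t` (`exists_tokens`, `OC_roots`);
mod `𝔪_C`: `tokenSum_unique`: `t̄_0 = 1`, `t̄_a = β̄_a`. `b_0 = 1`, `b_a = [β_a]` := `kk₀(teichmuller β_a)`. `period_equivariance`: `t_0 w_s(τ') = w_s(τ) + V_s(δ)`, `V_s(δ) = ∑_a [β_a]^(p^((s-a) mod n)) w_{s-a}(τ)`. `period_taylor`. `continuity`: `A → 0`, `t_0 → 1`.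
`Mat = (w_s, ∂_k w_s)_{s<n}` invertible by `period_indep` (and `wPer_sub_n` to pass from all `s` to `s<n`). `σ δ` = shift of levels by `n` (`V(σ δ) = p V(δ)`, `wPer_sub_n`, `β^q = β`). `leading_form_vanish`: `f_d(Π V(δ)) = 0` for all `δ ∈ 𝒟`.
Span: if `λ` kills all `y(β,l) = (β^(p^((s-l) mod n)) w_{s-l})_s` then Fourier over `k^×` (the `n` characters `[β]^(p^(s-l))` are distinct, Vandermonde) gives `λ_s w_{s-l} = 0` for all `s,l`, so `λ = 0` as some `w ≠ 0`. Choose a basis `y_a = y(β_a,l_a)`, `l_a ∈ [1,n]`, distinct `a`; `T_a = {p^s : s ≡ a mod (n+1)}`: `δ` with tokens `β_a` at level `l_a + n s_a`, levels distinct, has `V(δ) = ∑_a p^(s_a) y_a`. `poly_vanish_product`: `f_d ∘ Π = 0`, `Π` onto: `f_d = 0`: contradiction. -/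
theorem coreCharZero (P : Ideal E) (hP : P.IsPrime) (hp : (p : E) ∉ P) (hn : 1 ≤ n) (M : ℕ)
    (hst : DeepStable p n M P) : P = ⊥ := by
  by_contra hne
  obtain ⟨f, hfP, hf⟩ := Submodule.exists_mem_ne_zero_of_ne_bot hne
  have : IsDomain (E ⧸ P) := Ideal.Quotient.isDomain P
  have : Nontrivial (E ⧸ P) := Ideal.Quotient.nontrivial_iff.mpr hP.ne_top
  have : IsLocalRing (E ⧸ P) := IsLocalRing.of_surjective' (Ideal.Quotient.mk P) Ideal.Quotient.mk_surjective
  have hwm : Ideal.Quotient.mk P (p : E) ∈ IsLocalRing.maximalIdeal (E ⧸ P) :=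
    c0_mk_mem_maximal P hP _ (natCast_p_mem_maximal p n)
  have hw0 : Ideal.Quotient.mk P (p : E) ≠ 0 := by
    rw [Ne, Ideal.Quotient.eq_zero_iff_mem]
    exact hp
  obtain ⟨C, _, _, _, _, z, hz0, hz⟩ := exists_valued_point (E ⧸ P) _ hw0 hwm
  let Z : E →+* OC C := z.comp (Ideal.Quotient.mk P)
  have hZ : ∀ x ∈ IsLocalRing.maximalIdeal E, ‖((Z x : OC C) : C)‖ < 1 :=
    fun x hx => hz _ (c0_mk_mem_maximal P hP x hx)
  have hZp : Z (p : E) = ((p : ℕ) : OC C) := map_natCast Z p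
  have hp0 : (p : C) ≠ 0 := by
    intro h0
    apply hz0
    have h1 : Z (p : E) = 0 := by
      rw [hZp]
      apply Subtype.ext
      simpa using h0
    exact h1
  have hp1 : ‖(p : C)‖ < 1 := by
    have := hZ (p : E) (natCast_p_mem_maximal p n)
    rw [hZp] at this
    simpa using this
  have : CharZero C := c0_charZero p hp0 hp1
  have hZP : ∀ x ∈ P, Z x = 0 := by
    intro x hx
    change z (Ideal.Quotient.mk P x) = 0
    rw [Ideal.Quotient.eq_zero_iff_mem.mpr hx, map_zero]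
  have hZinj : Function.Injective (Z.comp (MvPowerSeries.C)) := by
    rw [injective_iff_map_eq_zero]
    intro a ha
    by_contra hane
    obtain ⟨m, b, hab⟩ := WittVector.exists_eq_pow_p_mul' a hane
    have hu : IsUnit ((Z.comp MvPowerSeries.C) (b : WittVector p k)) := b.isUnit.map _
    rw [hab, map_mul, map_pow, map_natCast] at ha
    rcases mul_eq_zero.mp ha with h5 | h5
    · apply hp0
      have h7 : ((p : ℕ) : OC C) = 0 := eq_zero_of_pow_eq_zero h5
      have h8 := congrArg (fun x : OC C => (x : C)) h7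
      simpa using h8
    · exact hu.ne_zero h5
  exact c0_core p n hn P M hst Z hZ hZP hp0 hp1 hZinj f hfP hf

end

end Crest.Agent.LT
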